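import Mathlib.Order.Interval.Finset.Nat
import Mathlib.Data.Fintype.Card
import Mathlib.Tactic

set_option autoImplicit false

namespace Vale.Agent.P181.H530

open Finset

/-- The staircase: the ranks of the special columns. -/
def ph (a s : ℕ) (i : Fin a) : ℕ :=
  if (i : ℕ) < (a + 1) / 2 then i else i + (s - (a + 1) / 2)

lemma ph_strictMono (a s : ℕ) : StrictMono (ph a s) := by
  intro i j hij
  have := Fin.lt_def.1 hij
  simp only [ph]
  split_ifs <;> omega

lemma ph_lt {a s : ℕ} (i : Fin a) (k : Fin s) :
    ph a s i + k + 1 < a + s + (s - (a + 1) / 2) := by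
  have := i.2
  have := k.2
  simp only [ph]
  split_ifs <;> omega

lemma ph_window (a s : ℕ) (i : Fin a) (k : ℕ) :
    (univ.filter (fun i' : Fin a => ph a s i ≤ ph a s i' + k ∧
      ph a s i' + k < ph a s i + s)).card ≤ min s ((a + 1) / 2) := by
  classical
  have hinj := (ph_strictMono a s).injective
  have h1 : (univ.filter (fun i' : Fin a => ph a s i ≤ ph a s i' + k ∧
      ph a s i' + k < ph a s i + s)).card ≤ s := by
    refine (Finset.card_le_card_of_injOn (t := range s)
      (fun i' : Fin a => ph a s i' + k - ph a s i) ?_ ?_).trans (Finset.card_range s).le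
    · intro i' hi'
      have h2 := (Finset.mem_filter.1 (Finset.mem_coe.1 hi')).2
      rw [Finset.mem_coe, Finset.mem_range]
      simp only
      omega
    · intro i' hi' i'' hi'' h
      have h2 := (Finset.mem_filter.1 (Finset.mem_coe.1 hi')).2
      have h3 := (Finset.mem_filter.1 (Finset.mem_coe.1 hi'')).2
      simp only at h
      apply hinj
      omega
  refine le_min h1 ?_
  by_cases hs : s ≤ (a + 1) / 2
  · exact h1.trans hs
  · set B := univ.filter (fun i' : Fin a => ph a s i ≤ ph a s i' + k ∧
      ph a s i' + k < ph a s i + s) with hB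
    have hmem : ∀ i' ∈ B, ph a s i ≤ ph a s i' + k ∧ ph a s i' + k < ph a s i + s :=
      fun i' hi' => (Finset.mem_filter.1 hi').2
    by_cases h2 : ∀ i' ∈ B, (i' : ℕ) < (a + 1) / 2
    · refine (Finset.card_le_card_of_injOn (t := range ((a + 1) / 2))
        (fun i' : Fin a => (i' : ℕ)) ?_ ?_).trans (Finset.card_range _).le
      · intro i' hi'
        rw [Finset.mem_coe, Finset.mem_range]
        exact h2 i' hi'
      · intro i' _ i'' _ h
        exact Fin.ext h
    · push Not at h2
      obtain ⟨i2, hi2, h2⟩ := h2
      by_cases h3 : ∀ i' ∈ B, (a + 1) / 2 ≤ (i' : ℕ)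
      · refine (Finset.card_le_card_of_injOn (t := range ((a + 1) / 2))
          (fun i' : Fin a => (i' : ℕ) - (a + 1) / 2) ?_ ?_).trans (Finset.card_range _).le
        · intro i' hi'
          have h4 := h3 i' hi'
          have := i'.2
          rw [Finset.mem_coe, Finset.mem_range]
          simp only
          omega
        · intro i' hi' i'' hi'' h
          have h4 := h3 i' hi'
          have h5 := h3 i'' hi''
          simp only at h
          apply Fin.ext
          omega
      · push Not at h3
        obtain ⟨i1, hi1, h3⟩ := h3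
        have h4 := hmem i1 hi1
        have h5 := hmem i2 hi2
        have hp1 : ph a s i1 = i1 := if_pos h3
        have hp2 : ph a s i2 = i2 + (s - (a + 1) / 2) := if_neg (by omega)
        rw [hp1] at h4
        rw [hp2] at h5
        have key : ∀ i' ∈ B, ph a s i - k ≤ (i' : ℕ) ∧ (i' : ℕ) + k < ph a s i + (a + 1) / 2 := by
          intro i' hi'
          have h6 := hmem i' hi'
          by_cases h7 : (i' : ℕ) < (a + 1) / 2
          · have hp : ph a s i' = i' := if_pos h7
            rw [hp] at h6
            omega
          · have hp : ph a s i' = i' + (s - (a + 1) / 2) := if_neg h7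
            rw [hp] at h6
            omega
        refine (Finset.card_le_card_of_injOn (t := range ((a + 1) / 2))
          (fun i' : Fin a => (i' : ℕ) - (ph a s i - k)) ?_ ?_).trans (Finset.card_range _).le
        · intro i' hi'
          have h6 := key i' hi'
          have h7 := key i2 hi2
          rw [Finset.mem_coe, Finset.mem_range]
          simp only
          omega
        · intro i' hi' i'' hi'' h
          have h6 := key i' hi'
          have h7 := key i'' hi''
          simp only at h
          apply Fin.ext
          omega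

lemma ph_diff {a s : ℕ} (hs : s < a) (k k' : Fin s) (hk : k < k') :
    ∃ i i' : Fin a, ph a s i + k = ph a s i' + k' := by
  have h1 := k'.2
  have h2 := Fin.lt_def.1 hk
  by_cases hd : (k' : ℕ) - k < (a + 1) / 2
  · refine ⟨⟨k' - k, by omega⟩, ⟨0, by omega⟩, ?_⟩
    have hp1 : ph a s ⟨k' - k, by omega⟩ = k' - k := if_pos hd
    have hp2 : ph a s ⟨0, by omega⟩ = 0 := if_pos (by
      change 0 < (a + 1) / 2
      omega)
    rw [hp1, hp2]
    omega
  · refine ⟨⟨(a + 1) / 2, by omega⟩, ⟨s - (k' - k), by omega⟩, ?_⟩
    have hp1 : ph a s ⟨(a + 1) / 2, by omega⟩ = (a + 1) / 2 + (s - (a + 1) / 2) := if_neg (by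
      change ¬ (a + 1) / 2 < (a + 1) / 2
      omega)
    have hp2 : ph a s ⟨s - (k' - k), by omega⟩ = s - (k' - k) := if_pos (by
      change s - ((k' : ℕ) - k) < (a + 1) / 2
      omega)
    rw [hp1, hp2]
    omega

end Vale.Agent.P181.H530
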