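import Vale.Agent.P181.H530.D2
import Vale.Agent.P181.H530.S1
import Vale.Agent.P181.H54.BulkA
import Vale.Agent.P181.H54.BulkB

set_option autoImplicit false

open scoped TensorProduct

namespace Vale.Agent.P181.H530

open Vale.Agent.P181 Vale.Agent.P181.H280 Vale.Agent.P181.H179 Vale.Agent.P181.H54B Finset

variable {n : ℕ}

/-- The array map is injective on the bulk, for every residue `s` of `b` modulo `a`: short first
row, or long last row. -/
theorem arrMap_bulk' {a q s θ : ℕ} (hq : 2 ≤ q) (hs : 1 ≤ s) (hsa : s < a)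
    (ε : Fin (q * a + s) ≃ Gp a q s) (E : Equiv.Perm (Fin a × Fin (q * a + s)))
    (hE : ∀ i j, (E (i, j)).1 = Sum.elim Prod.fst (fun _ => i) (ε j))
    (hb1 : 2 * (a * (a - 1) * (q - 1)) * (q ^ 2 - 1) ^ θ < q ^ (2 * θ))
    (hb2 : 2 * (a * q * s) * (q - 1) ^ (a - min s ((a + 1) / 2)) <
      q ^ (a - min s ((a + 1) / 2))) (han : a ≤ n)
    (lam : Fin n → ℕ) (hlam : (∀ m, lam m + θ ≤ 2 * (q * a)) ∨
      ∀ m : Fin n, (m : ℕ) < a → θ + 2 * s ≤ lam m)
    (htall : ∀ m : Fin n, (m : ℕ) < a → a + s + (s - (a + 1) / 2) ≤ lam m + 1)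
    (x : Sym[ℂ]^a (Sym[ℂ]^(q * a + s) (Fin n → ℂ)))
    (hx : x ∈ hwSpace lam (plethAct a (q * a + s) n))
    (hx0 : arrMap a (q * a + s) E (Fin n → ℂ) x = 0) : x = 0 := by
  classical
  obtain ⟨l, rfl⟩ := exists_elOf x
  apply elOf_zero_of_fullForm
  by_contra hne
  obtain ⟨N, hN1, hN2⟩ : ∃ N, (∀ m, lam m ≤ N) ∧ (N + θ ≤ 2 * (q * a) ∨
      ∀ m : Fin n, (m : ℕ) < a → θ + 2 * s ≤ lam m) := by
    rcases hlam with h | h
    · have h0 := h ⟨0, by omega⟩
      refine ⟨2 * (q * a) - θ, fun m => ?_, Or.inl (by omega)⟩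
      have := h m
      omega
    · exact ⟨∑ m, lam m, fun m => Finset.single_le_sum (f := lam) (fun _ _ => Nat.zero_le _)
        (Finset.mem_univ m), Or.inr h⟩
  obtain ⟨N', hN', l', e, hV, hcnt⟩ := exists_VV_col N (wt lam) (fullForm l)
    (fullForm_hw lam l hx) hne
    (fun m hm => by rw [wt, dif_neg (by omega)]) (fun m => by
      rw [wt]
      split_ifs with h
      · exact hN1 _
      · exact Nat.zero_le _)
  have hcol0 : ∀ t, Function.Injective (fun u => e ⟨t, u⟩) := by
    intro t u v h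
    by_contra huv
    exact hV (VV_anti _ e t huv h)
  have hrow := VV_card (fullForm_deg l) hV
  let C0 : Fin a → Finset (Fin N') := fun i => univ.filter (fun t => ∃ u, e ⟨t, u⟩ = i)
  have hC0 : ∀ i t, t ∈ C0 i ↔ ∃ u, e ⟨t, u⟩ = i := fun i t => by
    simp only [C0, Finset.mem_filter, Finset.mem_univ, true_and]
  -- boxes of a row and columns of a row
  have hbij : ∀ i (R : Fin N' → Prop) [DecidablePred R],
      (univ.filter (fun p : Box l' => e p = i ∧ R p.1)).card = ((C0 i).filter R).card := by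
    intro i R _
    apply Finset.card_bij (fun p _ => p.1)
    · intro p hp
      rw [Finset.mem_filter] at hp
      rw [Finset.mem_filter, hC0]
      exact ⟨⟨p.2, hp.2.1⟩, hp.2.2⟩
    · intro p hp p' hp' h
      rw [Finset.mem_filter] at hp hp'
      obtain ⟨t, u⟩ := p
      obtain ⟨t', u'⟩ := p'
      simp only at h
      subst h
      rw [hcol0 t (hp.2.1.trans hp'.2.1.symm)]
    · intro t ht
      rw [Finset.mem_filter, hC0] at ht
      obtain ⟨⟨u, hu⟩, hR⟩ := ht
      exact ⟨⟨t, u⟩, Finset.mem_filter.2 ⟨Finset.mem_univ _, hu, hR⟩, rfl⟩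
  have hC0card : ∀ i, (C0 i).card = q * a + s := by
    intro i
    have h1 := hbij i (fun _ => True)
    simp only [and_true, Finset.filter_true] at h1
    rw [← h1]
    exact hrow i
  -- the full columns
  set W := a + s + (s - (a + 1) / 2) - 1 with hW
  let H : Finset (Fin N') := univ.filter (fun t => a - 1 < l' t)
  have hHeq : H.card = lam ⟨a - 1, by omega⟩ := by
    have h1 : H.card = wt lam (a - 1) := hcnt (a - 1)
    rw [h1, wt, dif_pos (by omega : a - 1 < n)]
  have hHcard : W ≤ H.card := by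
    have h2 := htall ⟨a - 1, by omega⟩ (by
      change a - 1 < a
      omega)
    rw [hHeq]
    omega
  have hfull : ∀ t ∈ H, ∀ i, ∃ u, e ⟨t, u⟩ = i := by
    intro t ht
    have h1 : a - 1 < l' t := (Finset.mem_filter.1 ht).2
    have h2 : l' t ≤ a := by
      have h3 := Fintype.card_le_of_injective _ (hcol0 t)
      rwa [Fintype.card_fin, Fintype.card_fin] at h3
    have h3 : Function.Bijective (fun u => e ⟨t, u⟩) := by
      rw [Fintype.bijective_iff_injective_and_card]
      refine ⟨hcol0 t, ?_⟩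
      rw [Fintype.card_fin, Fintype.card_fin]
      omega
    exact fun i => h3.2 i
  have hWpos : 0 < W := by omega
  let col : ℕ → Fin N' := fun m =>
    (H.equivFin.symm (Fin.castLE hHcard (if h : m < W then ⟨m, h⟩ else ⟨0, hWpos⟩))).1
  have hcolH : ∀ m, col m ∈ H := fun m => (H.equivFin.symm _).2
  have hcolinj : ∀ m m', m < W → m' < W → col m = col m' → m = m' := by
    intro m m' hm hm' h
    have h1 := H.equivFin.symm.injective (Subtype.ext h)
    rw [dif_pos hm, dif_pos hm'] at h1
    have h2 := congrArg (fun z : Fin H.card => (z : ℕ)) h1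
    exact h2
  let A : Fin s → Fin a → ℕ := fun k i => ph a s i + k
  have hAW : ∀ k i, A k i < W := by
    intro k i
    have := ph_lt i k
    simp only [A]
    omega
  have hcol : ∀ k i k' i', col (A k i) = col (A k' i') → A k i = A k' i' :=
    fun k i k' i' h => hcolinj _ _ (hAW k i) (hAW k' i') h
  have hA : ∀ k, StrictMono (A k) := fun k i i' h => Nat.add_lt_add_right (ph_strictMono a s h) _
  have hAk : ∀ i k k', A k i = A k' i → k = k' := by
    intro i k k' h
    simp only [A] at h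
    exact Fin.ext (by omega)
  -- the special columns of a row
  let D : Fin a → Finset (Fin N') := fun i => univ.image (fun k : Fin s => col (A k i))
  have hD : ∀ i t, t ∈ D i ↔ ∃ k : Fin s, t = col (A k i) := by
    intro i t
    simp only [D, Finset.mem_image, Finset.mem_univ, true_and]
    constructor
    · rintro ⟨k, rfl⟩
      exact ⟨k, rfl⟩
    · rintro ⟨k, rfl⟩
      exact ⟨k, rfl⟩
  have hDcard : ∀ i, (D i).card = s := by
    intro i
    have h1 : (D i).card = (univ : Finset (Fin s)).card :=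
      Finset.card_image_of_injective _ (fun k k' h => hAk i k k' (hcol _ _ _ _ h))
    rw [h1, Finset.card_univ, Fintype.card_fin]
  have hcolC0 : ∀ m i, col m ∈ C0 i := fun m i => (hC0 i _).2 (hfull _ (hcolH m) i)
  have hDC : ∀ i, D i ⊆ C0 i := by
    intro i t ht
    obtain ⟨k, rfl⟩ := (hD i t).1 ht
    exact hcolC0 _ i
  let C : Fin a → Finset (Fin N') := fun i => C0 i \ D i
  have hC : ∀ i, (C i).card = q * a := by
    intro i
    have h1 := Finset.card_sdiff_of_subset (hDC i)
    have h2 : (C i).card = (C0 i).card - (D i).card := h1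
    rw [h2, hC0card, hDcard]
    omega
  have hint : ∀ i j, i ≠ j → θ ≤ (C i ∩ C j).card := by
    intro i j _
    rcases hN2 with hN2 | hN2
    · have h1 := Finset.card_union_add_card_inter (C i) (C j)
      have h2 : (C i ∪ C j).card ≤ N' := by
        have h3 := Finset.card_le_univ (C i ∪ C j)
        rwa [Fintype.card_fin] at h3
      rw [hC, hC] at h1
      omega
    · have h1 : H \ (D i ∪ D j) ⊆ C i ∩ C j := by
        intro t ht
        rw [Finset.mem_sdiff, Finset.mem_union, not_or] at ht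
        rw [Finset.mem_inter]
        exact ⟨Finset.mem_sdiff.2 ⟨(hC0 i t).2 (hfull t ht.1 i), ht.2.1⟩,
          Finset.mem_sdiff.2 ⟨(hC0 j t).2 (hfull t ht.1 j), ht.2.2⟩⟩
      have h2 := Finset.card_le_card h1
      have h3 := Finset.le_card_sdiff (D i ∪ D j) H
      have h4 := Finset.card_union_le (D i) (D j)
      rw [hDcard, hDcard] at h4
      have h5 := hN2 ⟨a - 1, by omega⟩ (by
        change a - 1 < a
        omega)
      rw [hHeq] at h3
      omega
  -- the windows
  let T : Fin a → Fin s → Finset (Fin N') := fun i k =>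
    univ.image (fun i' : Fin a => col (A k i')) \ D i
  have hT : ∀ i k, T i k ⊆ C i := by
    intro i k t ht
    rw [Finset.mem_sdiff] at ht
    obtain ⟨i', _, rfl⟩ := Finset.mem_image.1 ht.1
    exact Finset.mem_sdiff.2 ⟨hcolC0 _ i, ht.2⟩
  have hM : ∀ i k, a - min s ((a + 1) / 2) ≤ (T i k).card := by
    intro i k
    have h1 : ((univ.image (fun i' : Fin a => col (A k i'))) ∩ D i).card ≤
        min s ((a + 1) / 2) := by
      refine le_trans ?_ (ph_window a s i k)
      have h2 : (univ.image (fun i' : Fin a => col (A k i'))) ∩ D i ⊆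
          (univ.filter (fun i' : Fin a => ph a s i ≤ ph a s i' + k ∧
            ph a s i' + k < ph a s i + s)).image (fun i' : Fin a => col (A k i')) := by
        intro t ht
        rw [Finset.mem_inter] at ht
        obtain ⟨i', _, rfl⟩ := Finset.mem_image.1 ht.1
        obtain ⟨k', hk'⟩ := (hD i _).1 ht.2
        have h3 := hcol _ _ _ _ hk'
        have h4 := k'.2
        apply Finset.mem_image_of_mem
        rw [Finset.mem_filter]
        simp only [A] at h3
        refine ⟨Finset.mem_univ _, ?_, ?_⟩ <;> omega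
      exact (Finset.card_le_card h2).trans Finset.card_image_le
    have h5 : (univ.image (fun i' : Fin a => col (A k i'))).card = a := by
      rw [Finset.card_image_of_injective _
        (fun i' i'' h => (hA k).injective (hcol _ _ _ _ h)), Finset.card_univ, Fintype.card_fin]
    have h6 := Finset.card_sdiff_add_card_inter (univ.image (fun i' : Fin a => col (A k i'))) (D i)
    have h7 : (T i k).card = (univ.image (fun i' : Fin a => col (A k i')) \ D i).card := rfl
    omega
  obtain ⟨lab, hsize, hk, hkk, hwin⟩ := sepLabW_of_bound (by omega) C hC hint T hT hM hb1 hb2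
  -- the groups of the boxes
  let fm : Box l' → Gp a q s := fun p =>
    if h : ∃ k : Fin s, p.1 = col (A k (e p)) then Sum.inr h.choose
    else Sum.inl (e p, lab (e p) p.1)
  have hfr : ∀ p k, fm p = Sum.inr k ↔ p.1 = col (A k (e p)) := by
    intro p k
    by_cases h : ∃ k : Fin s, p.1 = col (A k (e p))
    · have h1 : fm p = Sum.inr h.choose := dif_pos h
      rw [h1]
      have h2 := h.choose_spec
      constructor
      · intro h3
        rw [Sum.inr_injective h3] at h2
        exact h2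
      · intro h3
        rw [hAk (e p) _ _ (hcol _ _ _ _ (h2.symm.trans h3))]
    · have h1 : fm p = Sum.inl (e p, lab (e p) p.1) := dif_neg h
      rw [h1]
      constructor
      · intro h3
        exact absurd h3 Sum.inl_ne_inr
      · intro h3
        exact absurd ⟨k, h3⟩ h
  have hfl : ∀ p i k, fm p = Sum.inl (i, k) ↔ e p = i ∧ (p.1 ∉ D i ∧ lab i p.1 = k) := by
    intro p i k
    by_cases h : ∃ k : Fin s, p.1 = col (A k (e p))
    · have h1 : fm p = Sum.inr h.choose := dif_pos h
      rw [h1]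
      constructor
      · intro h3
        exact absurd h3 Sum.inr_ne_inl
      · rintro ⟨rfl, h3, _⟩
        exact absurd ((hD _ _).2 h) h3
    · have h1 : fm p = Sum.inl (e p, lab (e p) p.1) := dif_neg h
      rw [h1]
      constructor
      · intro h3
        have h4 := Sum.inl_injective h3
        have h5 := congrArg Prod.fst h4
        have h6 := congrArg Prod.snd h4
        simp only at h5 h6
        subst h5
        exact ⟨rfl, fun h7 => h ((hD _ _).1 h7), h6⟩
      · rintro ⟨rfl, _, rfl⟩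
        rfl
  have hinC : ∀ i t, t ∈ C i → ∃ u, e ⟨t, u⟩ = i ∧ t ∉ D i := by
    intro i t ht
    obtain ⟨h1, h2⟩ := Finset.mem_sdiff.1 ht
    obtain ⟨u, hu⟩ := (hC0 i t).1 h1
    exact ⟨u, hu, h2⟩
  apply hV
  apply arr_zero hq ε E hE l hx0 e fm ?_ hcol0 ?_ ?_ ?_ ?_ ?_ A hA col hcol ?_ ?_ ?_
  · -- sizes
    rintro (⟨i, k⟩ | k)
    · have h1 : (univ.filter (fun p : Box l' => fm p = Sum.inl (i, k))) =
          univ.filter (fun p : Box l' => e p = i ∧ (p.1 ∉ D i ∧ lab i p.1 = k)) := by
        ext p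
        rw [Finset.mem_filter, Finset.mem_filter, hfl]
      rw [h1, hbij i (fun t => t ∉ D i ∧ lab i t = k), ← hsize i k]
      congr 1
      ext t
      simp only [C, Finset.mem_filter, Finset.mem_sdiff, and_assoc]
    · have h1 : (univ.filter (fun p : Box l' => fm p = Sum.inr k)).card =
          (univ : Finset (Fin a)).card := by
        apply Finset.card_bij (fun p _ => e p)
        · intro p _
          exact Finset.mem_univ _
        · rintro ⟨t, u⟩ hp ⟨t', u'⟩ hp' h
          have h2 := (hfr _ k).1 (Finset.mem_filter.1 hp).2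
          have h3 := (hfr _ k).1 (Finset.mem_filter.1 hp').2
          simp only at h2 h3
          rw [← h] at h3
          have h4 : t = t' := h2.trans h3.symm
          subst h4
          rw [hcol0 t h]
        · intro i _
          obtain ⟨u, hu⟩ := hfull _ (hcolH (A k i)) i
          refine ⟨⟨col (A k i), u⟩, Finset.mem_filter.2 ⟨Finset.mem_univ _, ?_⟩, hu⟩
          rw [hfr, hu]
      rw [h1, Finset.card_univ, Fintype.card_fin]
  · intro p i k h
    exact ((hfl p i k).1 h).1
  · intro i j hij k hk1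
    obtain ⟨t, ht, h1, h2⟩ := hk i j hij k hk1
    rw [Finset.mem_inter] at ht
    obtain ⟨u, hu, hu'⟩ := hinC i t ht.1
    obtain ⟨v, hv, hv'⟩ := hinC j t ht.2
    exact ⟨t, u, v, (hfl _ _ _).2 ⟨hu, hu', h1⟩, (hfl _ _ _).2 ⟨hv, hv', h2⟩⟩
  · intro i j hij k k' hk1
    obtain ⟨t, ht, h1, h2⟩ := hkk i j hij k k' hk1
    rw [Finset.mem_inter] at ht
    obtain ⟨u, hu, hu'⟩ := hinC i t ht.1
    obtain ⟨v, hv, hv'⟩ := hinC j t ht.2
    exact ⟨t, u, v, (hfl _ _ _).2 ⟨hu, hu', h1⟩, (hfl _ _ _).2 ⟨hv, hv', h2⟩⟩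
  · rintro k ⟨i, j⟩
    obtain ⟨t, ht, h1⟩ := hwin i k j
    obtain ⟨v, hv, hv'⟩ := hinC i t (hT i k ht)
    obtain ⟨i', _, hi'⟩ := Finset.mem_image.1 (Finset.mem_sdiff.1 ht).1
    obtain ⟨u, hu⟩ := (hC0 i' t).1 (by rw [← hi']; exact hcolC0 _ i')
    refine ⟨t, u, v, ?_, (hfl _ _ _).2 ⟨hv, hv', h1⟩⟩
    rw [hfr, hu]
    exact hi'.symm
  · intro k k' hkne
    have h1 : ∃ i i' : Fin a, A k i = A k' i' := by
      rcases lt_or_gt_of_ne hkne with h | h
      · exact ph_diff hsa k k' h
      · obtain ⟨i, i', h2⟩ := ph_diff hsa k' k h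
        exact ⟨i', i, h2.symm⟩
    obtain ⟨i, i', h2⟩ := h1
    obtain ⟨u, hu⟩ := hfull _ (hcolH (A k i)) i
    obtain ⟨v, hv⟩ := hfull _ (hcolH (A k i)) i'
    refine ⟨col (A k i), u, v, ?_, ?_⟩
    · rw [hfr, hu]
    · rw [hfr, hv]
      exact congrArg col h2
  · intro k i i'
    exact hfull _ (hcolH (A k i)) i'
  · intro k i u hu
    rw [hfr, hu]
  · intro p k h
    exact (hfr p k).1 h

/-- One equivariant map for all the weights of the bulk. -/
theorem bulk_all' {a q s θ : ℕ} (hq : 2 ≤ q) (hs : 1 ≤ s) (hsa : s < a) (han : a ≤ n)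
    (hb1 : 2 * (a * (a - 1) * (q - 1)) * (q ^ 2 - 1) ^ θ < q ^ (2 * θ))
    (hb2 : 2 * (a * q * s) * (q - 1) ^ (a - min s ((a + 1) / 2)) <
      q ^ (a - min s ((a + 1) / 2))) :
    ∃ Ψ : Pleth a (q * a + s) n →ₗ[ℂ] Pleth (q * a + s) a n, IsEquivariant Ψ ∧
      ∀ lam : Fin n → ℕ, ((∀ i, lam i + θ ≤ 2 * (q * a)) ∨
        ∀ i : Fin n, (i : ℕ) < a → θ + 2 * s ≤ lam i) →
        (∀ i : Fin n, (i : ℕ) < a → a + s + (s - (a + 1) / 2) ≤ lam i + 1) →
        InjOnHW Ψ lam ∧ plethMult a (q * a + s) n lam ≤ plethMult (q * a + s) a n lam := by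
  obtain ⟨ε, E, hE⟩ := exists_bulk_arr a q s
  have hinj : ∀ lam : Fin n → ℕ, ((∀ i, lam i + θ ≤ 2 * (q * a)) ∨
        ∀ i : Fin n, (i : ℕ) < a → θ + 2 * s ≤ lam i) →
      (∀ i : Fin n, (i : ℕ) < a → a + s + (s - (a + 1) / 2) ≤ lam i + 1) →
      ∀ x ∈ hwSpace lam (plethAct a (q * a + s) n),
        arrMap a (q * a + s) E (Fin n → ℂ) x = 0 → x = 0 :=
    fun lam hlam htall x hx h0 =>
      arrMap_bulk' hq hs hsa ε E hE hb1 hb2 han lam hlam htall x hx h0
  refine ⟨arrMap a (q * a + s) E (Fin n → ℂ),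
    fun g x => LinearMap.congr_fun (arrMap_equivariant a (q * a + s) E (Matrix.toLin' g)) x,
    fun lam hlam htall => ⟨fun x hx h0 => hinj lam hlam htall x hx h0, ?_⟩⟩
  exact finrank_le_of_inj (arrMap a (q * a + s) E (Fin n → ℂ)) _ _
    (fun x hx => arrMap_hwSpace E lam x hx) (hinj lam hlam htall)

end Vale.Agent.P181.H530
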