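import Vale.Agent.P181.GP.Spec
import Vale.Agent.P181.H569.Conv

/-!
P181, graph power map theorem, row CLS: from the algebraic form to the combinatorial form.
-/

set_option autoImplicit false

namespace Vale.Agent.P181.H530.GCls

open Finset MvPolynomial Vale.Agent.P181.H569 Vale.Agent.P181.GP

variable {a Q : ℕ}

/-- A letter becomes the sum of the pieces of its class and type. -/
noncomputable def Th (ty : Fin Q → Bool) :
    MvPolynomial (Fin a × Bool) ℂ →ₐ[ℂ] MvPolynomial (Fin a × Fin Q) ℂ :=
  aeval (fun x => ∑ κ ∈ univ.filter (fun κ => ty κ = x.2), X (x.1, κ))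

lemma Th_X (ty : Fin Q → Bool) (x : Fin a × Bool) :
    Th ty (X x) = ∑ κ ∈ univ.filter (fun κ => ty κ = x.2), X (x.1, κ) := by
  rw [Th, aeval_X]

/-- The weights. -/
noncomputable def w2 (ty : Fin Q → Bool) (p : Fin a × Fin Q) : Fin a × Bool →₀ ℕ :=
  Finsupp.single (p.1, ty p.2) 1

lemma Th_hom (ty : Fin Q → Bool) (m : Fin a × Bool →₀ ℕ) :
    IsWeightedHomogeneous (w2 (a := a) ty) (Th ty (monomial m 1)) m := by
  induction m using Finsupp.induction_linear with
  | zero =>
    have h1 : (monomial (0 : Fin a × Bool →₀ ℕ)) (1 : ℂ) = 1 := rfl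
    rw [h1, map_one]
    exact isWeightedHomogeneous_one ℂ _
  | add m m' hm hm' =>
    have h1 : (monomial (m + m')) (1 : ℂ) = monomial m 1 * monomial m' 1 := by
      rw [monomial_mul, one_mul]
    rw [h1, map_mul]
    exact hm.mul hm'
  | single x k =>
    have h1 : (monomial (Finsupp.single x k)) (1 : ℂ) = X x ^ k := by
      rw [X_pow_eq_monomial]
    have h2 : IsWeightedHomogeneous (w2 (a := a) ty) (Th ty (X x)) (Finsupp.single x 1) := by
      rw [Th_X]
      rw [← mem_weightedHomogeneousSubmodule]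
      refine Submodule.sum_mem _ fun κ hκ => ?_
      rw [mem_weightedHomogeneousSubmodule]
      have h3 := isWeightedHomogeneous_X ℂ (w2 (a := a) ty) (x.1, κ)
      have h4 : w2 ty (x.1, κ) = Finsupp.single x 1 := by
        unfold w2
        rw [(Finset.mem_filter.1 hκ).2]
      rwa [h4] at h3
    have h5 : Finsupp.single x k = k • Finsupp.single x 1 := by
      rw [Finsupp.smul_single, smul_eq_mul, mul_one]
    rw [h1, map_pow, h5]
    exact h2.pow k

/-- The exponent counts the pieces. -/
lemma cnt (ty : Fin Q → Bool) (y : Fin a × Fin Q → Fin a) (t : Fin a) (m : Fin a × Bool →₀ ℕ)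
    (h : coeff (ind y t) (Th ty (monomial m 1)) ≠ 0) (i : Fin a) (z : Bool) :
    m (i, z) = (univ.filter (fun κ => ty κ = z ∧ y (i, κ) = t)).card := by
  have h1 := Th_hom ty m h
  rw [Finsupp.weight_apply, Finsupp.sum_fintype _ _ (fun _ => by simp)] at h1
  rw [← h1, Finsupp.finsetSum_apply, Finset.card_filter, Fintype.sum_prod_type,
    Finset.sum_eq_single i]
  · refine Finset.sum_congr rfl fun κ _ => ?_
    rw [Finsupp.smul_apply, ind_apply, w2, Finsupp.single_apply]
    by_cases h2 : ty κ = z <;> by_cases h3 : y (i, κ) = t <;> simp [h2, h3]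
  · intro i' _ hi'
    refine Finset.sum_eq_zero fun κ _ => ?_
    rw [Finsupp.smul_apply, w2, Finsupp.single_apply, if_neg, smul_zero]
    intro h2
    exact hi' (congrArg Prod.fst h2)
  · intro h2
    exact absurd (Finset.mem_univ i) h2

lemma Th_mem {c : Bool → ℕ} (ty : Fin Q → Bool) {f : MvPolynomial (Fin a × Bool) ℂ}
    (hf : f ∈ GP.LT a true ^ c true * GP.LT a false ^ c false) :
    Th ty f ∈ LL (fun p : Fin a × Fin Q => ty p.2) true ^ c true *
      LL (fun p : Fin a × Fin Q => ty p.2) false ^ c false := by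
  have h1 : ∀ z, Submodule.map (Th (a := a) ty).toLinearMap (GP.LT a z) ≤
      LL (fun p : Fin a × Fin Q => ty p.2) z := by
    intro z
    rw [GP.LT, Submodule.map_span, Submodule.span_le]
    rintro _ ⟨_, ⟨i, rfl⟩, rfl⟩
    rw [AlgHom.toLinearMap_apply, Th_X]
    refine Submodule.sum_mem _ fun κ hκ => ?_
    exact Submodule.subset_span ⟨⟨(i, κ), (Finset.mem_filter.1 hκ).2⟩, rfl⟩
  have h2 : Submodule.map (Th (a := a) ty).toLinearMap
      (GP.LT a true ^ c true * GP.LT a false ^ c false) ≤
      LL (fun p : Fin a × Fin Q => ty p.2) true ^ c true *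
      LL (fun p : Fin a × Fin Q => ty p.2) false ^ c false := by
    rw [Submodule.map_mul, Submodule.map_pow, Submodule.map_pow]
    exact mul_le_mul' (pow_le_pow_left' (h1 true) _) (pow_le_pow_left' (h1 false) _)
  exact h2 (Submodule.mem_map_of_mem hf)

/-- The top monomial. -/
lemma top_eq (ty : Fin Q → Bool) {c : Bool → ℕ}
    (hc : ∀ z, (univ.filter (fun κ => ty κ = z)).card = c z) (t : Fin a) :
    (X (t, true) ^ c true * X (t, false) ^ c false : MvPolynomial (Fin a × Bool) ℂ) =
      ∏ j : Fin Q, X (t, ty j) := by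
  rw [← Finset.prod_filter_mul_prod_filter_not univ (fun j => ty j = true)]
  congr 1
  · rw [Finset.prod_congr rfl (fun j hj => by rw [(Finset.mem_filter.1 hj).2]),
      Finset.prod_const, hc]
  · have h1 : univ.filter (fun j => ¬ ty j = true) = univ.filter (fun j => ty j = false) := by
      ext j
      simp
    rw [h1, Finset.prod_congr rfl (fun j hj => by rw [(Finset.mem_filter.1 hj).2]),
      Finset.prod_const, hc]

lemma ind_fst (t : Fin a) : ind (Prod.fst : Fin a × Fin Q → Fin a) t =
    ∑ j : Fin Q, Finsupp.single (t, j) 1 := by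
  ext p
  obtain ⟨i, κ⟩ := p
  rw [ind_apply, Finsupp.finsetSum_apply]
  simp only [Finsupp.single_apply, Prod.mk.injEq]
  by_cases h : i = t
  · simp [h]
  · have h' : ¬ t = i := fun h1 => h h1.symm
    simp [h, h']

/-- The coefficient of the top monomial. -/
lemma top_coeff (ty : Fin Q → Bool) (t : Fin a) :
    coeff (ind Prod.fst t) (Th ty (∏ j : Fin Q, X (t, ty j))) ≠ 0 := by
  classical
  have h1 : Th ty (∏ j : Fin Q, X (t, ty j)) =
      ∑ f ∈ Fintype.piFinset (fun j : Fin Q => univ.filter (fun κ => ty κ = ty j)),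
        monomial (∑ j, Finsupp.single (t, f j) 1) (1 : ℂ) := by
    rw [map_prod]
    simp only [Th_X]
    rw [Finset.prod_univ_sum]
    refine Finset.sum_congr rfl fun f _ => ?_
    rw [monomial_sum_one]
    rfl
  rw [h1, coeff_sum]
  simp only [coeff_monomial]
  rw [Finset.sum_boole, Nat.cast_ne_zero, ← Nat.pos_iff_ne_zero, Finset.card_pos]
  refine ⟨id, Finset.mem_filter.2 ⟨?_, ?_⟩⟩
  · rw [Fintype.mem_piFinset]
    intro j
    exact Finset.mem_filter.2 ⟨Finset.mem_univ _, rfl⟩
  · rw [ind_fst]
    rfl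

theorem rowCLS : RowALG → RowCLS := by
  classical
  intro hALG a q Q s d ty hs hq hd hty W hsym hrel hloc
  set c : Bool → ℕ := fun z => if z then s * d else s * d + 1 with hc
  set F' : MultilinearMap ℂ (fun _ : Fin a => GP.Rg a) ℂ :=
    (FF W).compLinearMap (fun _ => (Th ty).toLinearMap) with hF'
  have hF : ∀ v : Fin a → GP.Rg a, F' v = FF W (fun i => Th ty (v i)) := fun v => rfl
  have h1 := hALG a s q d hs hq hd F' (fun σ v => by
    rw [hF, hF]
    exact FF_symm hsym σ (fun i => Th ty (v i))) ?_ ?_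
  · rw [hF, FF_apply] at h1
    have h2 : ∀ t : Fin a, (X (t, true) ^ (q * (s * d)) * X (t, false) ^ (q * (s * d + 1)) :
        MvPolynomial (Fin a × Bool) ℂ) = ∏ j : Fin Q, X (t, ty j) := by
      intro t
      exact top_eq ty (c := fun z => q * (if z then s * d else s * d + 1)) hty t
    simp only [h2] at h1
    rw [Finset.sum_eq_single Prod.fst] at h1
    · rcases mul_eq_zero.1 h1 with h3 | h3
      · exact h3
      · exact absurd h3 (Finset.prod_ne_zero_iff.2 fun t _ => top_coeff ty t)
    · intro y _ hy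
      obtain ⟨p, hp⟩ : ∃ p, y p ≠ p.1 := by
        by_contra h
        push Not at h
        exact hy (funext h)
      rw [Finset.prod_eq_zero (Finset.mem_univ (y p)), mul_zero]
      by_contra h3
      have h4 : (∏ j : Fin Q, X (y p, ty j) : MvPolynomial (Fin a × Bool) ℂ) =
          monomial (∑ j, Finsupp.single (y p, ty j) 1) 1 := by
        rw [monomial_sum_one]
        rfl
      rw [h4] at h3
      have h5 := cnt ty y (y p) _ h3 p.1 (ty p.2)
      have h6 : (∑ j, Finsupp.single (y p, ty j) 1 : Fin a × Bool →₀ ℕ) (p.1, ty p.2) = 0 := by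
        rw [Finsupp.finsetSum_apply]
        refine Finset.sum_eq_zero fun j _ => ?_
        rw [Finsupp.single_apply, if_neg]
        intro h7
        exact hp (congrArg Prod.fst h7)
      rw [h6] at h5
      have h8 : p.2 ∈ univ.filter (fun κ => ty κ = ty p.2 ∧ y (p.1, κ) = y p) :=
        Finset.mem_filter.2 ⟨Finset.mem_univ _, rfl, rfl⟩
      rw [Finset.card_eq_zero.1 h5.symm] at h8
      exact absurd h8 (Finset.notMem_empty _)
    · intro h
      exact absurd (Finset.mem_univ _) h
  · intro m hm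
    rw [hF, FF_apply] at hm
    obtain ⟨y, _, hy⟩ := Finset.exists_ne_zero_of_sum_ne_zero hm
    have hy1 : W y ≠ 0 := left_ne_zero_of_mul hy
    have hy2 : ∀ t, coeff (ind y t) (Th ty (monomial (m t) 1)) ≠ 0 := fun t =>
      Finset.prod_ne_zero_iff.1 (right_ne_zero_of_mul hy) t (Finset.mem_univ t)
    have hcnt : ∀ t i z, m t (i, z) =
        (univ.filter (fun κ => ty κ = z ∧ y (i, κ) = t)).card := fun t i z =>
      cnt ty y t (m t) (hy2 t) i z
    have hsum : ∀ i z, ∑ t, m t (i, z) = q * (if z then s * d else s * d + 1) := by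
      intro i z
      rw [← hty z]
      rw [Finset.card_eq_sum_card_fiberwise (f := fun κ => y (i, κ)) (t := univ)
        (fun _ _ => Finset.mem_coe.2 (Finset.mem_univ _))]
      refine Finset.sum_congr rfl fun t _ => ?_
      rw [hcnt, Finset.filter_filter]
    refine ⟨fun t => ?_, fun i => (hsum i true).le, fun i => (hsum i false).le⟩
    refine le_trans (Finset.card_le_card ?_) (hloc y hy1 t)
    intro i hi
    rw [csupp, Finset.mem_filter] at hi
    rw [Finset.mem_filter]
    refine ⟨Finset.mem_univ _, ?_⟩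
    rcases hi.2 with h | h
    · rw [hcnt] at h
      obtain ⟨κ, hκ⟩ := Finset.card_pos.1 (Nat.pos_of_ne_zero h)
      exact ⟨κ, (Finset.mem_filter.1 hκ).2.2⟩
    · rw [hcnt] at h
      obtain ⟨κ, hκ⟩ := Finset.card_pos.1 (Nat.pos_of_ne_zero h)
      exact ⟨κ, (Finset.mem_filter.1 hκ).2.2⟩
  · intro f hf
    rw [hF]
    simp only [map_pow]
    exact rel_pow (c := c) (fun p : Fin a × Fin Q => ty p.2) W hrel (Th ty f)
      (support_of_mem (c := c) _ (Th_mem (c := c) ty hf))

end Vale.Agent.P181.H530.GCls
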