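import Vale.Agent.P181.H530.Alt
import Vale.Agent.P181.T3.Spec2

/-!
P181, three-row extension, row C' (ALTERNATION, pieces of two sizes).
-/

set_option autoImplicit false

namespace Vale.Agent.P181.T3

open Finset

namespace Alt

section

variable {a Q : ℕ} (m : Fin a → Fin a) (V : (Fin a × Fin Q → Fin a) → ℂ) (ty : Fin Q → Bool)

lemma ty_swap {p p' : Fin a × Fin Q} (ht : ty p.2 = ty p'.2) (x : Fin a × Fin Q) :
    ty (Equiv.swap p p' x).2 = ty x.2 := by
  by_cases h1 : x = p
  · rw [h1, Equiv.swap_apply_left, ht]
  · by_cases h2 : x = p'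
    · rw [h2, Equiv.swap_apply_right, ht]
    · rw [Equiv.swap_apply_of_ne_of_ne h1 h2]

lemma ty_tf (B : Finset (Fin a × Fin Q)) (x : Fin a × Fin Q) : ty (tf m B x).2 = ty x.2 := by
  unfold tf
  split_ifs
  · rfl
  · rfl

omit V in
lemma card_fst_ty (i : Fin a) (t : Bool) :
    (univ.filter (fun x : Fin a × Fin Q => x.1 = i ∧ ty x.2 = t)).card =
      (univ.filter (fun k => ty k = t)).card := by
  symm
  apply Finset.card_bij (fun k _ => (i, k))
  · intro k hk
    exact Finset.mem_filter.2 ⟨Finset.mem_univ _, rfl, (Finset.mem_filter.1 hk).2⟩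
  · intro k _ k' _ h
    exact (Prod.mk.inj h).2
  · intro x hx
    obtain ⟨h1, h2⟩ := (Finset.mem_filter.1 hx).2
    exact ⟨x.2, Finset.mem_filter.2 ⟨Finset.mem_univ _, h2⟩, Prod.ext h1.symm rfl⟩

variable (hm : ∀ i, m (m i) = i)

include hm

lemma U_swap2 {A : Finset (Fin a × Fin Q)}
    (hmax : ∀ l, l ∉ A → l.1 < m l.1 → ∀ g : Equiv.Perm (Fin a × Fin Q),
      (∀ p, rep m (g p).1 = rep m p.1) → (∀ p, ty (g p).2 = ty p.2) →
      U m V (insert l A) Prod.fst g = 0)
    {p p' : Fin a × Fin Q} (hp : key m p ∉ A) (hp' : key m p' ∉ A)
    (hr : rep m p.1 = rep m p'.1) (ht : ty p.2 = ty p'.2) (g : Equiv.Perm (Fin a × Fin Q))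
    (hg : ∀ p, rep m (g p).1 = rep m p.1) (hgt : ∀ p, ty (g p).2 = ty p.2) :
    U m V A Prod.fst (fun x => Equiv.swap p p' (g x)) = U m V A Prod.fst g := by
  by_cases h1 : p.1 = p'.1
  · exact U_swap_row m V hp hp' h1 g
  · have h2 : p'.1 = m p.1 := by
      rcases rep_eq m hm hr with h | h
      · exact absurd h.symm h1
      · exact h
    have h3 : p.1 ≠ m p.1 := by rw [← h2]; exact h1
    have hpf : p ≠ flip m p := by
      intro h
      exact h3 (congrArg Prod.fst h)
    have hpp : p ≠ p' := by
      intro h
      exact h1 (congrArg Prod.fst h)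
    have hf : key m (flip m p) ∉ A := by rw [key_flip m hm]; exact hp
    have hfr : (flip m p).1 = p'.1 := h2.symm
    have h4 : ∀ x, Equiv.swap p p' x =
        Equiv.swap (flip m p) p' (tf m {key m p} (Equiv.swap (flip m p) p' x)) := by
      intro x
      rw [tf_key m hm, Equiv.swap_comm p p', ← Equiv.swap_mul_swap_mul_swap hpf hpp]
      rfl
    have h5 : (fun x => Equiv.swap p p' (g x)) = fun x =>
        Equiv.swap (flip m p) p' ((fun x => tf m {key m p}
          ((Equiv.swap (flip m p) p' * g) x)) x) := by
      funext x
      exact h4 (g x)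
    rw [h5, U_swap_row m V hf hp' hfr]
    have h6 := hmax (key m p) hp (rep_lt m hm h3) (Equiv.swap (flip m p) p' * g) (by
      intro x
      rw [Equiv.Perm.mul_apply, rep_swap m (by rw [hfr])]
      exact hg x) (by
      intro x
      have h7 : ty (flip m p).2 = ty p'.2 := ht
      rw [Equiv.Perm.mul_apply, ty_swap ty h7]
      exact hgt x)
    rw [U_insert m V hm hp, sub_eq_zero] at h6
    rw [← h6]
    exact U_swap_row m V hf hp' hfr g

lemma U_z2 {A : Finset (Fin a × Fin Q)} (hA : ∀ l ∈ A, l.1 < m l.1)
    (hmax : ∀ l, l ∉ A → l.1 < m l.1 → ∀ g : Equiv.Perm (Fin a × Fin Q),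
      (∀ p, rep m (g p).1 = rep m p.1) → (∀ p, ty (g p).2 = ty p.2) →
      U m V (insert l A) Prod.fst g = 0) (Qt : Bool → ℕ)
    (hQt : ∀ t, (univ.filter (fun k => ty k = t)).card = Qt t) :
    ∀ (n : ℕ) (z : Fin a × Fin Q → Fin a),
      (univ.filter (fun p => z p ≠ p.1)).card ≤ n →
      (∀ p, z p = p.1 ∨ z p = m p.1) → (∀ i t, (univ.filter (fun p => z p = i ∧ ty p.2 = t)).card = Qt t) →
      (∀ l ∈ A, z l ≠ z (flip m l)) → ∀ g : Equiv.Perm (Fin a × Fin Q),
      (∀ p, rep m (g p).1 = rep m p.1) → (∀ p, ty (g p).2 = ty p.2) →
      U m V A z g = (-1) ^ (A.filter (fun l => z l ≠ l.1)).card * U m V A Prod.fst g := by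
  have hkey : ∀ l ∈ A, key m l = l := by
    intro l hl
    unfold key rep
    rw [min_eq_left (hA l hl).le]
  intro n
  induction n with
  | zero =>
    intro z hn _ _ _ g _ _
    have h1 : ∀ p, z p = p.1 := by
      intro p
      by_contra h
      have h2 : p ∈ univ.filter (fun p => z p ≠ p.1) :=
        Finset.mem_filter.2 ⟨Finset.mem_univ _, h⟩
      have h3 := Finset.card_pos.2 ⟨p, h2⟩
      omega
    have h2 : A.filter (fun l => z l ≠ l.1) = ∅ := by
      apply Finset.filter_eq_empty_iff.2
      intro l _ h
      exact h (h1 l)
    have h3 : z = Prod.fst := funext h1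
    rw [h2, h3, Finset.card_empty, pow_zero, one_mul]
  | succ n ih =>
    intro z hn hz hbal hzA g hg hgt
    by_cases hc1 : ∃ p, z p ≠ p.1 ∧ key m p ∈ A
    · obtain ⟨p, hp, hpA⟩ := hc1
      obtain ⟨l, hl⟩ : ∃ l, l = key m p := ⟨_, rfl⟩
      have hlA : l ∈ A := by rw [hl]; exact hpA
      have hll := hkey l hlA
      have hlm := hA l hlA
      have hpl : p = l ∨ p = flip m l := key_eq m hm (by rw [hll, hl])
      have hz1 := hz l
      have hz2 : z (flip m l) = m l.1 ∨ z (flip m l) = l.1 := by
        have := hz (flip m l)
        unfold flip at this ⊢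
        rw [hm] at this
        exact this
      have hz3 := hzA l hlA
      have hzl : z l = m l.1 ∧ z (flip m l) = l.1 := by
        rcases hpl with h | h
        · rw [h] at hp
          have h4 : z l = m l.1 := hz1.resolve_left hp
          refine ⟨h4, hz2.resolve_left ?_⟩
          intro h5
          exact hz3 (by rw [h4, h5])
        · rw [h] at hp
          have h4 : z (flip m l) = l.1 := hz2.resolve_left hp
          refine ⟨hz1.resolve_left ?_, h4⟩
          intro h5
          exact hz3 (by rw [h4, h5])
      obtain ⟨z', hz'⟩ : ∃ z', z' = fun x => z (tf m {l} x) := ⟨_, rfl⟩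
      have ht1 : tf m {l} l = flip m l := tf_of m (by rw [mem_singleton]; exact hll)
      have ht2 : tf m {l} (flip m l) = l := by
        rw [tf_of m (by rw [mem_singleton, key_flip m hm]; exact hll), flip_flip m hm]
      have ht3 : ∀ x, key m x ≠ l → tf m {l} x = x := fun x hx =>
        tf_of_not m (by rw [mem_singleton]; exact hx)
      have hzl1 : z' l = l.1 := by rw [hz']; change z (tf m {l} l) = _; rw [ht1]; exact hzl.2
      have hzl2 : z' (flip m l) = m l.1 := by
        rw [hz']; change z (tf m {l} (flip m l)) = _; rw [ht2]; exact hzl.1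
      have hzl3 : ∀ x, key m x ≠ l → z' x = z x := by
        intro x hx
        rw [hz']; change z (tf m {l} x) = _; rw [ht3 x hx]
      have hkx : ∀ x, key m x = l → x = l ∨ x = flip m l := by
        intro x hx
        exact key_eq m hm (by rw [hll, hx])
      have hcard : (univ.filter (fun p => z' p ≠ p.1)).card ≤ n := by
        have h4 : (univ.filter (fun p => z' p ≠ p.1)) ⊂ univ.filter (fun p => z p ≠ p.1) := by
          rw [Finset.ssubset_iff_of_subset]
          · refine ⟨p, Finset.mem_filter.2 ⟨Finset.mem_univ _, hp⟩, ?_⟩
            intro h5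
            have h6 := (Finset.mem_filter.1 h5).2
            rcases hpl with h | h
            · rw [h] at h6
              exact h6 hzl1
            · rw [h] at h6
              exact h6 hzl2
          · intro x hx
            have h6 := (Finset.mem_filter.1 hx).2
            refine Finset.mem_filter.2 ⟨Finset.mem_univ _, ?_⟩
            by_cases h7 : key m x = l
            · rcases hkx x h7 with h | h
              · rw [h] at h6
                exact absurd hzl1 h6
              · rw [h] at h6
                exact absurd hzl2 h6
            · rw [hzl3 x h7] at h6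
              exact h6
        have := Finset.card_lt_card h4
        omega
      have hIH := ih z' hcard (by
          intro x
          by_cases h7 : key m x = l
          · rcases hkx x h7 with h | h
            · rw [h]; exact Or.inl hzl1
            · rw [h]; left; rw [hzl2]; rfl
          · rw [hzl3 x h7]; exact hz x) (by
          intro i t
          refine Eq.trans ?_ (hbal i t)
          apply Finset.card_bij (fun x _ => tf m {l} x)
          · intro x hx
            have := (Finset.mem_filter.1 hx).2
            rw [hz'] at this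
            refine Finset.mem_filter.2 ⟨Finset.mem_univ _, this.1, ?_⟩
            rw [ty_tf m ty]
            exact this.2
          · intro x _ x' _ h
            have := congrArg (tf m {l}) h
            simp only [tf_tf m hm] at this
            exact this
          · intro x hx
            refine ⟨tf m {l} x, ?_, tf_tf m hm _ _⟩
            refine Finset.mem_filter.2 ⟨Finset.mem_univ _, ?_, ?_⟩
            · rw [hz']
              change z (tf m {l} (tf m {l} x)) = i
              rw [tf_tf m hm]
              exact (Finset.mem_filter.1 hx).2.1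
            · rw [ty_tf m ty]
              exact (Finset.mem_filter.1 hx).2.2) (by
          intro l' hl'
          by_cases h7 : l' = l
          · rw [h7, hzl1, hzl2]
            exact ne_of_lt hlm
          · have h8 : key m l' ≠ l := by rw [hkey l' hl']; exact h7
            rw [hzl3 l' h8, hzl3 (flip m l') (by rw [key_flip m hm]; exact h8)]
            exact hzA l' hl') g hg hgt
      have h9 : A.filter (fun l' => z l' ≠ l'.1) =
          insert l (A.filter (fun l' => z' l' ≠ l'.1)) := by
        ext x
        rw [Finset.mem_filter, Finset.mem_insert, Finset.mem_filter]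
        constructor
        · rintro ⟨hx, hzx⟩
          by_cases h7 : x = l
          · exact Or.inl h7
          · right
            refine ⟨hx, ?_⟩
            rw [hzl3 x (by rw [hkey x hx]; exact h7)]
            exact hzx
        · rintro (hx | ⟨hx, hzx⟩)
          · rw [hx]
            refine ⟨hlA, ?_⟩
            rw [hzl.1]
            exact ne_of_gt hlm
          · refine ⟨hx, ?_⟩
            by_cases h7 : x = l
            · rw [h7] at hzx
              exact absurd hzl1 hzx
            · rw [hzl3 x (by rw [hkey x hx]; exact h7)] at hzx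
              exact hzx
      have h10 : l ∉ A.filter (fun l' => z' l' ≠ l'.1) := by
        intro h
        exact (Finset.mem_filter.1 h).2 hzl1
      rw [h9, Finset.card_insert_of_notMem h10, pow_succ]
      have h11 := U_anti m V hm hlA z g
      rw [← hz', hIH] at h11
      have h12 : U m V A z g = - (-U m V A z g) := by ring
      rw [h12, ← h11]
      ring
    · by_cases hc2 : ∃ p, z p ≠ p.1
      · obtain ⟨p, hp⟩ := hc2
        have hpA : key m p ∉ A := fun h => hc1 ⟨p, hp, h⟩
        have hzp : z p = m p.1 := (hz p).resolve_left hp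
        have hne : m p.1 ≠ p.1 := by rw [← hzp]; exact hp
        obtain ⟨p', hp'1, hp'2, hp't⟩ : ∃ p', p'.1 = m p.1 ∧ z p' = p.1 ∧ ty p'.2 = ty p.2 := by
          by_contra hno
          have h4 : univ.filter (fun x => z x = p.1 ∧ ty x.2 = ty p.2) ⊆
              (univ.filter (fun x : Fin a × Fin Q => x.1 = p.1 ∧ ty x.2 = ty p.2)).erase p := by
            intro x hx
            obtain ⟨h5, ht5⟩ := (Finset.mem_filter.1 hx).2
            rw [Finset.mem_erase]
            constructor
            · intro h6
              rw [h6] at h5
              exact hp h5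
            · refine Finset.mem_filter.2 ⟨Finset.mem_univ _, ?_, ht5⟩
              rcases hz x with h6 | h6
              · rw [← h6, h5]
              · exfalso
                apply hno
                refine ⟨x, ?_, h5, ht5⟩
                rw [← h5, h6, hm]
          have h5 := Finset.card_le_card h4
          have h6 : p ∈ univ.filter (fun x : Fin a × Fin Q => x.1 = p.1 ∧ ty x.2 = ty p.2) :=
            Finset.mem_filter.2 ⟨Finset.mem_univ _, rfl, rfl⟩
          rw [hbal, Finset.card_erase_of_mem h6, card_fst_ty, hQt] at h5
          have h8 := Finset.card_pos.2 ⟨p, h6⟩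
          rw [card_fst_ty, hQt] at h8
          omega
        have hp'ne : z p' ≠ p'.1 := by rw [hp'1, hp'2]; exact hne.symm
        have hp'A : key m p' ∉ A := fun h => hc1 ⟨p', hp'ne, h⟩
        obtain ⟨z', hz'⟩ : ∃ z', z' = fun x => z (Equiv.swap p p' x) := ⟨_, rfl⟩
        have h1 : z' p = p.1 := by
          rw [hz']; change z (Equiv.swap p p' p) = _; rw [Equiv.swap_apply_left, hp'2]
        have h2 : z' p' = p'.1 := by
          rw [hz']; change z (Equiv.swap p p' p') = _; rw [Equiv.swap_apply_right, hzp, hp'1]
        have h3 : ∀ x, x ≠ p → x ≠ p' → z' x = z x := by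
          intro x hx hx'
          rw [hz']; change z (Equiv.swap p p' x) = _; rw [Equiv.swap_apply_of_ne_of_ne hx hx']
        have hnA : ∀ x, key m x ∈ A → x ≠ p ∧ x ≠ p' := by
          intro x hx
          constructor
          · intro h; rw [h] at hx; exact hpA hx
          · intro h; rw [h] at hx; exact hp'A hx
        have hcard : (univ.filter (fun p => z' p ≠ p.1)).card ≤ n := by
          have h4 : (univ.filter (fun p => z' p ≠ p.1)) ⊂ univ.filter (fun p => z p ≠ p.1) := by
            rw [Finset.ssubset_iff_of_subset]
            · refine ⟨p, Finset.mem_filter.2 ⟨Finset.mem_univ _, hp⟩, ?_⟩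
              intro h5
              exact (Finset.mem_filter.1 h5).2 h1
            · intro x hx
              have h6 := (Finset.mem_filter.1 hx).2
              refine Finset.mem_filter.2 ⟨Finset.mem_univ _, ?_⟩
              by_cases h7 : x = p
              · rw [h7]; exact hp
              · by_cases h8 : x = p'
                · rw [h8]; exact hp'ne
                · rw [h3 x h7 h8] at h6
                  exact h6
          have := Finset.card_lt_card h4
          omega
        have hrr : rep m p.1 = rep m p'.1 := by rw [hp'1, rep_m m hm]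
        have hIH := ih z' hcard (by
            intro x
            by_cases h7 : x = p
            · rw [h7]; exact Or.inl h1
            · by_cases h8 : x = p'
              · rw [h8]; exact Or.inl h2
              · rw [h3 x h7 h8]; exact hz x) (by
            intro i t
            refine Eq.trans ?_ (hbal i t)
            apply Finset.card_bij (fun x _ => Equiv.swap p p' x)
            · intro x hx
              have := (Finset.mem_filter.1 hx).2
              rw [hz'] at this
              refine Finset.mem_filter.2 ⟨Finset.mem_univ _, this.1, ?_⟩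
              rw [ty_swap ty hp't.symm]
              exact this.2
            · intro x _ x' _ h
              exact (Equiv.swap p p').injective h
            · intro x hx
              refine ⟨Equiv.swap p p' x, ?_, Equiv.swap_apply_self _ _ _⟩
              refine Finset.mem_filter.2 ⟨Finset.mem_univ _, ?_, ?_⟩
              · rw [hz']
                change z (Equiv.swap p p' (Equiv.swap p p' x)) = i
                rw [Equiv.swap_apply_self]
                exact (Finset.mem_filter.1 hx).2.1
              · rw [ty_swap ty hp't.symm]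
                exact (Finset.mem_filter.1 hx).2.2) (by
            intro l' hl'
            have h7 : key m l' ∈ A := by rw [hkey l' hl']; exact hl'
            have h8 : key m (flip m l') ∈ A := by rw [key_flip m hm]; exact h7
            rw [h3 l' (hnA _ h7).1 (hnA _ h7).2, h3 _ (hnA _ h8).1 (hnA _ h8).2]
            exact hzA l' hl') (Equiv.swap p p' * g) (by
            intro x
            rw [Equiv.Perm.mul_apply, rep_swap m hrr]
            exact hg x) (by
            intro x
            rw [Equiv.Perm.mul_apply, ty_swap ty hp't.symm]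
            exact hgt x)
        have h9 : A.filter (fun l' => z' l' ≠ l'.1) = A.filter (fun l' => z l' ≠ l'.1) := by
          apply Finset.filter_congr
          intro l' hl'
          have h7 : key m l' ∈ A := by rw [hkey l' hl']; exact hl'
          rw [h3 l' (hnA _ h7).1 (hnA _ h7).2]
        rw [h9] at hIH
        have h10 : U m V A z' ((Equiv.swap p p' * g : Equiv.Perm (Fin a × Fin Q))) = U m V A z g := by
          unfold U
          apply Finset.sum_congr rfl
          intro B hB
          have hBA := Finset.mem_powerset.1 hB
          congr 2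
          funext x
          rw [hz']
          change z (Equiv.swap p p' (tf m B (Equiv.swap p p' (g x)))) = z (tf m B (g x))
          have h11 : ∀ w, tf m B (Equiv.swap p p' w) = Equiv.swap p p' (tf m B w) := by
            intro w
            have e1 : key m p ∉ B := fun h => hpA (hBA h)
            have e2 : key m p' ∉ B := fun h => hp'A (hBA h)
            by_cases hw1 : w = p
            · rw [hw1, Equiv.swap_apply_left, tf_of_not m e1, tf_of_not m e2,
                Equiv.swap_apply_left]
            · by_cases hw2 : w = p'
              · rw [hw2, Equiv.swap_apply_right, tf_of_not m e1, tf_of_not m e2,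
                  Equiv.swap_apply_right]
              · rw [Equiv.swap_apply_of_ne_of_ne hw1 hw2]
                by_cases hw3 : key m w ∈ B
                · rw [tf_of m hw3]
                  have h12 : key m (flip m w) ∈ A := by
                    rw [key_flip m hm]; exact hBA hw3
                  rw [Equiv.swap_apply_of_ne_of_ne (hnA _ h12).1 (hnA _ h12).2]
                · rw [tf_of_not m hw3, Equiv.swap_apply_of_ne_of_ne hw1 hw2]
          rw [h11, Equiv.swap_apply_self]
        rw [← h10, hIH]
        congr 1
        exact U_swap2 m V ty hm hmax hpA hp'A hrr hp't.symm g hg hgt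
      · have h1 : ∀ p, z p = p.1 := by
          intro p
          by_contra h
          exact hc2 ⟨p, h⟩
        have h2 : A.filter (fun l => z l ≠ l.1) = ∅ := by
          apply Finset.filter_eq_empty_iff.2
          intro l _ h
          exact h (h1 l)
        have h3 : z = Prod.fst := funext h1
        rw [h2, h3, Finset.card_empty, pow_zero, one_mul]


end

lemma card_typed {q Q : ℕ} {ty : Fin Q → Bool} {c : Bool → ℕ} {r : Fin Q → Fin q}
    (h : Typed ty c r) (t : Bool) : (univ.filter (fun k => ty k = t)).card = q * c t := by
  rw [Finset.card_eq_sum_card_fiberwise (f := r) (t := univ)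
    (fun _ _ => Finset.mem_coe.2 (Finset.mem_univ _))]
  have h1 : ∀ φ ∈ (univ : Finset (Fin q)),
      ((univ.filter (fun k => ty k = t)).filter (fun k => r k = φ)).card = c t := by
    intro φ _
    rw [← h φ t]
    congr 1
    ext k
    rw [Finset.mem_filter, Finset.mem_filter, Finset.mem_filter]
    constructor
    · rintro ⟨⟨_, h2⟩, h3⟩
      exact ⟨Finset.mem_univ _, h3, h2⟩
    · rintro ⟨_, h3, h2⟩
      exact ⟨⟨Finset.mem_univ _, h2⟩, h3⟩
  rw [Finset.sum_congr rfl h1, Finset.sum_const, Finset.card_univ, Fintype.card_fin, smul_eq_mul]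

lemma card_comp_ty {a Q : ℕ} {β : Type*} [DecidableEq β] (f : Fin a × Fin Q → β)
    (ty : Fin Q → Bool) (e : Equiv.Perm (Fin a × Fin Q)) (he : ∀ p, ty (e p).2 = ty p.2)
    (c : β) (t : Bool) :
    (univ.filter (fun p => f (e p) = c ∧ ty p.2 = t)).card =
      (univ.filter (fun p => f p = c ∧ ty p.2 = t)).card := by
  apply Finset.card_bij (fun x _ => e x)
  · intro x hx
    obtain ⟨h1, h2⟩ := (Finset.mem_filter.1 hx).2
    refine Finset.mem_filter.2 ⟨Finset.mem_univ _, h1, ?_⟩
    rw [he]
    exact h2
  · intro x _ x' _ h
    exact e.injective h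
  · intro x hx
    obtain ⟨h1, h2⟩ := (Finset.mem_filter.1 hx).2
    refine ⟨e.symm x, Finset.mem_filter.2 ⟨Finset.mem_univ _, ?_, ?_⟩, e.apply_symm_apply x⟩
    · rw [e.apply_symm_apply]
      exact h1
    · have := he (e.symm x)
      rw [e.apply_symm_apply] at this
      rw [← this]
      exact h2

lemma card_two_ty {a q Q : ℕ} (ρ : Fin a × Fin Q → Fin a × Fin q) (ty : Fin Q → Bool)
    (c : Bool → ℕ)
    (hρ : ∀ r z, (univ.filter (fun p => ρ p = r ∧ ty p.2 = z)).card = c z)
    (σ : Equiv.Perm (Fin a × Fin q)) (i : Fin a) (t : Bool) :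
    (univ.filter (fun p => (σ (ρ p)).1 = i ∧ ty p.2 = t)).card = q * c t := by
  classical
  rw [Finset.card_eq_sum_card_fiberwise (f := ρ)
    (t := univ.filter (fun r => (σ r).1 = i))]
  · have h1 : ∀ r ∈ univ.filter (fun r => (σ r).1 = i),
        ((univ.filter (fun p => (σ (ρ p)).1 = i ∧ ty p.2 = t)).filter
          (fun p => ρ p = r)).card = c t := by
      intro r hr
      rw [← hρ r t]
      congr 1
      ext p
      rw [Finset.mem_filter, Finset.mem_filter, Finset.mem_filter]
      constructor
      · rintro ⟨⟨_, _, h2⟩, h⟩
        exact ⟨Finset.mem_univ _, h, h2⟩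
      · rintro ⟨_, h, h2⟩
        refine ⟨⟨Finset.mem_univ _, ?_, h2⟩, h⟩
        rw [h]
        exact (Finset.mem_filter.1 hr).2
    rw [Finset.sum_congr rfl h1, Finset.sum_const, smul_eq_mul,
      card_comp_perm (fun r : Fin a × Fin q => r.1) σ i, card_fst]
  · intro p hp
    have := (Finset.mem_filter.1 hp).2.1
    exact Finset.mem_coe.2 (Finset.mem_filter.2 ⟨Finset.mem_univ _, this⟩)

end Alt

open Alt

theorem alt2 : Alt2Stmt := by
  classical
  intro a q Q ty c hcomb V m hm hτ hrel hmix
  by_contra hV
  -- sizes
  have hQt : ∀ t, (univ.filter (fun k => ty k = t)).card = q * c t := by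
    obtain ⟨r, _, hr, _, _⟩ := hcomb ∅ (by rw [Finset.card_empty]; exact Even.zero)
    exact fun t => card_typed hr t
  -- a maximal alternating set
  obtain ⟨F, hF⟩ : ∃ F : Finset (Finset (Fin a × Fin Q)), F = univ.filter
      (fun A => (∀ l ∈ A, l.1 < m l.1) ∧ ∃ g : Equiv.Perm (Fin a × Fin Q),
        (∀ p, rep m (g p).1 = rep m p.1) ∧ (∀ p, ty (g p).2 = ty p.2) ∧
          U m V A Prod.fst g ≠ 0) := ⟨_, rfl⟩
  have hne : F.Nonempty := by
    refine ⟨∅, ?_⟩
    rw [hF, Finset.mem_filter]
    refine ⟨Finset.mem_univ _, by simp, 1, fun p => rfl, fun p => rfl, ?_⟩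
    unfold U
    rw [Finset.powerset_empty, Finset.sum_singleton, Finset.card_empty, pow_zero, one_mul]
    exact hV
  obtain ⟨A, hAF, hAmax⟩ := Finset.exists_max_image F Finset.card hne
  rw [hF, Finset.mem_filter] at hAF
  obtain ⟨_, hA, g, hg, hgt, hU⟩ := hAF
  have hmax : ∀ l, l ∉ A → l.1 < m l.1 → ∀ g : Equiv.Perm (Fin a × Fin Q),
      (∀ p, rep m (g p).1 = rep m p.1) → (∀ p, ty (g p).2 = ty p.2) →
      U m V (insert l A) Prod.fst g = 0 := by
    intro l hl hlm g' hg' hgt'
    by_contra h
    have h1 : insert l A ∈ F := by
      rw [hF, Finset.mem_filter]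
      refine ⟨Finset.mem_univ _, ?_, g', hg', hgt', h⟩
      intro x hx
      rcases Finset.mem_insert.1 hx with hx | hx
      · rw [hx]; exact hlm
      · exact hA x hx
    have h2 := hAmax _ h1
    rw [Finset.card_insert_of_notMem hl] at h2
    omega
  have hkey : ∀ l ∈ A, key m l = l := by
    intro l hl
    unfold key rep
    rw [min_eq_left (hA l hl).le]
  have hinv : ∀ (τ : Equiv.Perm (Fin a)) (z : Fin a × Fin Q → Fin a),
      U m V A (fun p => τ (z p)) g = U m V A z g := by
    intro τ z
    unfold U
    apply Finset.sum_congr rfl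
    intro B _
    congr 1
    exact hτ τ (fun p => z (tf m B (g p)))
  -- parity
  have hpar : ∀ i, Even (A.filter (fun l => l.1 = i)).card := by
    intro i
    by_cases hi : i < m i
    · have h1 := U_z2 m V ty hm hA hmax (fun t => q * c t) hQt _
        (fun p => Equiv.swap i (m i) p.1) le_rfl (by
          intro p
          by_cases h1 : p.1 = i
          · right
            rw [h1, Equiv.swap_apply_left]
          · by_cases h2 : p.1 = m i
            · right
              rw [h2, Equiv.swap_apply_right, hm]
            · left
              rw [Equiv.swap_apply_of_ne_of_ne h1 h2]) (by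
          intro j t
          have h2 : univ.filter (fun p : Fin a × Fin Q => Equiv.swap i (m i) p.1 = j ∧
              ty p.2 = t) = univ.filter (fun p : Fin a × Fin Q =>
                p.1 = (Equiv.swap i (m i)).symm j ∧ ty p.2 = t) := by
            apply Finset.filter_congr
            intro x _
            rw [Equiv.eq_symm_apply]
          rw [h2, card_fst_ty, hQt]) (by
          intro l hl h2
          have h3 := (Equiv.swap i (m i)).injective h2
          exact absurd h3 (ne_of_lt (hA l hl))) g hg hgt
      have h2 := hinv (Equiv.swap i (m i)) Prod.fst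
      rw [h2] at h1
      have h3 : A.filter (fun l => Equiv.swap i (m i) l.1 ≠ l.1) =
          A.filter (fun l => l.1 = i) := by
        apply Finset.filter_congr
        intro l hl
        constructor
        · intro h4
          by_contra h5
          by_cases h6 : l.1 = m i
          · have h7 := hA l hl
            rw [h6, hm] at h7
            exact absurd hi (not_lt.2 h7.le)
          · exact h4 (Equiv.swap_apply_of_ne_of_ne h5 h6)
        · intro h4
          rw [h4, Equiv.swap_apply_left]
          exact ne_of_gt hi
      rw [h3] at h1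
      have h4 : ((-1 : ℂ)) ^ (A.filter (fun l => l.1 = i)).card = 1 := by
        have h5 : ((-1 : ℂ) ^ (A.filter (fun l => l.1 = i)).card - 1) *
            U m V A Prod.fst g = 0 := by
          rw [sub_mul, ← h1, one_mul, sub_self]
        rcases mul_eq_zero.1 h5 with h6 | h6
        · exact sub_eq_zero.1 h6
        · exact absurd h6 hU
      exact (neg_one_pow_eq_one_iff_even (by norm_num)).1 h4
    · have h1 : A.filter (fun l => l.1 = i) = ∅ := by
        apply Finset.filter_eq_empty_iff.2
        intro l hl h2
        have := hA l hl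
        rw [h2] at this
        exact hi this
      rw [h1, Finset.card_empty]
      exact Even.zero
  -- the distributions of the pieces
  have hex : ∀ i : Fin a, ∃ r r' : Fin Q → Fin q, Typed ty c r ∧ Typed ty c r' ∧
      ∀ f f' : Fin q → Bool, (∀ k, (i, k) ∈ A → f (r k) = f' (r' k)) →
        Even (univ.filter (fun k => (i, k) ∈ A ∧ f (r k) = true)).card := by
    intro i
    obtain ⟨r, r', hr, hr', hff⟩ := hcomb (univ.filter (fun k => (i, k) ∈ A)) (by
      have h1 : (univ.filter (fun k : Fin Q => (i, k) ∈ A)).card =
          (A.filter (fun l => l.1 = i)).card := by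
        apply Finset.card_bij (fun k _ => (i, k))
        · intro k hk
          exact Finset.mem_filter.2 ⟨(Finset.mem_filter.1 hk).2, rfl⟩
        · intro k _ k' _ h
          exact (Prod.mk.inj h).2
        · intro l hl
          obtain ⟨h2, h3⟩ := Finset.mem_filter.1 hl
          refine ⟨l.2, Finset.mem_filter.2 ⟨Finset.mem_univ _, ?_⟩, Prod.ext h3.symm rfl⟩
          rw [← h3]
          exact h2
      rw [h1]
      exact hpar i)
    refine ⟨r, r', hr, hr', ?_⟩
    intro f f' h
    have h1 := hff f f' (fun k hk => h k (Finset.mem_filter.1 hk).2)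
    have h2 : (univ.filter (fun k => (i, k) ∈ A)).filter (fun k => f (r k) = true) =
        univ.filter (fun k => (i, k) ∈ A ∧ f (r k) = true) := by
      rw [Finset.filter_filter]
    rw [h2] at h1
    exact h1
  choose r r' hr hr' hff using hex
  obtain ⟨R, hR⟩ : ∃ R : Fin a → Fin Q → Fin q,
      ∀ i, R i = if i < m i then r i else r' (m i) := ⟨_, fun i => rfl⟩
  have hRt : ∀ i, Typed ty c (R i) := by
    intro i
    rw [hR]
    split_ifs
    · exact hr i
    · exact hr' (m i)
  obtain ⟨ρ, hρ⟩ : ∃ ρ : Fin a × Fin Q → Fin a × Fin q,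
      ∀ p, ρ p = (p.1, R p.1 p.2) := ⟨_, fun p => rfl⟩
  have hfib : ∀ s z, (univ.filter (fun p => ρ p = s ∧ ty p.2 = z)).card = c z := by
    intro s z
    refine Eq.trans ?_ (hRt s.1 s.2 z)
    symm
    apply Finset.card_bij (fun k _ => (s.1, k))
    · intro k hk
      obtain ⟨h1, h2⟩ := (Finset.mem_filter.1 hk).2
      refine Finset.mem_filter.2 ⟨Finset.mem_univ _, ?_, h2⟩
      rw [hρ]
      exact Prod.ext rfl h1
    · intro k _ k' _ h
      exact (Prod.mk.inj h).2
    · intro p hp
      obtain ⟨h1, h4⟩ := (Finset.mem_filter.1 hp).2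
      rw [hρ] at h1
      have h2 : p.1 = s.1 := congrArg Prod.fst h1
      have h3 : R p.1 p.2 = s.2 := congrArg Prod.snd h1
      refine ⟨p.2, Finset.mem_filter.2 ⟨Finset.mem_univ _, ?_, h4⟩, Prod.ext h2.symm rfl⟩
      rw [← h2]
      exact h3
  have hfib' : ∀ B s z, (univ.filter (fun p => ρ (tf m B (g p)) = s ∧ ty p.2 = z)).card =
      c z := by
    intro B s z
    have := card_comp_ty ρ ty (te m hm B * g) (by
      intro p
      rw [Equiv.Perm.mul_apply, te_apply, ty_tf m ty, hgt]) s z
    rw [hfib] at this
    exact this
  -- the relation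
  have hsum : ∑ σ : Equiv.Perm (Fin a × Fin q), U m V A (fun p => (σ (ρ p)).1) g = 0 := by
    unfold U
    rw [Finset.sum_comm]
    apply Finset.sum_eq_zero
    intro B _
    rw [← Finset.mul_sum]
    have := hrel (fun p => ρ (tf m B (g p))) (hfib' B)
    rw [this, mul_zero]
  have hterm : ∀ σ : Equiv.Perm (Fin a × Fin q), U m V A (fun p => (σ (ρ p)).1) g ≠ 0 →
      U m V A (fun p => (σ (ρ p)).1) g = U m V A Prod.fst g := by
    intro σ hσ
    obtain ⟨B, hB, hVB⟩ : ∃ B ∈ A.powerset, V (fun p => (σ (ρ (tf m B (g p)))).1) ≠ 0 := by
      by_contra hno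
      apply hσ
      unfold U
      apply Finset.sum_eq_zero
      intro B hB
      have : V (fun p => (σ (ρ (tf m B (g p)))).1) = 0 := by
        by_contra h
        exact hno ⟨B, hB, h⟩
      rw [this, mul_zero]
    obtain ⟨τ, hτ1⟩ := hmix _ (fun i t =>
      card_two_ty (fun p => ρ (tf m B (g p))) ty c (hfib' B) σ i t) hVB
    obtain ⟨z, hz⟩ : ∃ z : Fin a × Fin Q → Fin a, z = fun p => τ ((σ (ρ p)).1) :=
      ⟨_, rfl⟩
    have hz1 : ∀ p, z p = p.1 ∨ z p = m p.1 := by
      intro x
      obtain ⟨p, hp⟩ : ∃ p, tf m B (g p) = x := by
        refine ⟨g.symm (tf m B x), ?_⟩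
        rw [g.apply_symm_apply, tf_tf m hm]
      have h1 : rep m x.1 = rep m p.1 := by
        rw [← hg p, ← hp]
        exact congrArg Prod.fst (key_tf m hm B (g p))
      have h2 := hτ1 p
      rw [hp] at h2
      have h3 : z x = τ ((σ (ρ x)).1) := by rw [hz]
      rw [h3]
      rcases rep_eq m hm h1 with h4 | h4
      · rw [h4] at h2
        exact h2
      · rw [h4, hm] at h2
        exact h2.symm
    have hz2 : ∀ i t, (univ.filter (fun p => z p = i ∧ ty p.2 = t)).card = q * c t := by
      intro i t
      refine Eq.trans ?_ (card_two_ty ρ ty c hfib σ (τ.symm i) t)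
      congr 1
      apply Finset.filter_congr
      intro p _
      rw [hz, Equiv.eq_symm_apply]
    have hz0 : U m V A z g = U m V A (fun p => (σ (ρ p)).1) g := by
      rw [hz]
      exact hinv τ (fun p => (σ (ρ p)).1)
    have hz3 : ∀ l ∈ A, z l ≠ z (flip m l) := by
      intro l hl h
      have h1 := U_anti m V hm hl z g
      have h2 : (fun p => z (tf m {l} p)) = z := by
        funext x
        by_cases h3 : key m x = l
        · have h4 : tf m {l} x = flip m x := tf_of m (by rw [mem_singleton]; exact h3)
          rw [h4]
          rcases key_eq m hm (p := l) (x := x) (by rw [hkey l hl, h3]) with h5 | h5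
          · rw [h5, h]
          · rw [h5, flip_flip m hm, h]
        · rw [tf_of_not m (by rw [mem_singleton]; exact h3)]
      rw [h2] at h1
      apply hσ
      rw [← hz0]
      exact self_eq_neg.1 h1
    have h1 := U_z2 m V ty hm hA hmax (fun t => q * c t) hQt _ z le_rfl hz1 hz2 hz3 g hg hgt
    have heven : Even (A.filter (fun l => z l ≠ l.1)).card := by
      rw [Finset.card_eq_sum_card_fiberwise (f := Prod.fst) (t := univ)
        (fun _ _ => Finset.mem_coe.2 (Finset.mem_univ _))]
      apply Finset.even_sum
      intro i _
      by_cases hi : i < m i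
      · obtain ⟨f, hf⟩ : ∃ f : Fin q → Bool, ∀ φ, f φ = decide (τ ((σ (i, φ)).1) ≠ i) :=
          ⟨_, fun _ => rfl⟩
        obtain ⟨f', hf'⟩ : ∃ f' : Fin q → Bool,
            ∀ φ, f' φ = decide (τ ((σ (m i, φ)).1) ≠ m i) := ⟨_, fun _ => rfl⟩
        have hRi : R i = r i := by rw [hR, if_pos hi]
        have hRm : R (m i) = r' i := by
          rw [hR, hm, if_neg (not_lt.2 hi.le)]
        have hzi : ∀ k, z (i, k) = τ ((σ (i, r i k)).1) := by
          intro k
          rw [hz, ← hRi]
          change τ ((σ (ρ (i, k))).1) = _
          rw [hρ]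
        have hzm : ∀ k, z (m i, k) = τ ((σ (m i, r' i k)).1) := by
          intro k
          rw [hz, ← hRm]
          change τ ((σ (ρ (m i, k))).1) = _
          rw [hρ]
        have h2 := hff i f f' (by
          intro k hk
          have h3 := hz3 (i, k) hk
          have h4 : flip m (i, k) = (m i, k) := rfl
          rw [h4] at h3
          have h5 := hz1 (i, k)
          have h6 := hz1 (m i, k)
          simp only [hm] at h6
          rw [hf, hf', ← hzi, ← hzm]
          have hne := ne_of_lt hi
          rcases h5 with h5 | h5 <;> rcases h6 with h6 | h6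
          · simp only at h5 h6
            rw [h5, h6]
            simp
          · exact absurd (h5.trans h6.symm) h3
          · exact absurd (h5.trans h6.symm) h3
          · simp only at h5 h6
            rw [h5, h6]
            have e1 : decide (m i ≠ i) = true := decide_eq_true hne.symm
            have e2 : decide (i ≠ m i) = true := decide_eq_true hne
            rw [e1, e2])
        have h3 : ((A.filter (fun l => z l ≠ l.1)).filter (fun l => l.1 = i)).card =
            (univ.filter (fun k => (i, k) ∈ A ∧ f (r i k) = true)).card := by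
          symm
          apply Finset.card_bij (fun k _ => (i, k))
          · intro k hk
            obtain ⟨h4, h5⟩ := (Finset.mem_filter.1 hk).2
            refine Finset.mem_filter.2 ⟨Finset.mem_filter.2 ⟨h4, ?_⟩, rfl⟩
            rw [hf] at h5
            rw [hzi]
            exact of_decide_eq_true h5
          · intro k _ k' _ h
            exact (Prod.mk.inj h).2
          · intro l hl
            obtain ⟨h4, h5⟩ := Finset.mem_filter.1 hl
            obtain ⟨h6, h7⟩ := Finset.mem_filter.1 h4
            have h8 : l = (i, l.2) := Prod.ext h5 rfl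
            refine ⟨l.2, Finset.mem_filter.2 ⟨Finset.mem_univ _, ?_, ?_⟩, h8.symm⟩
            · rw [← h8]; exact h6
            · rw [hf, ← hzi, ← h8]
              rw [h5] at h7
              exact decide_eq_true h7
        rw [h3]
        exact h2
      · have h2 : (A.filter (fun l => z l ≠ l.1)).filter (fun l => l.1 = i) = ∅ := by
          apply Finset.filter_eq_empty_iff.2
          intro l hl h
          have h3 := hA l (Finset.mem_filter.1 hl).1
          rw [h] at h3
          exact hi h3
        rw [h2, Finset.card_empty]
        exact Even.zero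
    rw [heven.neg_one_pow, one_mul] at h1
    rw [← hz0, h1]
  -- conclusion
  have hone : U m V A (fun p => (((1 : Equiv.Perm (Fin a × Fin q)) (ρ p))).1) g =
      U m V A Prod.fst g := by
    congr 1
    funext p
    rw [Equiv.Perm.one_apply, hρ]
  have h1 : ∑ σ : Equiv.Perm (Fin a × Fin q), U m V A (fun p => (σ (ρ p)).1) g =
      ((univ.filter (fun σ : Equiv.Perm (Fin a × Fin q) =>
        U m V A (fun p => (σ (ρ p)).1) g ≠ 0)).card : ℂ) * U m V A Prod.fst g := by
    rw [← Finset.sum_filter_ne_zero, Finset.sum_congr rfl
      (fun σ hσ => hterm σ (Finset.mem_filter.1 hσ).2), Finset.sum_const, nsmul_eq_mul]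
  rw [hsum] at h1
  rcases mul_eq_zero.1 h1.symm with h2 | h2
  · rw [Nat.cast_eq_zero, Finset.card_eq_zero] at h2
    have h3 : (1 : Equiv.Perm (Fin a × Fin q)) ∈ univ.filter
        (fun σ : Equiv.Perm (Fin a × Fin q) => U m V A (fun p => (σ (ρ p)).1) g ≠ 0) := by
      refine Finset.mem_filter.2 ⟨Finset.mem_univ _, ?_⟩
      rw [hone]
      exact hU
    rw [h2] at h3
    exact absurd h3 (Finset.notMem_empty _)
  · exact hU h2

end Vale.Agent.P181.T3
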