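import Mathlib.Analysis.SpecialFunctions.Log.Basic
import Mathlib.Analysis.Complex.ExponentialBounds
import Mathlib.Tactic

/-!
P181: numbers for `b = q a + u`.
-/

set_option autoImplicit false

namespace Vale.Agent.P181.H530

theorem numLK {a q s u : ℕ} (ha2 : 2 ≤ a) (hs : 1 ≤ s) (hq : 60 * (s + 1) ≤ q) (hu : u < a)
    (ha : 10 ^ 6 * (s : ℝ) ^ 13 * (q : ℝ) ^ 6 * Real.log a ≤ a) :
    1400 * s ^ 12 * q ^ 4 ≤ a ∧
    (∃ D : ℕ, 30000 * (s : ℝ) ^ 12 * (q : ℝ) ^ 6 * Real.log a ≤ D ∧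
      (a / (24 * (s + 1)) + 1) + a / (12 * (s + 1)) + D ≤ a / (5 * (s + 1))) ∧
    u ≤ 24 * (s + 1) * (a / (24 * (s + 1)) + 1) ∧
    a / (12 * (s + 1)) < a ∧
    24 * (s + 1) * (a + a / (12 * (s + 1))) ≤ 25 * (s + 1) * a ∧
    2 * ((s + 1) * (q * a)) * (a / (5 * (s + 1)) + Nat.log 2 a + 1) ≤
      (a + a / (12 * (s + 1))) * (q * a + u - 24 * (s + 1) * (a + a / (12 * (s + 1)))) ∧
    (∀ m, a / (5 * (s + 1)) < m + (a / (24 * (s + 1)) + 1) → m < a →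
      a / (40 * (s + 1)) * (a + a / (12 * (s + 1))) <
        (m + 1) * (a + a / (12 * (s + 1)) + 1 - (m + (a / (24 * (s + 1)) + 1)))) := by
  have hsR : (1 : ℝ) ≤ s := by exact_mod_cast hs
  have hq1 : 1 ≤ q := by omega
  have hqR : (1 : ℝ) ≤ q := by exact_mod_cast hq1
  have ha0 : (0 : ℝ) < a := by
    have : 0 < a := by omega
    exact_mod_cast this
  obtain ⟨L, hL⟩ : ∃ L, L = Real.log a := ⟨_, rfl⟩
  rw [← hL] at ha
  obtain ⟨Z, hZ⟩ : ∃ Z : ℝ, Z = (s : ℝ) ^ 12 * (q : ℝ) ^ 6 * L := ⟨_, rfl⟩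
  have hZ' : 10 ^ 6 * (s : ℝ) ^ 13 * (q : ℝ) ^ 6 * L = 10 ^ 6 * (s * Z) := by
    rw [hZ]
    ring
  rw [hZ'] at ha
  have hlog2 : (1 / 2 : ℝ) < Real.log 2 := by
    have := Real.log_two_gt_d9
    linarith
  have hL2 : 1 / 2 ≤ L := by
    rw [hL]
    have h1 : Real.log 2 ≤ Real.log a :=
      Real.log_le_log (by norm_num) (by exact_mod_cast ha2)
    linarith
  have hsq : (1 : ℝ) ≤ (s : ℝ) ^ 12 * (q : ℝ) ^ 6 :=
    one_le_mul_of_one_le_of_one_le (one_le_pow₀ hsR) (one_le_pow₀ hqR)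
  have hZ2 : 1 / 2 ≤ Z := by
    rw [hZ]
    nlinarith
  -- `a` is large
  have ha3R : (500000 : ℝ) ≤ a := by nlinarith
  have hL1 : 1 ≤ L := by
    rw [hL, Real.le_log_iff_exp_le ha0]
    have := Real.exp_one_lt_d9
    linarith
  have hZ1 : (s : ℝ) ^ 12 * (q : ℝ) ^ 6 ≤ Z := by
    rw [hZ]
    nlinarith
  have hZ11 : 1 ≤ Z := hsq.trans hZ1
  have hsa : 10 ^ 6 * (s : ℝ) ≤ a := by nlinarith
  obtain ⟨κ, hκ⟩ : ∃ κ, κ = s + 1 := ⟨_, rfl⟩
  rw [← hκ] at hq ⊢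
  have hκ2 : 2 ≤ κ := by omega
  have hκR : (κ : ℝ) ≤ 2 * s := by
    rw [hκ]
    push_cast
    linarith
  have hκ0 : (0 : ℝ) < κ := by
    have : 0 < κ := by omega
    exact_mod_cast this
  obtain ⟨A24, hA24⟩ : ∃ A24, A24 = a / (24 * κ) := ⟨_, rfl⟩
  obtain ⟨A12, hA12⟩ : ∃ A12, A12 = a / (12 * κ) := ⟨_, rfl⟩
  obtain ⟨A5, hA5⟩ : ∃ A5, A5 = a / (5 * κ) := ⟨_, rfl⟩
  obtain ⟨A40, hA40⟩ : ∃ A40, A40 = a / (40 * κ) := ⟨_, rfl⟩
  rw [← hA24, ← hA12, ← hA5, ← hA40]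
  have e24 : 24 * κ * A24 ≤ a := by rw [hA24]; exact Nat.mul_div_le _ _
  have f24 : a < 24 * κ * (A24 + 1) := by rw [hA24]; exact Nat.lt_mul_div_succ _ (by omega)
  have e12 : 12 * κ * A12 ≤ a := by rw [hA12]; exact Nat.mul_div_le _ _
  have e5 : 5 * κ * A5 ≤ a := by rw [hA5]; exact Nat.mul_div_le _ _
  have f5 : a < 5 * κ * (A5 + 1) := by rw [hA5]; exact Nat.lt_mul_div_succ _ (by omega)
  have e40 : 40 * κ * A40 ≤ a := by rw [hA40]; exact Nat.mul_div_le _ _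
  have g24 : 2 * A24 ≤ A12 := by
    rw [hA12, Nat.le_div_iff_mul_le (by omega)]
    calc 2 * A24 * (12 * κ) = 24 * κ * A24 := by ring
      _ ≤ a := e24
  have g12 : 24 * A12 ≤ a := by
    refine le_trans ?_ e12
    calc 24 * A12 = 12 * 2 * A12 := by ring
      _ ≤ 12 * κ * A12 := Nat.mul_le_mul_right _ (Nat.mul_le_mul_left _ hκ2)
  have h5 : 24 * κ * (a + A12) ≤ 25 * κ * a := by
    have h1 : 24 * κ * (a + A12) = 24 * κ * a + 2 * (12 * κ * A12) := by ring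
    have h2 : 25 * κ * a = 24 * κ * a + κ * a := by ring
    have h3 : 2 * a ≤ κ * a := Nat.mul_le_mul_right _ hκ2
    omega
  refine ⟨?_, ?_, ?_, by omega, h5, ?_, ?_⟩
  · -- size of `a`
    have h1 : 1400 * (s : ℝ) ^ 12 * (q : ℝ) ^ 4 ≤ a := by
      have h2 : (s : ℝ) ^ 12 * (q : ℝ) ^ 4 ≤ (s : ℝ) ^ 12 * (q : ℝ) ^ 6 :=
        mul_le_mul_of_nonneg_left (pow_le_pow_right₀ hqR (by norm_num)) (by positivity)
      have h3 : 1400 * (s : ℝ) ^ 12 * (q : ℝ) ^ 4 = 1400 * ((s : ℝ) ^ 12 * (q : ℝ) ^ 4) := by ring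
      rw [h3]
      nlinarith
    exact_mod_cast h1
  · -- the threshold
    refine ⟨⌈30000 * Z⌉₊, ?_, ?_⟩
    · refine le_trans (le_of_eq ?_) (Nat.le_ceil _)
      rw [hZ, hL]
      ring
    · have h1 : ((⌈30000 * Z⌉₊ : ℕ) : ℝ) < 30000 * Z + 1 := Nat.ceil_lt_add_one (by linarith)
      have h2 : (24 : ℝ) * κ * A24 ≤ a := by exact_mod_cast e24
      have h3 : (12 : ℝ) * κ * A12 ≤ a := by exact_mod_cast e12
      have h4 : (a : ℝ) < 5 * κ * (A5 + 1) := by exact_mod_cast f5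
      have h5 : ((A24 + 1 + A12 + ⌈30000 * Z⌉₊ : ℕ) : ℝ) < ((A5 + 1 : ℕ) : ℝ) := by
        push_cast
        have h6 : (κ : ℝ) * (A24 + 1 + A12 + ⌈30000 * Z⌉₊) < κ * (A5 + 1) := by
          have h7 : (κ : ℝ) * ⌈30000 * Z⌉₊ ≤ 2 * s * (30000 * Z + 1) :=
            mul_le_mul hκR h1.le (Nat.cast_nonneg _) (by positivity)
          have h8 : (κ : ℝ) * (A24 + 1 + A12 + ⌈30000 * Z⌉₊) =
              κ * A24 + κ + κ * A12 + κ * ⌈30000 * Z⌉₊ := by ring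
          rw [h8]
          nlinarith
        exact lt_of_mul_lt_mul_left h6 hκ0.le
      have h6 : A24 + 1 + A12 + ⌈30000 * Z⌉₊ < A5 + 1 := by exact_mod_cast h5
      omega
  · omega
  · -- balance
    obtain ⟨lg, hlg⟩ : ∃ lg, lg = Nat.log 2 a := ⟨_, rfl⟩
    rw [← hlg]
    have hlgR : (lg : ℝ) ≤ 2 * L := by
      have h1 : 2 ^ lg ≤ a := by
        rw [hlg]
        exact Nat.pow_log_le_self 2 (by omega)
      have h2 : (2 : ℝ) ^ lg ≤ a := by exact_mod_cast h1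
      have h3 : (lg : ℝ) * Real.log 2 ≤ L := by
        rw [hL, ← Real.log_pow]
        exact Real.log_le_log (by positivity) h2
      have h4 : (0 : ℝ) ≤ lg := Nat.cast_nonneg _
      nlinarith
    have h1 : 120 * κ * (lg + 1) ≤ 11 * a := by
      have h2 : (120 : ℝ) * κ * (lg + 1) ≤ 11 * a := by
        have h3 : (κ : ℝ) * (lg + 1) ≤ 2 * s * (3 * L) :=
          mul_le_mul hκR (by linarith) (by positivity) (by positivity)
        have h4 : L ≤ Z := by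
          rw [hZ]
          nlinarith
        have h5 : (s : ℝ) * L ≤ s * Z := mul_le_mul_of_nonneg_left h4 (by linarith)
        nlinarith
      exact_mod_cast h2
    have h2 : 25 * κ * a ≤ q * a := Nat.mul_le_mul_right _ (by omega)
    obtain ⟨t, ht⟩ : ∃ t, q * a + u = 24 * κ * (a + A12) + t :=
      ⟨q * a + u - 24 * κ * (a + A12), by omega⟩
    rw [ht, Nat.add_sub_cancel_left]
    have h3 : q * a ≤ t + 25 * κ * a := by omega
    have h4 : 60 * (2 * κ * q * (A5 + lg + 1)) ≤ 35 * (q * a) := by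
      calc 60 * (2 * κ * q * (A5 + lg + 1)) =
          q * (24 * (5 * κ * A5) + 120 * κ * (lg + 1)) := by ring
        _ ≤ q * (24 * a + 11 * a) :=
            Nat.mul_le_mul_left _ (Nat.add_le_add (Nat.mul_le_mul_left _ e5) h1)
        _ = 35 * (q * a) := by ring
    have h5 : 35 * (q * a) ≤ 60 * t := by
      have h6 : 1500 * κ * a ≤ 25 * (q * a) := by
        calc 1500 * κ * a = 25 * (60 * κ * a) := by ring
          _ ≤ 25 * (q * a) := Nat.mul_le_mul_left _ (Nat.mul_le_mul_right _ hq)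
      have h7 : 60 * (25 * κ * a) = 1500 * κ * a := by ring
      omega
    have h6 : 2 * κ * q * (A5 + lg + 1) ≤ t := by omega
    calc 2 * (κ * (q * a)) * (A5 + lg + 1) = a * (2 * κ * q * (A5 + lg + 1)) := by ring
      _ ≤ a * t := Nat.mul_le_mul_left _ h6
      _ ≤ (a + A12) * t := Nat.mul_le_mul_right _ (by omega)
  · -- sorted sizes
    intro m hm1 hm2
    have h12' : A12 + 1 ≤ A5 := by
      rw [hA5, Nat.le_div_iff_mul_le (by omega)]
      have h1 : (A12 + 1) * (5 * κ) = 5 * κ * A12 + 5 * κ := by ring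
      rw [h1]
      have h2 : 12 * (5 * κ * A12) ≤ 5 * a := by
        calc 12 * (5 * κ * A12) = 5 * (12 * κ * A12) := by ring
          _ ≤ 5 * a := Nat.mul_le_mul_left _ e12
      have h3 : (10 ^ 6 * s : ℕ) ≤ a := by exact_mod_cast hsa
      omega
    obtain ⟨w0, hw0⟩ : ∃ w0, w0 = A12 + 1 - A24 := ⟨_, rfl⟩
    obtain ⟨p, hp⟩ : ∃ p, m + 1 = w0 + p := ⟨m + 1 - w0, by omega⟩
    obtain ⟨p', hp'⟩ : ∃ p', a + A12 + 1 - (m + (A24 + 1)) = w0 + p' :=
      ⟨a + A12 + 1 - (m + (A24 + 1)) - w0, by omega⟩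
    have haw : a = w0 + p + p' := by omega
    have h1 : w0 * a ≤ (m + 1) * (a + A12 + 1 - (m + (A24 + 1))) := by
      rw [hp, hp']
      calc w0 * a = w0 * (w0 + p + p') := by rw [← haw]
        _ ≤ w0 * (w0 + p + p') + p * p' := Nat.le_add_right _ _
        _ = (w0 + p) * (w0 + p') := by ring
    refine lt_of_lt_of_le ?_ h1
    have h2 : a < 24 * κ * w0 := lt_of_lt_of_le f24 (Nat.mul_le_mul_left _ (by omega))
    have h3 : 24 * (40 * κ) * (A40 * (a + A12)) ≤ 25 * (a * a) := by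
      calc 24 * (40 * κ) * (A40 * (a + A12)) = (40 * κ * A40) * (24 * a + 24 * A12) := by ring
        _ ≤ a * (24 * a + a) := Nat.mul_le_mul e40 (Nat.add_le_add_left g12 _)
        _ = 25 * (a * a) := by ring
    have h4 : 40 * (a * a) ≤ 24 * (40 * κ) * (w0 * a) := by
      calc 40 * (a * a) ≤ 40 * ((24 * κ * w0) * a) :=
            Nat.mul_le_mul_left _ (Nat.mul_le_mul_right _ h2.le)
        _ = 24 * (40 * κ) * (w0 * a) := by ring
    have h5 : 0 < a * a := Nat.mul_pos (by omega) (by omega)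
    have h6 : 24 * (40 * κ) * (A40 * (a + A12)) < 24 * (40 * κ) * (w0 * a) := by omega
    exact Nat.lt_of_mul_lt_mul_left h6

end Vale.Agent.P181.H530
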