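import Vale.Agent.P181.H179.P7

set_option autoImplicit false

open scoped TensorProduct

namespace Vale.Agent.P181.H530

open Vale.Agent.P181 Vale.Agent.P181.H280 Vale.Agent.P181.H179

universe u

section ArrayMap

variable {V : Type u} [AddCommGroup V] [Module ℂ V]

/-- Multiply `a * b` vectors along the columns after the reindexing `E`. -/
noncomputable def arrMul (a b : ℕ) (E : Equiv.Perm (Fin a × Fin b)) (V : Type u) [AddCommGroup V]
    [Module ℂ V] : MultilinearMap ℂ (fun _ : Fin a × Fin b => V) (Sym[ℂ]^b (Sym[ℂ]^a V)) :=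
  (colMul a b V).domDomCongr E

variable [FiniteDimensional ℂ V]

/-- `arrMul` as a multilinear map of tensors (the rows). -/
noncomputable def arrLift (a b : ℕ) (E : Equiv.Perm (Fin a × Fin b)) (V : Type u)
    [AddCommGroup V] [Module ℂ V] [FiniteDimensional ℂ V] :
    MultilinearMap ℂ (fun _ : Fin a => (⨂[ℂ] _ : Fin b, V)) (Sym[ℂ]^b (Sym[ℂ]^a V)) :=
  (exists_rowLift (arrMul a b E V)).choose

lemma arrLift_tprod (a b : ℕ) (E : Equiv.Perm (Fin a × Fin b)) (v : Fin a → Fin b → V) :
    arrLift a b E V (fun i => PiTensorProduct.tprod ℂ (v i)) =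
      SymmetricPower.tprod ℂ (fun j : Fin b => SymmetricPower.tprod ℂ (fun s : Fin a =>
        v (E (s, j)).1 (E (s, j)).2)) :=
  (exists_rowLift (arrMul a b E V)).choose_spec v

/-- `arrLift` on symmetrized rows, summed over the orders of the rows. -/
noncomputable def arrSum (a b : ℕ) (E : Equiv.Perm (Fin a × Fin b)) (V : Type u)
    [AddCommGroup V] [Module ℂ V] [FiniteDimensional ℂ V] :
    MultilinearMap ℂ (fun _ : Fin a => Sym[ℂ]^b V) (Sym[ℂ]^b (Sym[ℂ]^a V)) :=
  ∑ τ : Equiv.Perm (Fin a),
    ((arrLift a b E V).compLinearMap (fun _ => symSum (Fin b) V)).domDomCongr τ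

lemma arrSum_apply (a b : ℕ) (E : Equiv.Perm (Fin a × Fin b)) (v : Fin a → Sym[ℂ]^b V) :
    arrSum a b E V v = ∑ τ : Equiv.Perm (Fin a),
      arrLift a b E V (fun i => symSum (Fin b) V (v (τ i))) := by
  simp only [arrSum, sum_apply, MultilinearMap.domDomCongr_apply,
    MultilinearMap.compLinearMap_apply]

/-- The equivariant map `Sym^a(Sym^b V) → Sym^b(Sym^a V)` attached to an arrangement `E` of the
boxes of `a` rows of length `b` in `b` groups of size `a`: cut the rows in this way, in all orders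
of the rows and of the entries of each row. -/
noncomputable def arrMap (a b : ℕ) (E : Equiv.Perm (Fin a × Fin b)) (V : Type u) [AddCommGroup V]
    [Module ℂ V] [FiniteDimensional ℂ V] :
    Sym[ℂ]^a (Sym[ℂ]^b V) →ₗ[ℂ] Sym[ℂ]^b (Sym[ℂ]^a V) :=
  symLift (arrSum a b E V) (fun e v => by
    rw [arrSum_apply, arrSum_apply]
    exact Equiv.sum_comp (Equiv.mulLeft e)
      (fun τ : Equiv.Perm (Fin a) => arrLift a b E V (fun i => symSum (Fin b) V (v (τ i)))))

lemma arrMap_tprod (a b : ℕ) (E : Equiv.Perm (Fin a × Fin b)) (v : Fin a → Fin b → V) :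
    arrMap a b E V (SymmetricPower.tprod ℂ (fun i => SymmetricPower.tprod ℂ (v i))) =
      ∑ τ : Equiv.Perm (Fin a), ∑ σ : Fin a → Equiv.Perm (Fin b),
        SymmetricPower.tprod ℂ (fun j : Fin b => SymmetricPower.tprod ℂ (fun s : Fin a =>
          v (τ (E (s, j)).1) (σ (E (s, j)).1 (E (s, j)).2))) := by
  rw [arrMap, symLift_tprod, arrSum_apply]
  apply Finset.sum_congr rfl
  intro τ _
  simp only [symSum_tprod]
  rw [MultilinearMap.map_sum]
  apply Finset.sum_congr rfl
  intro σ _
  exact arrLift_tprod a b E (fun i j => v (τ i) (σ i j))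

lemma arrMap_equivariant (a b : ℕ) (E : Equiv.Perm (Fin a × Fin b)) (g : V →ₗ[ℂ] V) :
    arrMap a b E V ∘ₗ symMap a (symMap b g) = symMap b (symMap a g) ∘ₗ arrMap a b E V := by
  apply pure_hom_ext
  intro v
  rw [LinearMap.comp_apply, LinearMap.comp_apply, symMap_tprod, arrMap_tprod, map_sum]
  have h1 : (fun i => symMap b g (SymmetricPower.tprod ℂ (v i))) =
      fun i => SymmetricPower.tprod ℂ (fun j => g (v i j)) := by
    funext i; rw [symMap_tprod]
  rw [h1, arrMap_tprod a b E (fun i j => g (v i j))]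
  apply Finset.sum_congr rfl
  intro τ _
  rw [map_sum]
  apply Finset.sum_congr rfl
  intro σ _
  rw [symMap_tprod]
  congr 1
  funext j
  rw [symMap_tprod]

/-- Regroupings: a permutation of the groups, and a permutation of the places of each group. -/
abbrev Rg (a b : ℕ) : Type := Equiv.Perm (Fin b) × (Fin b → Equiv.Perm (Fin a))

/-- The box in the arrangement `E` taken by a place of a group after a regrouping. -/
def slot {a b : ℕ} (E : Equiv.Perm (Fin a × Fin b)) (g : Rg a b) :
    Fin b × Fin a ≃ Fin a × Fin b where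
  toFun p := E (g.2 p.1 p.2, g.1 p.1)
  invFun r := (g.1.symm (E.symm r).2, (g.2 (g.1.symm (E.symm r).2)).symm (E.symm r).1)
  left_inv p := by
    simp only [Equiv.symm_apply_apply, Prod.mk.eta]
  right_inv r := by
    simp only [Equiv.apply_symm_apply, Prod.mk.eta]

/-- The functionals of the array map. -/
lemma symEval_arrMap {a b : ℕ} (E : Equiv.Perm (Fin a × Fin b))
    (ξ : Fin b × Fin a → Module.Dual ℂ V) (x : Sym[ℂ]^a (Sym[ℂ]^b V)) :
    symEval (fun j => symEval (fun s => ξ (j, s))) (arrMap a b E V x) =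
      ∑ g : Rg a b, symEval (fun i => symEval (fun j => ξ ((slot E g).symm (i, j)))) x := by
  have h : symEval (fun j => symEval (fun s => ξ (j, s))) ∘ₗ arrMap a b E V =
      ∑ g : Rg a b, symEval (fun i => symEval (fun j => ξ ((slot E g).symm (i, j)))) := by
    apply pure_hom_ext
    intro v
    rw [LinearMap.comp_apply, arrMap_tprod, map_sum, LinearMap.sum_apply]
    simp only [map_sum, symEval_tprod]
    have h1 : ∀ (τ : Equiv.Perm (Fin a)) (σ : Fin a → Equiv.Perm (Fin b)),
        ∑ π : Equiv.Perm (Fin b), ∏ j, ∑ κ : Equiv.Perm (Fin a), ∏ s, ξ (j, s)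
          (v (τ (E (κ s, π j)).1) (σ (E (κ s, π j)).1 (E (κ s, π j)).2)) =
        ∑ g : Rg a b, ∏ i, ∏ j, ξ ((slot E g).symm (i, j)) (v (τ i) (σ i j)) := by
      intro τ σ
      rw [Fintype.sum_prod_type]
      apply Finset.sum_congr rfl
      intro π _
      rw [Finset.prod_univ_sum, Fintype.piFinset_univ]
      apply Finset.sum_congr rfl
      intro κ _
      rw [← Fintype.prod_prod_type', ← Fintype.prod_prod_type',
        ← Equiv.prod_comp (slot E (π, κ))]
      apply Finset.prod_congr rfl
      intro p _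
      simp only [Prod.mk.eta, Equiv.symm_apply_apply]
      rfl
    rw [Finset.sum_congr rfl (fun τ _ => Finset.sum_congr rfl (fun σ _ => h1 τ σ))]
    have h2 : ∀ (g : Rg a b) (τ : Equiv.Perm (Fin a)),
        ∏ i, ∑ e : Equiv.Perm (Fin b), ∏ j, ξ ((slot E g).symm (i, j)) (v (τ i) (e j)) =
        ∑ σ : Fin a → Equiv.Perm (Fin b), ∏ i, ∏ j,
          ξ ((slot E g).symm (i, j)) (v (τ i) (σ i j)) := by
      intro g τ
      rw [Finset.prod_univ_sum, Fintype.piFinset_univ]
    simp only [h2]
    rw [Finset.sum_congr rfl (fun τ _ => Finset.sum_comm), Finset.sum_comm]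
  have h4 := LinearMap.congr_fun h x
  rw [LinearMap.comp_apply, LinearMap.sum_apply] at h4
  exact h4

end ArrayMap

end Vale.Agent.P181.H530
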