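import Vale.Agent.P181.H530.C1

set_option autoImplicit false

open scoped TensorProduct

namespace Vale.Agent.P181.H530

open Vale.Agent.P181 Vale.Agent.P181.H280 Vale.Agent.P181.H179 MvPolynomial Finset

variable {n : ℕ}

lemma arrMap_hwSpace {a b : ℕ} (E : Equiv.Perm (Fin a × Fin b)) (lam : Fin n → ℕ)
    (x : Sym[ℂ]^a (Sym[ℂ]^b (Fin n → ℂ))) (hx : x ∈ hwSpace lam (plethAct a b n)) :
    arrMap a b E (Fin n → ℂ) x ∈ hwSpace lam (plethAct b a n) := by
  intro g hg
  have h1 := LinearMap.congr_fun (arrMap_equivariant a b E (Matrix.toLin' g)) x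
  rw [LinearMap.comp_apply, LinearMap.comp_apply] at h1
  have h2 : symMap a (symMap b (Matrix.toLin' g)) x = (∏ i, g i i ^ lam i) • x := hx g hg
  rw [h2, map_smul] at h1
  exact h1.symm

/-- The relation given by a zero of the array map. -/
lemma formOf_arr {a b : ℕ} (E : Equiv.Perm (Fin a × Fin b))
    (l : (Fin a → Fin b → (Fin n → ℂ)) →₀ ℂ)
    (h0 : arrMap a b E (Fin n → ℂ) (elOf l) = 0) (z : Fin b × Fin a → MvPolynomial (Fin n) ℂ)
    (hz : ∀ p, z p ∈ linS n) :
    ∑ g : Rg a b, formOf l (fun i => ∏ j, z ((slot E g).symm (i, j))) = 0 := by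
  choose ξ hξ using fun p => exists_dual (hz p)
  have h1 := symEval_arrMap E ξ (elOf l)
  rw [h0, map_zero] at h1
  rw [h1]
  apply Finset.sum_congr rfl
  intro g _
  exact formOf_lin l (fun i j => z ((slot E g).symm (i, j)))
    (fun i j => ξ ((slot E g).symm (i, j))) (fun i j => hξ _)

/-- The relation on the fillings. -/
theorem VV_rel {a b N : ℕ} (E : Equiv.Perm (Fin a × Fin b))
    (l : (Fin a → Fin b → (Fin n → ℂ)) →₀ ℂ)
    (h0 : arrMap a b E (Fin n → ℂ) (elOf l) = 0) {l' : Fin N → ℕ}
    (β : Box l' ≃ Fin b × Fin a) :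
    ∑ g : Rg a b, VV (fullForm l) l' (fun p => (slot E g (β p)).1) = 0 := by
  classical
  simp only [VV]
  rw [Finset.sum_comm]
  apply Finset.sum_eq_zero
  intro σ _
  rw [← Finset.mul_sum]
  obtain ⟨w, hw⟩ : ∃ w : Box l' → MvPolynomial (Fin n) ℂ, ∀ p, w p = xN n (σ p.1 p.2) :=
    ⟨fun p => xN n (σ p.1 p.2), fun _ => rfl⟩
  simp only [← hw]
  let z : Fin b × Fin a → MvPolynomial (Fin n) ℂ := fun r => w (β.symm r)
  have hz : ∀ r, z r ∈ linS n := fun r => by
    simp only [z, hw]
    exact xN_mem _
  have h1 := formOf_arr E l h0 z hz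
  have h2 : ∀ g : Rg a b, fullForm l (fun i => ∏ p : Box l',
      if (slot E g (β p)).1 = i then w p else 1) =
      formOf l (fun i => ∏ j, z ((slot E g).symm (i, j))) := by
    intro g
    have h3 : (fun i => ∏ p : Box l', if (slot E g (β p)).1 = i then
        w p else 1) = fun i => ∏ j, z ((slot E g).symm (i, j)) := by
      funext i
      have h4 : ∀ p : Box l', (if (slot E g (β p)).1 = i then
          w p else 1) =
          (fun r : Fin a × Fin b => if r.1 = i then z ((slot E g).symm r) else 1)
            ((β.trans (slot E g)) p) := by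
        intro p
        simp only [z, Equiv.trans_apply, Equiv.symm_apply_apply]
      rw [Finset.prod_congr rfl (fun p _ => h4 p), Equiv.prod_comp (β.trans (slot E g))
        (fun r : Fin a × Fin b => if r.1 = i then z ((slot E g).symm r) else 1),
        Fintype.prod_prod_type, Finset.prod_eq_single i]
      · simp only [if_true]
      · intro i' _ hi'
        apply Finset.prod_eq_one
        intro j _
        simp only [if_neg hi']
      · intro h
        exact absurd (Finset.mem_univ _) h
    rw [h3, fullForm_apply]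
    congr 1
    funext i
    exact hom_self (prod_mem_pow _ _ (fun j => hz _))
  rw [Finset.sum_congr rfl (fun g _ => h2 g), h1, mul_zero]

/-- Every function to `Fin a` with all fibres of size `b` is the row function of an
arrangement. -/
lemma exists_arr {a b : ℕ} (r : Fin a × Fin b → Fin a)
    (hr : ∀ i, (univ.filter (fun x => r x = i)).card = b) :
    ∃ E : Equiv.Perm (Fin a × Fin b), ∀ x, (E x).1 = r x := by
  classical
  have h1 : ∀ i, Nonempty ({x // r x = i} ≃ Fin b) := by
    intro i
    refine ⟨Fintype.equivOfCardEq ?_⟩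
    rw [Fintype.card_subtype, hr, Fintype.card_fin]
  let f : ∀ i, {x // r x = i} ≃ Fin b := fun i => (h1 i).some
  refine ⟨(Equiv.sigmaFiberEquiv r).symm.trans
    ((Equiv.sigmaCongrRight f).trans (Equiv.sigmaEquivProd (Fin a) (Fin b))), fun x => rfl⟩

end Vale.Agent.P181.H530
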