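import Vale.Agent.P181.H530.C2

set_option autoImplicit false

namespace Vale.Agent.P181.H530

open Vale.Agent.P181 Vale.Agent.P181.H280 Vale.Agent.P181.H179 Finset

/-- A self-map of `Fin a` that is injective and nowhere decreasing is the identity. -/
lemma id_of_le {a : ℕ} (μ : Fin a → Fin a) (hinj : Function.Injective μ) (h : ∀ i, i ≤ μ i) :
    ∀ i, μ i = i := by
  let M : Equiv.Perm (Fin a) := Equiv.ofBijective μ (Finite.injective_iff_bijective.1 hinj)
  have hsum : ∑ i, ((M i : Fin a) : ℕ) = ∑ i : Fin a, (i : ℕ) :=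
    Equiv.sum_comp M (fun i : Fin a => (i : ℕ))
  have heq := (Finset.sum_eq_sum_iff_of_le (s := univ) (f := fun i : Fin a => (i : ℕ))
    (g := fun i => ((M i : Fin a) : ℕ)) (fun i _ => Fin.le_def.1 (h i))).1 hsum.symm
  intro i
  exact Fin.ext (heq i (Finset.mem_univ i)).symm

/-- The combinatorial core: a regrouping without conflicts does not change the rows. -/
theorem core {a b q s N : ℕ} {l : Fin N → ℕ} (hq : 2 ≤ q)
    (ε : Fin b ≃ (Fin a × Fin q) ⊕ Fin s) (E : Equiv.Perm (Fin a × Fin b))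
    (hE : ∀ i j, (E (i, j)).1 = Sum.elim Prod.fst (fun _ => i) (ε j))
    (e : Box l → Fin a) (fm : Box l → (Fin a × Fin q) ⊕ Fin s)
    (β : Box l → Fin b × Fin a) (hβ1 : ∀ p, ε (β p).1 = fm p)
    (hβ2 : ∀ p k, fm p = Sum.inr k → (β p).2 = e p)
    (hn : ∀ p i k, fm p = Sum.inl (i, k) → e p = i)
    (h1 : ∀ i j, i < j → ∀ k : Fin q, (k : ℕ) + 1 < q →
      ∃ t u v, fm ⟨t, u⟩ = Sum.inl (i, k) ∧ fm ⟨t, v⟩ = Sum.inl (j, k))
    (h2 : ∀ i j, i < j → ∀ k k' : Fin q, (k' : ℕ) = k + 1 →
      ∃ t u v, fm ⟨t, u⟩ = Sum.inl (i, k) ∧ fm ⟨t, v⟩ = Sum.inl (j, k'))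
    (h3 : ∀ k x, ∃ t u v, fm ⟨t, u⟩ = Sum.inr k ∧ fm ⟨t, v⟩ = Sum.inl x)
    (h4 : ∀ k k', k ≠ k' → ∃ t u v, fm ⟨t, u⟩ = Sum.inr k ∧ fm ⟨t, v⟩ = Sum.inr k')
    (A : Fin s → Fin a → ℕ) (hA : ∀ k, StrictMono (A k)) (col : ℕ → Fin N)
    (hcol : ∀ k i k' i', col (A k i) = col (A k' i') → A k i = A k' i')
    (h5 : ∀ k i i', ∃ u, e ⟨col (A k i), u⟩ = i')
    (h6 : ∀ k i u, e ⟨col (A k i), u⟩ = i → fm ⟨col (A k i), u⟩ = Sum.inr k)
    (h7 : ∀ p k, fm p = Sum.inr k → p.1 = col (A k (e p)))
    (g : Rg a b)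
    (hc : ∀ t u v, u ≠ v → (slot E g (β ⟨t, u⟩)).1 ≠ (slot E g (β ⟨t, v⟩)).1) :
    ∃ τ : Equiv.Perm (Fin a), ∀ p, (slot E g (β p)).1 = τ (e p) := by
  classical
  let Pm : Equiv.Perm ((Fin a × Fin q) ⊕ Fin s) := (ε.symm.trans g.1).trans ε
  have hnr : ∀ p, (slot E g (β p)).1 =
      Sum.elim Prod.fst (fun _ => g.2 (β p).1 (β p).2) (Pm (fm p)) := by
    intro p
    have h8 : (slot E g (β p)).1 = (E (g.2 (β p).1 (β p).2, g.1 (β p).1)).1 := rfl
    have h9 : Pm (fm p) = ε (g.1 (β p).1) := by
      rw [← hβ1]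
      simp only [Pm, Equiv.trans_apply, Equiv.symm_apply_apply]
    rw [h8, hE, h9]
  have hnl : ∀ p x, Pm (fm p) = Sum.inl x → (slot E g (β p)).1 = x.1 := by
    intro p x h
    rw [hnr, h]
    rfl
  -- a conflict of two groups in one row
  have hconf : ∀ f f', (∃ t u v, fm ⟨t, u⟩ = f ∧ fm ⟨t, v⟩ = f') → f ≠ f' →
      ∀ i j j', Pm f = Sum.inl (i, j) → Pm f' ≠ Sum.inl (i, j') := by
    rintro f f' ⟨t, u, v, hu, hv⟩ hff i j j' hf hf'
    have huv : u ≠ v := by
      rintro rfl
      exact hff (hu.symm.trans hv)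
    apply hc t u v huv
    rw [hnl _ (i, j) (by rw [hu, hf]), hnl _ (i, j') (by rw [hv, hf'])]
  -- special groups stay special
  have hsp : ∀ k, ∃ k', Pm (Sum.inr k) = Sum.inr k' := by
    intro k
    rcases hk : Pm (Sum.inr k) with x | k'
    · exfalso
      obtain ⟨i, j⟩ := x
      obtain ⟨j', hj'⟩ : ∃ j' : Fin q, j' ≠ j := by
        have : Nontrivial (Fin q) := Fin.nontrivial_iff_two_le.2 hq
        exact exists_ne j
      have h8 : Pm (Pm.symm (Sum.inl (i, j'))) = Sum.inl (i, j') := Equiv.apply_symm_apply _ _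
      have h9 : (Sum.inr k : (Fin a × Fin q) ⊕ Fin s) ≠ Pm.symm (Sum.inl (i, j')) := by
        intro h
        rw [h, h8] at hk
        have h10 := Sum.inl_injective hk
        exact hj' (congrArg Prod.snd h10)
      refine hconf (Sum.inr k) (Pm.symm (Sum.inl (i, j'))) ?_ h9 i j j' hk h8
      rcases hf : Pm.symm (Sum.inl (i, j')) with x | k'
      · exact h3 k x
      · apply h4
        rintro rfl
        exact h9 hf.symm
    · exact ⟨k', rfl⟩
  choose S hS using hsp
  have hSinj : Function.Injective S := by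
    intro k k' h
    have h8 : Pm (Sum.inr k) = Pm (Sum.inr k') := by rw [hS, hS, h]
    exact Sum.inr_injective (Pm.injective h8)
  have hSsurj : Function.Surjective S := Finite.injective_iff_surjective.1 hSinj
  have hno : ∀ x, ∃ y, Pm (Sum.inl x) = Sum.inl y := by
    intro x
    rcases hx : Pm (Sum.inl x) with y | k
    · exact ⟨y, rfl⟩
    · exfalso
      obtain ⟨k', rfl⟩ := hSsurj k
      rw [← hS] at hx
      exact Sum.inl_ne_inr (Pm.injective hx)
  choose Y hY using hno
  have hYinj : Function.Injective Y := by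
    intro x x' h
    have h8 : Pm (Sum.inl x) = Pm (Sum.inl x') := by rw [hY, hY, h]
    exact Sum.inl_injective (Pm.injective h8)
  have hYbij : Function.Bijective Y := Finite.injective_iff_bijective.1 hYinj
  -- the rows of the normal groups
  obtain ⟨τ, hτ⟩ := const_of_sep (fun x => (Y x).1) (by
      intro i
      have h8 : (univ.filter (fun x => (Y x).1 = i)).card =
          (univ.filter (fun r : Fin a × Fin q => r.1 = i)).card := by
        apply Finset.card_bij (fun x _ => Y x)
        · intro x hx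
          rw [Finset.mem_filter] at hx ⊢
          exact ⟨Finset.mem_univ _, hx.2⟩
        · intro x _ x' _ h
          exact hYinj h
        · intro r hr
          rw [Finset.mem_filter] at hr
          obtain ⟨x, rfl⟩ := hYbij.2 r
          exact ⟨x, Finset.mem_filter.2 ⟨Finset.mem_univ _, hr.2⟩, rfl⟩
      rw [h8, Finset.card_filter, Fintype.sum_prod_type, Finset.sum_eq_single i]
      · simp
      · intro j _ hj
        simp [hj]
      · intro h
        exact absurd (Finset.mem_univ _) h) (by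
      intro i j hij k hk h8
      refine hconf (Sum.inl (i, k)) (Sum.inl (j, k)) (h1 i j hij k hk) (by
        intro h
        exact hij.ne (congrArg Prod.fst (Sum.inl_injective h))) (Y (i, k)).1 (Y (i, k)).2
        (Y (j, k)).2 (by rw [hY]) ?_
      have h9 : (Y (i, k)).1 = (Y (j, k)).1 := h8
      rw [hY, h9]) (by
      intro i j hij k k' hk h8
      refine hconf (Sum.inl (i, k)) (Sum.inl (j, k')) (h2 i j hij k k' hk) (by
        intro h
        exact hij.ne (congrArg Prod.fst (Sum.inl_injective h))) (Y (i, k)).1 (Y (i, k)).2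
        (Y (j, k')).2 (by rw [hY]) ?_
      have h9 : (Y (i, k)).1 = (Y (j, k')).1 := h8
      rw [hY, h9])
  have hτ' : ∀ x, (Y x).1 = τ x.1 := hτ
  have hnormal : ∀ p x, fm p = Sum.inl x → (slot E g (β p)).1 = τ (e p) := by
    intro p x hp
    rw [hnl p (Y x) (by rw [hp, hY]), hτ', hn p x.1 x.2 hp]
  have hspecial : ∀ p k, fm p = Sum.inr k → (slot E g (β p)).1 = g.2 (ε.symm (Sum.inr k)) (e p) := by
    intro p k hp
    rw [hnr, hp, hS, Sum.elim_inr, hβ2 p k hp]
    have h8 : (β p).1 = ε.symm (Sum.inr k) := by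
      rw [← hp, ← hβ1, Equiv.symm_apply_apply]
    rw [h8]
  -- the spreading of the special groups
  have hmain : ∀ m k i, A k i = m → g.2 (ε.symm (Sum.inr k)) i = τ i := by
    intro m
    induction m using Nat.strong_induction_on with
    | _ m ih =>
      intro k i hki
      choose u hu using h5 k i
      have hu_inj : Function.Injective u := by
        intro i' i'' h
        rw [← hu i', ← hu i'', h]
      let μ : Fin a → Fin a := fun i' => τ.symm (slot E g (β ⟨col (A k i), u i'⟩)).1
      have hμinj : Function.Injective μ := by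
        intro i' i'' h
        by_contra hne
        exact hc _ (u i') (u i'') (fun h' => hne (hu_inj h')) (τ.symm.injective h)
      have hμ : ∀ i', i' ≤ μ i' := by
        intro i'
        rcases hf : fm ⟨col (A k i), u i'⟩ with x | k'
        · have h8 := hnormal _ x hf
          simp only [μ]
          rw [h8, hu, Equiv.symm_apply_apply]
        · have h8 := h7 _ k' hf
          simp only at h8
          rw [hu] at h8
          have h9 := hcol k i k' i' h8
          have h10 := hspecial _ k' hf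
          rw [hu] at h10
          by_contra hlt
          rw [not_le] at hlt
          have h11 : μ i' = τ.symm (g.2 (ε.symm (Sum.inr k')) i') := by
            simp only [μ]
            rw [h10]
          have h12 := ih (A k' (μ i')) (by
            rw [← hki, h9]
            exact hA k' hlt) k' (μ i') rfl
          have h13 : τ (μ i') = g.2 (ε.symm (Sum.inr k')) i' := by
            rw [h11, Equiv.apply_symm_apply]
          rw [h13] at h12
          exact hlt.ne ((g.2 (ε.symm (Sum.inr k'))).injective h12)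
      have h8 := id_of_le μ hμinj hμ i
      have h9 := hspecial ⟨col (A k i), u i⟩ k (h6 k i (u i) (hu i))
      rw [hu] at h9
      rw [← h9, ← Equiv.symm_apply_eq]
      exact h8
  refine ⟨τ, fun p => ?_⟩
  rcases hf : fm p with x | k
  · exact hnormal p x hf
  · rw [hspecial p k hf]
    exact hmain _ k (e p) rfl

end Vale.Agent.P181.H530
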