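import Vale.Agent.P181.H530.D1

set_option autoImplicit false

open scoped TensorProduct

namespace Vale.Agent.P181.H530

open Vale.Agent.P181 Vale.Agent.P181.H280 Vale.Agent.P181.H179 Finset

/-- The groups: `q` normal groups for each row, `s` special groups. -/
abbrev Gp (a q s : ℕ) : Type := (Fin a × Fin q) ⊕ Fin s

/-- The arrangement with `q` groups in each row and `s` groups meeting every row once. -/
lemma exists_bulk_arr (a q s : ℕ) : ∃ (ε : Fin (q * a + s) ≃ Gp a q s)
    (E : Equiv.Perm (Fin a × Fin (q * a + s))),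
    ∀ i j, (E (i, j)).1 = Sum.elim Prod.fst (fun _ => i) (ε j) := by
  classical
  have h1 : Nonempty (Fin (q * a + s) ≃ Gp a q s) := by
    refine ⟨Fintype.equivOfCardEq ?_⟩
    rw [Fintype.card_fin, Fintype.card_sum, Fintype.card_prod, Fintype.card_fin, Fintype.card_fin,
      Fintype.card_fin, mul_comm]
  obtain ⟨ε⟩ := h1
  obtain ⟨E, hE⟩ := exists_arr (b := q * a + s) (fun x : Fin a × Fin (q * a + s) =>
    Sum.elim Prod.fst (fun _ => x.1) (ε x.2)) (by
      intro i
      rw [Finset.card_filter, Fintype.sum_prod_type]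
      have h2 : ∀ i' : Fin a, (∑ j : Fin (q * a + s),
          if (Sum.elim Prod.fst (fun _ => i') (ε j) : Fin a) = i then 1 else 0) =
          q + if i' = i then s else 0 := by
        intro i'
        rw [Equiv.sum_comp ε (fun f : Gp a q s =>
          if (Sum.elim Prod.fst (fun _ => i') f : Fin a) = i then 1 else 0), Fintype.sum_sum_type,
          Fintype.sum_prod_type]
        congr 1
        · rw [Finset.sum_eq_single i]
          · simp
          · intro j _ hj
            simp [hj]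
          · intro h
            exact absurd (Finset.mem_univ _) h
        · by_cases hi : i' = i
          · rw [if_pos hi]
            simp [hi]
          · rw [if_neg hi]
            simp [hi]
      simp only [h2]
      rw [Finset.sum_add_distrib, Finset.sum_ite_eq' univ i, if_pos (Finset.mem_univ _)]
      simp [mul_comm])
  exact ⟨ε, E, fun i j => hE (i, j)⟩

/-- Places in the groups. -/
lemma exists_place {X K : Type} [Fintype X] [DecidableEq K] {a : ℕ} (fm : X → K)
    (e : X → Fin a) (hcard : ∀ f, (univ.filter (fun p => fm p = f)).card = a) (P : K → Prop)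
    (hP : ∀ p p', fm p = fm p' → P (fm p) → e p = e p' → p = p') :
    ∃ β : X ≃ K × Fin a, (∀ p, (β p).1 = fm p) ∧ ∀ p, P (fm p) → (β p).2 = e p := by
  classical
  have h1 : ∀ f, ∃ w : {p // fm p = f} ≃ Fin a, P f → ∀ p, w p = e p.1 := by
    intro f
    have hc : Fintype.card {p // fm p = f} = Fintype.card (Fin a) := by
      rw [Fintype.card_subtype, hcard, Fintype.card_fin]
    by_cases hf : P f
    · have hb : Function.Bijective (fun p : {p // fm p = f} => e p.1) := by
        rw [Fintype.bijective_iff_injective_and_card]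
        refine ⟨?_, hc⟩
        rintro ⟨p, hp⟩ ⟨p', hp'⟩ h
        apply Subtype.ext
        exact hP p p' (hp.trans hp'.symm) (by rw [hp]; exact hf) h
      exact ⟨Equiv.ofBijective _ hb, fun _ _ => rfl⟩
    · exact ⟨Fintype.equivOfCardEq hc, fun h => absurd h hf⟩
  choose w hw using h1
  refine ⟨(Equiv.sigmaFiberEquiv fm).symm.trans
    ((Equiv.sigmaCongrRight w).trans (Equiv.sigmaEquivProd K (Fin a))), fun p => rfl, ?_⟩
  intro p hp
  exact hw (fm p) hp ⟨p, rfl⟩

variable {n : ℕ}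

/-- A filling with a separating system of groups is killed. -/
theorem arr_zero {a q s N : ℕ} {l' : Fin N → ℕ} (hq : 2 ≤ q)
    (ε : Fin (q * a + s) ≃ Gp a q s) (E : Equiv.Perm (Fin a × Fin (q * a + s)))
    (hE : ∀ i j, (E (i, j)).1 = Sum.elim Prod.fst (fun _ => i) (ε j))
    (l : (Fin a → Fin (q * a + s) → (Fin n → ℂ)) →₀ ℂ)
    (h0 : arrMap a (q * a + s) E (Fin n → ℂ) (elOf l) = 0)
    (e : Box l' → Fin a) (fm : Box l' → Gp a q s)
    (hcard : ∀ f, (univ.filter (fun p => fm p = f)).card = a)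
    (hcol0 : ∀ t, Function.Injective (fun u => e ⟨t, u⟩))
    (hn : ∀ p i k, fm p = Sum.inl (i, k) → e p = i)
    (h1 : ∀ i j, i < j → ∀ k : Fin q, (k : ℕ) + 1 < q →
      ∃ t u v, fm ⟨t, u⟩ = Sum.inl (i, k) ∧ fm ⟨t, v⟩ = Sum.inl (j, k))
    (h2 : ∀ i j, i < j → ∀ k k' : Fin q, (k' : ℕ) = k + 1 →
      ∃ t u v, fm ⟨t, u⟩ = Sum.inl (i, k) ∧ fm ⟨t, v⟩ = Sum.inl (j, k'))
    (h3 : ∀ k x, ∃ t u v, fm ⟨t, u⟩ = Sum.inr k ∧ fm ⟨t, v⟩ = Sum.inl x)
    (h4 : ∀ k k', k ≠ k' → ∃ t u v, fm ⟨t, u⟩ = Sum.inr k ∧ fm ⟨t, v⟩ = Sum.inr k')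
    (A : Fin s → Fin a → ℕ) (hA : ∀ k, StrictMono (A k)) (col : ℕ → Fin N)
    (hcol : ∀ k i k' i', col (A k i) = col (A k' i') → A k i = A k' i')
    (h5 : ∀ k i i', ∃ u, e ⟨col (A k i), u⟩ = i')
    (h6 : ∀ k i u, e ⟨col (A k i), u⟩ = i → fm ⟨col (A k i), u⟩ = Sum.inr k)
    (h7 : ∀ p k, fm p = Sum.inr k → p.1 = col (A k (e p))) :
    VV (fullForm l) l' e = 0 := by
  classical
  obtain ⟨β, hβ1, hβ2⟩ := exists_place fm e hcard (fun f => ∃ k, f = Sum.inr k) (by
    rintro ⟨t, u⟩ ⟨t', u'⟩ hp ⟨k, hk⟩ he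
    have h8 := h7 _ k hk
    have h9 := h7 _ k (hp.symm.trans hk)
    simp only at h8 h9
    rw [← he] at h9
    have h10 : t = t' := h8.trans h9.symm
    subst h10
    rw [hcol0 t he])
  have hPM := VV_rel E l h0 (β.trans (Equiv.prodCongr ε.symm (Equiv.refl (Fin a))))
  set β' : Box l' ≃ Fin (q * a + s) × Fin a :=
    β.trans (Equiv.prodCongr ε.symm (Equiv.refl (Fin a))) with hβ'
  have hb1 : ∀ p, ε (β' p).1 = fm p := by
    intro p
    rw [← hβ1]
    exact Equiv.apply_symm_apply ε _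
  have hb2 : ∀ p k, fm p = Sum.inr k → (β' p).2 = e p := by
    intro p k hk
    exact hβ2 p ⟨k, hk⟩
  have hmain : ∀ g : Rg a (q * a + s), VV (fullForm l) l' (fun p => (slot E g (β' p)).1) =
      if (∃ τ : Equiv.Perm (Fin a), ∀ p, (slot E g (β' p)).1 = τ (e p)) then
        VV (fullForm l) l' e else 0 := by
    intro g
    by_cases hτ : ∃ τ : Equiv.Perm (Fin a), ∀ p, (slot E g (β' p)).1 = τ (e p)
    · rw [if_pos hτ]
      obtain ⟨τ, hτ⟩ := hτ
      simp only [hτ]
      exact VV_symm (fullForm_symm l) τ e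
    · rw [if_neg hτ]
      by_contra hne
      apply hτ
      apply core hq ε E hE e fm β' hb1 hb2 hn h1 h2 h3 h4 A hA col hcol h5 h6 h7 g
      intro t u v huv heq
      exact hne (VV_anti _ _ t huv heq)
  rw [Finset.sum_congr rfl (fun g _ => hmain g), ← Finset.sum_filter, Finset.sum_const,
    nsmul_eq_mul] at hPM
  refine (mul_eq_zero.1 hPM).resolve_left ?_
  intro h00
  rw [Nat.cast_eq_zero, Finset.card_eq_zero] at h00
  have h8 : ((1, fun _ => 1) : Rg a (q * a + s)) ∈ (∅ : Finset (Rg a (q * a + s))) := by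
    rw [← h00]
    refine Finset.mem_filter.2 ⟨Finset.mem_univ _, 1, fun p => ?_⟩
    have h9 : (slot E (1, fun _ => 1) (β' p)).1 = (E ((β' p).2, (β' p).1)).1 := rfl
    rw [h9, hE, hb1]
    rcases hf : fm p with x | k
    · exact (hn p x.1 x.2 hf).symm
    · exact hb2 p k hf
  exact absurd h8 (Finset.notMem_empty _)

end Vale.Agent.P181.H530
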