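import Vale.Agent.P181.H530.F1

set_option autoImplicit false

namespace Vale.Agent.P181.H530

open Vale.Agent.P181 Vale.Agent.P181.H280

variable {n : ℕ}

/-- One equivariant map for all the weights of the bulk. -/
theorem bulk_all {a q s θ : ℕ} (hq : 2 ≤ q) (hs : 1 ≤ s) (hsa : s < a) (han : a ≤ n)
    (hb1 : 2 * (a * (a - 1) * (q - 1)) * (q ^ 2 - 1) ^ θ < q ^ (2 * θ))
    (hb2 : 2 * (a * q * s) * (q - 1) ^ (a - min s ((a + 1) / 2)) <
      q ^ (a - min s ((a + 1) / 2))) :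
    ∃ Ψ : Pleth a (q * a + s) n →ₗ[ℂ] Pleth (q * a + s) a n, IsEquivariant Ψ ∧
      ∀ lam : Fin n → ℕ, (∀ i, lam i + θ ≤ 2 * (q * a)) →
        (∀ i : Fin n, (i : ℕ) < a → a + s + (s - (a + 1) / 2) ≤ lam i + 1) →
        InjOnHW Ψ lam ∧ plethMult a (q * a + s) n lam ≤ plethMult (q * a + s) a n lam := by
  obtain ⟨ε, E, hE⟩ := exists_bulk_arr a q s
  have hinj : ∀ lam : Fin n → ℕ, (∀ i, lam i + θ ≤ 2 * (q * a)) →
      (∀ i : Fin n, (i : ℕ) < a → a + s + (s - (a + 1) / 2) ≤ lam i + 1) →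
      ∀ x ∈ hwSpace lam (plethAct a (q * a + s) n),
        arrMap a (q * a + s) E (Fin n → ℂ) x = 0 → x = 0 :=
    fun lam hlam htall x hx h0 =>
      arrMap_bulk hq hs hsa ε E hE hb1 hb2 han lam hlam htall x hx h0
  refine ⟨arrMap a (q * a + s) E (Fin n → ℂ),
    fun g x => LinearMap.congr_fun (arrMap_equivariant a (q * a + s) E (Matrix.toLin' g)) x,
    fun lam hlam htall => ⟨fun x hx h0 => hinj lam hlam htall x hx h0, ?_⟩⟩
  exact finrank_le_of_inj (arrMap a (q * a + s) E (Fin n → ℂ)) _ _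
    (fun x hx => arrMap_hwSpace E lam x hx) (hinj lam hlam htall)

end Vale.Agent.P181.H530
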