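import Mathlib.Data.Fin.Tuple.Sort
import Mathlib.Tactic

/-!
P181: the choice of the sets of long columns and of the classes of the special groups.
-/

set_option autoImplicit false

namespace Vale.Agent.P181.H530

open Finset

/-- The longest columns in `G` sets of `ℓ` columns. -/
theorem choice {N G ℓ a d : ℕ} (l : Fin N → ℕ)
    (h : G * ℓ ≤ (univ.filter (fun t => a ≤ l t + d)).card) :
    ∃ L : Fin G → Finset (Fin N), (∀ g, (L g).card = ℓ) ∧
      (∀ g h, g ≠ h → Disjoint (L g) (L h)) ∧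
      (∀ g, ∀ t1 ∈ L g, ∀ t, (∀ h, t ∉ L h) → l t ≤ l t1) ∧
      ∀ g, ∀ t ∈ L g, a ≤ l t + d := by
  classical
  have hN : G * ℓ ≤ N := by
    refine h.trans ((Finset.card_le_univ _).trans ?_)
    rw [Fintype.card_fin]
  -- decreasing order
  obtain ⟨σ, hσ⟩ : ∃ σ : Equiv.Perm (Fin N), ∀ i j : Fin N, i ≤ j → l (σ j) ≤ l (σ i) := by
    refine ⟨(Fin.revPerm).trans (Tuple.sort l), fun i j hij => ?_⟩
    have h1 := Tuple.monotone_sort l
    have h2 : Fin.rev j ≤ Fin.rev i := Fin.rev_le_rev.2 hij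
    exact h1 h2
  have hidx : ∀ (g : Fin G) (m : Fin ℓ), (g : ℕ) * ℓ + m < N := by
    intro g m
    have h1 : ((g : ℕ) + 1) * ℓ ≤ G * ℓ := Nat.mul_le_mul_right _ g.2
    have h2 : ((g : ℕ) + 1) * ℓ = g * ℓ + ℓ := by ring
    have h3 := m.2
    omega
  obtain ⟨c, hc⟩ : ∃ c : Fin G → Fin ℓ → Fin N, ∀ g m, c g m = σ ⟨g * ℓ + m, hidx g m⟩ :=
    ⟨_, fun _ _ => rfl⟩
  have hcinj : ∀ g m g' m', c g m = c g' m' → g = g' ∧ m = m' := by
    intro g m g' m' h1
    rw [hc, hc] at h1
    have h2 := congrArg Fin.val (σ.injective h1)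
    simp only at h2
    have h3 : (g : ℕ) = g' := by
      rcases lt_trichotomy (g : ℕ) g' with h4 | h4 | h4
      · have h5 : ((g : ℕ) + 1) * ℓ ≤ g' * ℓ := Nat.mul_le_mul_right _ h4
        have h6 : ((g : ℕ) + 1) * ℓ = g * ℓ + ℓ := by ring
        have h7 := m.2
        omega
      · exact h4
      · have h5 : ((g' : ℕ) + 1) * ℓ ≤ g * ℓ := Nat.mul_le_mul_right _ h4
        have h6 : ((g' : ℕ) + 1) * ℓ = g' * ℓ + ℓ := by ring
        have h7 := m'.2
        omega
    rw [h3] at h2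
    exact ⟨Fin.ext h3, Fin.ext (by omega)⟩
  have hmem : ∀ g t, t ∈ univ.image (c g) ↔ ∃ m, c g m = t := by
    intro g t
    simp only [Finset.mem_image, Finset.mem_univ, true_and]
  have hlow : ∀ i : Fin N, (i : ℕ) < G * ℓ → ∃ g, ∃ m, c g m = σ i := by
    intro i hi
    have hl : 0 < ℓ := by
      rcases Nat.eq_zero_or_pos ℓ with h1 | h1
      · rw [h1] at hi
        omega
      · exact h1
    have h1 : (i : ℕ) / ℓ < G := by
      rw [Nat.div_lt_iff_lt_mul hl]
      exact hi
    refine ⟨⟨i / ℓ, h1⟩, ⟨i % ℓ, Nat.mod_lt _ hl⟩, ?_⟩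
    rw [hc]
    congr 1
    apply Fin.ext
    simp only
    exact Nat.div_add_mod' _ _
  have hout : ∀ t, (∀ g, t ∉ univ.image (c g)) → G * ℓ ≤ ((σ.symm t : Fin N) : ℕ) := by
    intro t ht
    by_contra hlt
    push Not at hlt
    obtain ⟨g, m, hm⟩ := hlow (σ.symm t) hlt
    rw [Equiv.apply_symm_apply] at hm
    exact ht g ((hmem g t).2 ⟨m, hm⟩)
  have hsub : ∀ g t1, t1 ∈ univ.image (c g) → ∀ t, (∀ g, t ∉ univ.image (c g)) →
      l t ≤ l t1 := by
    intro g t1 ht1 t ht
    obtain ⟨m, rfl⟩ := (hmem g t1).1 ht1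
    have h1 := hout t ht
    have h2 : (g : ℕ) * ℓ + m < G * ℓ := by
      have h3 : ((g : ℕ) + 1) * ℓ ≤ G * ℓ := Nat.mul_le_mul_right _ g.2
      have h4 : ((g : ℕ) + 1) * ℓ = g * ℓ + ℓ := by ring
      have h5 := m.2
      omega
    have h3 := hσ ⟨g * ℓ + m, hidx g m⟩ (σ.symm t) (by
      rw [Fin.le_def]
      simp only
      omega)
    rw [Equiv.apply_symm_apply] at h3
    rw [hc]
    exact h3
  refine ⟨fun g => univ.image (c g), ?_, ?_, hsub, ?_⟩
  · intro g
    rw [Finset.card_image_of_injective _ (fun m m' h1 => (hcinj g m g m' h1).2),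
      Finset.card_univ, Fintype.card_fin]
  · intro g g' hne
    rw [Finset.disjoint_left]
    intro t ht ht'
    obtain ⟨m, hm⟩ := (hmem g t).1 ht
    obtain ⟨m', hm'⟩ := (hmem g' t).1 ht'
    exact hne (hcinj g m g' m' (hm.trans hm'.symm)).1
  · intro g t1 ht1
    by_contra hno
    have h1 : univ.filter (fun t => a ≤ l t + d) ⊆
        (univ.filter (fun i : Fin N => (i : ℕ) < G * ℓ)).image σ \ {t1} := by
      intro t ht
      have ht2 := (Finset.mem_filter.1 ht).2
      rw [Finset.mem_sdiff, Finset.mem_singleton, Finset.mem_image]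
      refine ⟨⟨σ.symm t, ?_, Equiv.apply_symm_apply _ _⟩, ?_⟩
      · rw [Finset.mem_filter]
        refine ⟨Finset.mem_univ _, ?_⟩
        by_contra hge
        push Not at hge
        have h2 : ∀ g, t ∉ univ.image (c g) := by
          intro g' ht'
          obtain ⟨m, hm⟩ := (hmem g' t).1 ht'
          rw [← hm, hc, Equiv.symm_apply_apply] at hge
          simp only at hge
          have h3 : ((g' : ℕ) + 1) * ℓ ≤ G * ℓ := Nat.mul_le_mul_right _ g'.2
          have h4 : ((g' : ℕ) + 1) * ℓ = g' * ℓ + ℓ := by ring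
          have h5 := m.2
          omega
        have h3 := hsub g t1 ht1 t h2
        omega
      · rintro rfl
        exact hno ht2
    have h2 := Finset.card_le_card h1
    have h3 : ((univ.filter (fun i : Fin N => (i : ℕ) < G * ℓ)).image σ).card = G * ℓ := by
      rw [Finset.card_image_of_injective _ σ.injective, Fin.card_filter_val_lt]
      omega
    have h4 : t1 ∈ (univ.filter (fun i : Fin N => (i : ℕ) < G * ℓ)).image σ := by
      obtain ⟨m, hm⟩ := (hmem g t1).1 ht1
      rw [Finset.mem_image]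
      refine ⟨⟨g * ℓ + m, hidx g m⟩, ?_, by rw [← hc]; exact hm⟩
      rw [Finset.mem_filter]
      refine ⟨Finset.mem_univ _, ?_⟩
      simp only
      have h3 : ((g : ℕ) + 1) * ℓ ≤ G * ℓ := Nat.mul_le_mul_right _ g.2
      have h4 : ((g : ℕ) + 1) * ℓ = g * ℓ + ℓ := by ring
      have h5 := m.2
      omega
    have h5 := Finset.card_pos.2 ⟨t1, h4⟩
    rw [Finset.card_sdiff_of_subset (Finset.singleton_subset_iff.2 h4), Finset.card_singleton,
      h3] at h2
    omega

/-- Classes of bounded size. -/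
theorem classes {u G r : ℕ} (h : u ≤ G * r) :
    ∃ gr : Fin u → Fin G, ∀ g, (univ.filter (fun k => gr k = g)).card ≤ r := by
  classical
  have hr : ∀ k : Fin u, 0 < r := by
    intro k
    rcases Nat.eq_zero_or_pos r with h1 | h1
    · rw [h1] at h
      have := k.2
      omega
    · exact h1
  refine ⟨fun k => ⟨(k : ℕ) / r, ?_⟩, fun g => ?_⟩
  · rw [Nat.div_lt_iff_lt_mul (hr k)]
    exact lt_of_lt_of_le k.2 h
  · have h1 : (univ.filter (fun k : Fin u => (⟨(k : ℕ) / r, by
        rw [Nat.div_lt_iff_lt_mul (hr k)]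
        exact lt_of_lt_of_le k.2 h⟩ : Fin G) = g)).card ≤ (Finset.range r).card := by
      apply Finset.card_le_card_of_injOn (fun k : Fin u => (k : ℕ) % r)
      · intro k _
        exact Finset.mem_coe.2 (Finset.mem_range.2 (Nat.mod_lt _ (hr k)))
      · intro k hk k' hk' h2
        have h3 := congrArg Fin.val (Finset.mem_filter.1 (Finset.mem_coe.1 hk)).2
        have h4 := congrArg Fin.val (Finset.mem_filter.1 (Finset.mem_coe.1 hk')).2
        simp only at h2 h3 h4
        apply Fin.ext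
        rw [← Nat.div_add_mod (k : ℕ) r, ← Nat.div_add_mod (k' : ℕ) r, h2, h3, h4]
    rwa [Finset.card_range] at h1

end Vale.Agent.P181.H530
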