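import Vale.Agent.P181.BK.Spec
import Vale.Agent.P181.H354.RowG

/-!
P181: the relation of the array map with classes of special groups.
-/

set_option autoImplicit false

open scoped TensorProduct

namespace Vale.Agent.P181.H530

open Vale.Agent.P181 Vale.Agent.P181.H280 Vale.Agent.P181.H179 Vale.Agent.P181.BK Finset

theorem rowGc {n a q u N Q G : ℕ} {l' : Fin N → ℕ} (hGq : G < q)
    (ε : Fin (q * a + u) ≃ Gp a q u) (E : Equiv.Perm (Fin a × Fin (q * a + u)))
    (hE : ∀ i j, (E (i, j)).1 = Sum.elim Prod.fst (fun _ => i) (ε j))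
    (l : (Fin a → Fin (q * a + u) → (Fin n → ℂ)) →₀ ℂ)
    (h0 : arrMap a (q * a + u) E (Fin n → ℂ) (elOf l) = 0)
    (e : Box l' → Fin a) (fm : Box l' → (Fin a × Fin Q) ⊕ Fin u) (ty : Fin Q → Bool)
    (c gz : Bool → ℕ) (hc : ∃ z, 1 ≤ c z)
    (hsz : ∀ i κ, (univ.filter (fun p => fm p = Sum.inl (i, κ))).card = gz (ty κ))
    (hsp : ∀ j, (univ.filter (fun p => fm p = Sum.inr j)).card = a)
    (hinj : ∀ p p' j, fm p = Sum.inr j → fm p' = Sum.inr j → e p = e p' → p = p')
    (ha : a = c true * gz true + c false * gz false)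
    (hmeet : ∀ (k : Fin u) (x : Fin a × Fin Q), ∃ t v w, fm ⟨t, v⟩ = Sum.inr k ∧
      fm ⟨t, w⟩ = Sum.inl x) (cl : Fin u → Fin G)
    (hmeet2 : ∀ k k' : Fin u, k ≠ k' → cl k = cl k' → ∃ t v w, fm ⟨t, v⟩ = Sum.inr k ∧
      fm ⟨t, w⟩ = Sum.inr k') (ρ : Fin a × Fin Q → Fin a × Fin q)
    (hρ : ∀ r z, (univ.filter (fun p => ρ p = r ∧ ty p.2 = z)).card = c z) :
    ∑ σ : Equiv.Perm (Fin a × Fin q), ∑ τ : Fin u → Equiv.Perm (Fin a), VV (fullForm l) l'
      (fun p => Sum.elim (fun x => (σ (ρ x)).1) (fun j => τ j (e p)) (fm p)) = 0 := by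
  classical
  -- the groups of the boxes
  obtain ⟨fm', hfm'⟩ : ∃ fm' : Box l' → Gp a q u, ∀ p, fm' p = Sum.map ρ id (fm p) :=
    ⟨_, fun _ => rfl⟩
  have hl : ∀ p x, fm p = Sum.inl x → fm' p = Sum.inl (ρ x) := by
    intro p x hp
    rw [hfm', hp]
    rfl
  have hr : ∀ p k, fm p = Sum.inr k → fm' p = Sum.inr k := by
    intro p k hp
    rw [hfm', hp]
    rfl
  have hr' : ∀ p k, fm' p = Sum.inr k → fm p = Sum.inr k := by
    intro p k hp
    rcases hf : fm p with x | j
    · rw [hl p x hf] at hp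
      exact absurd hp Sum.inl_ne_inr
    · rw [hr p j hf] at hp
      rw [Sum.inr_injective hp]
  have hcard : ∀ f, (univ.filter (fun p => fm' p = f)).card = a := by
    rintro (r | k)
    · have h1 : (univ.filter (fun p => fm' p = Sum.inl r)) =
          (univ.filter (fun x : Fin a × Fin Q => ρ x = r)).biUnion
            (fun x => univ.filter (fun p => fm p = Sum.inl x)) := by
        ext p
        simp only [mem_filter, mem_univ, true_and, mem_biUnion]
        constructor
        · intro hp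
          rcases hf : fm p with x | j
          · refine ⟨x, ?_, rfl⟩
            rw [hl p x hf] at hp
            exact Sum.inl_injective hp
          · rw [hr p j hf] at hp
            exact absurd hp.symm Sum.inl_ne_inr
        · rintro ⟨x, hx, hf⟩
          rw [hl p x hf, hx]
      rw [h1, Finset.card_biUnion]
      · have h2 : ∀ x ∈ univ.filter (fun x : Fin a × Fin Q => ρ x = r),
            (univ.filter (fun p => fm p = Sum.inl x)).card = gz (ty x.2) :=
          fun x _ => hsz x.1 x.2
        rw [Finset.sum_congr rfl h2]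
        have h3 : ∀ z, ∑ x ∈ univ.filter (fun x : Fin a × Fin Q => ρ x = r ∧ ty x.2 = z),
            gz (ty x.2) = c z * gz z := by
          intro z
          rw [← hρ r z, ← smul_eq_mul, ← Finset.sum_const]
          apply Finset.sum_congr rfl
          intro x hx
          rw [mem_filter] at hx
          rw [hx.2.2]
        have h4 : univ.filter (fun x : Fin a × Fin Q => ρ x = r) =
            univ.filter (fun x : Fin a × Fin Q => ρ x = r ∧ ty x.2 = true) ∪
              univ.filter (fun x : Fin a × Fin Q => ρ x = r ∧ ty x.2 = false) := by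
          ext x
          simp only [mem_union, mem_filter, mem_univ, true_and]
          cases ty x.2 <;> simp
        rw [h4, Finset.sum_union, h3, h3]
        · exact ha.symm
        · rw [Finset.disjoint_left]
          intro x hx hx'
          rw [mem_filter] at hx hx'
          rw [hx.2.2] at hx'
          exact Bool.noConfusion hx'.2.2
      · intro x _ y _ hxy
        rw [Function.onFun, Finset.disjoint_left]
        intro p hp hp'
        rw [mem_filter] at hp hp'
        rw [hp.2] at hp'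
        exact hxy (Sum.inl_injective hp'.2)
    · refine Eq.trans ?_ (hsp k)
      congr 1
      ext p
      simp only [mem_filter, mem_univ, true_and]
      exact ⟨hr' p k, hr p k⟩
  obtain ⟨β, hβ1, hβ2⟩ := exists_place fm' e hcard (fun f => ∃ k, f = Sum.inr k) (by
    rintro p p' hp ⟨k, hk⟩ he
    exact hinj p p' k (hr' p k hk) (hr' p' k (hp.symm.trans hk)) he)
  have hPM := VV_rel E l h0 (β.trans (Equiv.prodCongr ε.symm (Equiv.refl (Fin a))))
  -- the values
  obtain ⟨val, hval⟩ : ∃ val : Equiv.Perm (Gp a q u) × (Gp a q u → Equiv.Perm (Fin a)) → ℂ,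
      ∀ x, val x = VV (fullForm l) l'
        (fun p => Sum.elim Prod.fst (fun _ => x.2 (fm' p) (β p).2) (x.1 (fm' p))) :=
    ⟨_, fun _ => rfl⟩
  have hsum : ∑ x, val x = 0 := by
    rw [← hPM]
    symm
    apply Fintype.sum_equiv (Equiv.prodCongr ε.permCongr (Equiv.arrowCongr ε (Equiv.refl _)))
    intro g
    rw [hval]
    congr 1
    funext p
    have h1 : (slot E g ((β.trans (Equiv.prodCongr ε.symm (Equiv.refl (Fin a)))) p)).1 =
        (E (g.2 (ε.symm (β p).1) (β p).2, g.1 (ε.symm (β p).1))).1 := rfl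
    rw [h1, hE, hβ1]
    rfl
  rw [Fintype.sum_prod_type] at hsum
  -- no special group is placed in a row as a whole
  have hvan : ∀ (π : Equiv.Perm (Gp a q u)) (k : Fin u) (y : Fin a × Fin q)
      (G : Gp a q u → Equiv.Perm (Fin a)), π (Sum.inr k) = Sum.inl y → val (π, G) = 0 := by
    intro π k y G hk
    obtain ⟨i, j⟩ := y
    have h8 : ∀ j', π (π.symm (Sum.inl (i, j'))) = Sum.inl (i, j') :=
      fun j' => Equiv.apply_symm_apply _ _
    obtain ⟨f1, f2, hf12, hf1, hf2, t, v, w, hv, hw⟩ : ∃ f1 f2 : Gp a q u, f1 ≠ f2 ∧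
        (∃ j', π f1 = Sum.inl (i, j')) ∧ (∃ j', π f2 = Sum.inl (i, j')) ∧
        ∃ t v w, fm' ⟨t, v⟩ = f1 ∧ fm' ⟨t, w⟩ = f2 := by
      by_cases hall : ∀ j', ∃ k', π.symm (Sum.inl (i, j')) = Sum.inr k'
      · choose kk hkk using hall
        obtain ⟨j1, j2, hne, hcl⟩ := Fintype.exists_ne_map_eq_of_card_lt (fun j' => cl (kk j'))
          (by rwa [Fintype.card_fin, Fintype.card_fin])
        have hk12 : kk j1 ≠ kk j2 := by
          intro h
          have h1 : π.symm (Sum.inl (i, j1)) = π.symm (Sum.inl (i, j2)) := by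
            rw [hkk, hkk, h]
          have h2 := Sum.inl_injective (π.symm.injective h1)
          exact hne (congrArg Prod.snd h2)
        obtain ⟨t, v, w, hv, hw⟩ := hmeet2 _ _ hk12 hcl
        refine ⟨Sum.inr (kk j1), Sum.inr (kk j2), fun h => hk12 (Sum.inr_injective h),
          ⟨j1, ?_⟩, ⟨j2, ?_⟩, t, v, w, hr _ _ hv, hr _ _ hw⟩
        · rw [← hkk j1]
          exact h8 j1
        · rw [← hkk j2]
          exact h8 j2
      · push Not at hall
        obtain ⟨j', hj'⟩ := hall
        rcases hf : π.symm (Sum.inl (i, j')) with r | k'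
        · obtain ⟨z, hz⟩ := hc
          rw [← hρ r z] at hz
          obtain ⟨x, hx⟩ := Finset.card_pos.1 (Nat.lt_of_lt_of_le Nat.zero_lt_one hz)
          rw [mem_filter] at hx
          obtain ⟨t, v, w, hv, hw⟩ := hmeet k x
          refine ⟨Sum.inr k, Sum.inl r, fun h => Sum.inl_ne_inr h.symm, ⟨j, hk⟩, ⟨j', ?_⟩,
            t, v, w, hr _ _ hv, by rw [hl _ _ hw, hx.2.1]⟩
          rw [← hf]
          exact h8 j'
        · exact absurd hf (hj' k')
    have hvw : v ≠ w := by
      rintro rfl
      exact hf12 (hv.symm.trans hw)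
    obtain ⟨j1, hj1⟩ := hf1
    obtain ⟨j2, hj2⟩ := hf2
    rw [hval]
    apply VV_anti _ _ t hvw
    simp only [hv, hw, hj1, hj2, Sum.elim_inl]
  -- the placements of the normal groups and of the special groups
  have hsum2 : ∑ x : Equiv.Perm (Fin a × Fin q) × Equiv.Perm (Fin u),
      ∑ G : Gp a q u → Equiv.Perm (Fin a), val (Equiv.Perm.sumCongr x.1 x.2, G) = 0 := by
    rw [← hsum]
    apply Fintype.sum_of_injective (fun x : Equiv.Perm (Fin a × Fin q) × Equiv.Perm (Fin u) =>
      Equiv.Perm.sumCongr x.1 x.2)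
    · exact Equiv.Perm.sumCongrHom_injective
    · intro π hπ
      apply Finset.sum_eq_zero
      intro G _
      by_contra hne
      apply hπ
      have h1 : Set.MapsTo π (Set.range Sum.inl) (Set.range Sum.inl) := by
        rintro _ ⟨x, rfl⟩
        rcases hx : π (Sum.inl x) with y | k
        · exact ⟨y, rfl⟩
        · obtain ⟨k', y, hy⟩ := RG.exists_cross π x k hx
          exact absurd (hvan π k' y G hy) hne
      obtain ⟨x, hx⟩ := Equiv.Perm.mem_sumCongrHom_range_of_perm_mapsTo_inl h1
      exact ⟨x, hx⟩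
    · intro x
      rfl
  have hval2 : ∀ (x : Equiv.Perm (Fin a × Fin q) × Equiv.Perm (Fin u))
      (G : Gp a q u → Equiv.Perm (Fin a)), val (Equiv.Perm.sumCongr x.1 x.2, G) =
      VV (fullForm l) l' (fun p => Sum.elim (fun y => (x.1 (ρ y)).1)
        (fun j => (fun j => G (Sum.inr j)) j (e p)) (fm p)) := by
    intro x G
    rw [hval]
    congr 1
    funext p
    rcases hf : fm p with y | j
    · rw [hl p y hf]
      rfl
    · have h1 := hr p j hf
      have h2 := hβ2 p ⟨j, h1⟩
      rw [h1, h2]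
      rfl
  have hsum3 : (Fintype.card (Equiv.Perm (Fin u)) : ℂ) *
      ((Fintype.card (Fin a × Fin q → Equiv.Perm (Fin a)) : ℂ) *
      ∑ σ : Equiv.Perm (Fin a × Fin q), ∑ τ : Fin u → Equiv.Perm (Fin a), VV (fullForm l) l'
        (fun p => Sum.elim (fun x => (σ (ρ x)).1) (fun j => τ j (e p)) (fm p))) = 0 := by
    rw [← hsum2, Fintype.sum_prod_type, Finset.mul_sum, Finset.mul_sum]
    apply Finset.sum_congr rfl
    intro σ _
    have h1 : ∀ θ : Equiv.Perm (Fin u), ∑ G : Gp a q u → Equiv.Perm (Fin a),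
        val (Equiv.Perm.sumCongr σ θ, G) =
        (Fintype.card (Fin a × Fin q → Equiv.Perm (Fin a)) : ℂ) *
          ∑ τ : Fin u → Equiv.Perm (Fin a), VV (fullForm l) l'
            (fun p => Sum.elim (fun x => (σ (ρ x)).1) (fun j => τ j (e p)) (fm p)) := by
      intro θ
      rw [← RG.sum_right (fun τ : Fin u → Equiv.Perm (Fin a) => VV (fullForm l) l'
            (fun p => Sum.elim (fun x => (σ (ρ x)).1) (fun j => τ j (e p)) (fm p)))]
      apply Finset.sum_congr rfl
      intro G _
      exact hval2 (σ, θ) G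
    rw [Finset.sum_congr rfl (fun θ _ => h1 θ), Finset.sum_const, Finset.card_univ, nsmul_eq_mul]
  have h1 : (Fintype.card (Equiv.Perm (Fin u)) : ℂ) ≠ 0 := by
    rw [Nat.cast_ne_zero]
    exact Fintype.card_ne_zero
  have h2 : (Fintype.card (Fin a × Fin q → Equiv.Perm (Fin a)) : ℂ) ≠ 0 := by
    rw [Nat.cast_ne_zero]
    exact Fintype.card_ne_zero
  exact (mul_eq_zero.1 ((mul_eq_zero.1 hsum3).resolve_left h1)).resolve_left h2

end Vale.Agent.P181.H530
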