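import Vale.Agent.P181.LK.Spec2
import Vale.Agent.P181.H530.RowGc

/-!
P181: row GG.
-/

set_option autoImplicit false

namespace Vale.Agent.P181.H530

theorem rowGG : LK.RowGG := by
  intro n a q u G N Q l' _ hGq ε E hE l h0 e fm ty c gz hc hsz hsp hinj ha hmeet gr hmeet2 ρ hρ
  exact rowGc hGq ε E hE l h0 e fm ty c gz hc hsz hsp hinj ha hmeet gr hmeet2 ρ hρ

end Vale.Agent.P181.H530
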