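import Vale.Agent.P181.H530.LKStarCore

/-!
P181: row STAR.
-/

set_option autoImplicit false

open scoped TensorProduct

namespace Vale.Agent.P181.H530

open Vale.Agent.P181 Vale.Agent.P181.H280 Vale.Agent.P181.H179 Vale.Agent.P181.BK
  Vale.Agent.P181.LK Finset

/-- Numbers. -/
theorem numL (s q k a u A : ℕ) (hs : 1 ≤ s) (hq : 1 ≤ q) (hk : k = s * (18 * s ^ 5 * q ^ 2))
    (ha : 1400 * s ^ 12 * q ^ 4 ≤ a) (hu : u < a)
    (hA : 12500 * (s : ℝ) ^ 12 * (q : ℝ) ^ 6 * Real.log a ≤ A) :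
    (2 * k + 1) * (2 * k + 1) ≤ a ∧
      ((a + u : ℕ) : ℝ) ^ 2 * ((q * (2 * k + 1) : ℕ) : ℝ) ^ 2 *
        (1 - 1 / (2 * ((q * (2 * k + 1) : ℕ) : ℝ) ^ 2)) ^
          (A - 2 * (2 * k * (q * (2 * k + 1) + q))) < 1 := by
  have hsR : (1 : ℝ) ≤ s := by exact_mod_cast hs
  have hqR : (1 : ℝ) ≤ q := by exact_mod_cast hq
  have haR : 1400 * (s : ℝ) ^ 12 * (q : ℝ) ^ 4 ≤ a := by exact_mod_cast ha
  have hs6 : (1 : ℝ) ≤ (s : ℝ) ^ 6 := one_le_pow₀ hsR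
  have hs12 : (1 : ℝ) ≤ (s : ℝ) ^ 12 := one_le_pow₀ hsR
  have hq2 : (1 : ℝ) ≤ (q : ℝ) ^ 2 := one_le_pow₀ hqR
  have hq4 : (1 : ℝ) ≤ (q : ℝ) ^ 4 := one_le_pow₀ hqR
  have ha1400 : (1400 : ℝ) ≤ a := by
    have h1 : (1 : ℝ) * 1 ≤ (s : ℝ) ^ 12 * (q : ℝ) ^ 4 :=
      mul_le_mul hs12 hq4 (by norm_num) (by positivity)
    nlinarith
  have ha0 : (0 : ℝ) < a := by linarith
  obtain ⟨L, hL⟩ : ∃ L, L = Real.log a := ⟨_, rfl⟩
  have hL7 : 7 ≤ L := by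
    rw [hL, Real.le_log_iff_exp_le ha0]
    have h1 : Real.exp 7 = Real.exp 1 ^ 7 := by
      rw [← Real.exp_nat_mul]
      norm_num
    have h2 : Real.exp 1 ^ 7 ≤ (2.7182818286 : ℝ) ^ 7 :=
      pow_le_pow_left₀ (Real.exp_pos 1).le Real.exp_one_lt_d9.le 7
    have h3 : (2.7182818286 : ℝ) ^ 7 ≤ 1400 := by norm_num
    rw [h1]
    linarith
  have hL1 : 1 ≤ L := by linarith
  rw [← hL] at hA
  have hkR : (k : ℝ) = 18 * ((s : ℝ) ^ 6 * (q : ℝ) ^ 2) := by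
    rw [hk]
    push_cast
    ring
  have hsq : (1 : ℝ) ≤ (s : ℝ) ^ 6 * (q : ℝ) ^ 2 := one_le_mul_of_one_le_of_one_le hs6 hq2
  have hk37 : 2 * (k : ℝ) + 1 ≤ 37 * ((s : ℝ) ^ 6 * (q : ℝ) ^ 2) := by
    rw [hkR]
    linarith
  have hk0 : (0 : ℝ) ≤ k := Nat.cast_nonneg _
  have hkk : (2 * (k : ℝ) + 1) * (2 * k + 1) ≤ a := by
    refine le_trans (mul_le_mul hk37 hk37 (by positivity) (by positivity)) (le_trans ?_ haR)
    have h1 : 37 * ((s : ℝ) ^ 6 * (q : ℝ) ^ 2) * (37 * ((s : ℝ) ^ 6 * (q : ℝ) ^ 2)) =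
        1369 * ((s : ℝ) ^ 12 * (q : ℝ) ^ 4) := by ring
    have h2 : 1400 * (s : ℝ) ^ 12 * (q : ℝ) ^ 4 = 1400 * ((s : ℝ) ^ 12 * (q : ℝ) ^ 4) := by ring
    rw [h1, h2]
    have : (0 : ℝ) ≤ (s : ℝ) ^ 12 * (q : ℝ) ^ 4 := by positivity
    linarith
  refine ⟨by exact_mod_cast hkk, ?_⟩
  obtain ⟨Q, hQ⟩ : ∃ Q, Q = q * (2 * k + 1) := ⟨_, rfl⟩
  rw [← hQ]
  have hQR : (Q : ℝ) = q * (2 * k + 1) := by
    rw [hQ]
    push_cast
    ring
  have hQ1 : (1 : ℝ) ≤ Q := by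
    rw [hQR]
    exact one_le_mul_of_one_le_of_one_le hqR (by linarith)
  have hQ37 : (Q : ℝ) ≤ 37 * ((s : ℝ) ^ 6 * (q : ℝ) ^ 3) := by
    rw [hQR]
    calc (q : ℝ) * (2 * k + 1) ≤ q * (37 * ((s : ℝ) ^ 6 * (q : ℝ) ^ 2)) :=
          mul_le_mul_of_nonneg_left hk37 (by linarith)
      _ = _ := by ring
  have hQa : (Q : ℝ) ≤ a := by
    refine hQ37.trans (le_trans ?_ haR)
    have h1 : (s : ℝ) ^ 6 * (q : ℝ) ^ 3 ≤ (s : ℝ) ^ 12 * (q : ℝ) ^ 4 :=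
      mul_le_mul (pow_le_pow_right₀ hsR (by norm_num)) (pow_le_pow_right₀ hqR (by norm_num))
        (by positivity) (by positivity)
    have : (0 : ℝ) ≤ (s : ℝ) ^ 12 * (q : ℝ) ^ 4 := by positivity
    linarith
  have hZ : (1 : ℝ) ≤ (s : ℝ) ^ 12 * (q : ℝ) ^ 6 :=
    one_le_mul_of_one_le_of_one_le hs12 (one_le_pow₀ hqR)
  have hQQ : (Q : ℝ) ^ 2 ≤ 1369 * ((s : ℝ) ^ 12 * (q : ℝ) ^ 6) := by
    calc (Q : ℝ) ^ 2 ≤ (37 * ((s : ℝ) ^ 6 * (q : ℝ) ^ 3)) ^ 2 :=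
          pow_le_pow_left₀ (by linarith) hQ37 2
      _ = _ := by ring
  -- the error
  obtain ⟨E, hE⟩ : ∃ E, E = 2 * (2 * k * (Q + q)) := ⟨_, rfl⟩
  rw [← hE]
  have hER : (E : ℝ) ≤ 2736 * ((s : ℝ) ^ 12 * (q : ℝ) ^ 6) := by
    have h1 : (E : ℝ) = 4 * k * (Q + q) := by
      rw [hE]
      push_cast
      ring
    have h2 : (Q : ℝ) + q ≤ 38 * ((s : ℝ) ^ 6 * (q : ℝ) ^ 3) := by
      have h3 : (1 : ℝ) * q ≤ (s : ℝ) ^ 6 * (q : ℝ) ^ 3 :=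
        mul_le_mul hs6 (by
          calc (q : ℝ) = q ^ 1 := (pow_one _).symm
            _ ≤ _ := pow_le_pow_right₀ hqR (by norm_num)) (by linarith) (by positivity)
      linarith
    rw [h1, hkR]
    calc 4 * (18 * ((s : ℝ) ^ 6 * (q : ℝ) ^ 2)) * ((Q : ℝ) + q) ≤
        4 * (18 * ((s : ℝ) ^ 6 * (q : ℝ) ^ 2)) * (38 * ((s : ℝ) ^ 6 * (q : ℝ) ^ 3)) :=
          mul_le_mul_of_nonneg_left h2 (by positivity)
      _ = 2736 * ((s : ℝ) ^ 12 * (q : ℝ) ^ 5) := by ring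
      _ ≤ _ := by
        apply mul_le_mul_of_nonneg_left _ (by norm_num)
        exact mul_le_mul_of_nonneg_left (pow_le_pow_right₀ hqR (by norm_num)) (by positivity)
  -- the threshold
  have hAR : 12500 * ((s : ℝ) ^ 12 * (q : ℝ) ^ 6) * L ≤ A := by
    refine le_trans (le_of_eq ?_) hA
    ring
  have hZL : (s : ℝ) ^ 12 * (q : ℝ) ^ 6 ≤ (s : ℝ) ^ 12 * (q : ℝ) ^ 6 * L := by
    calc (s : ℝ) ^ 12 * (q : ℝ) ^ 6 = (s : ℝ) ^ 12 * (q : ℝ) ^ 6 * 1 := (mul_one _).symm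
      _ ≤ _ := mul_le_mul_of_nonneg_left hL1 (by positivity)
  have hZ1 : 1 ≤ (s : ℝ) ^ 12 * (q : ℝ) ^ 6 * L := hZ.trans hZL
  have hZ7 : 7 * ((s : ℝ) ^ 12 * (q : ℝ) ^ 6) ≤ (s : ℝ) ^ 12 * (q : ℝ) ^ 6 * L := by
    rw [mul_comm]
    exact mul_le_mul_of_nonneg_left hL7 (by positivity)
  have hEA : (E : ℝ) ≤ A := by linarith
  have hEA' : E ≤ A := by exact_mod_cast hEA
  have hgap : 17 / 2 * (Q : ℝ) ^ 2 * L < ((A - E : ℕ) : ℝ) := by
    rw [Nat.cast_sub hEA']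
    have h1 : 17 / 2 * (Q : ℝ) ^ 2 * L ≤ 17 / 2 * (1369 * ((s : ℝ) ^ 12 * (q : ℝ) ^ 6)) * L :=
      mul_le_mul_of_nonneg_right (by linarith) (by linarith)
    linarith
  have hQ2 : 0 < 2 * (Q : ℝ) ^ 2 := by positivity
  have hx1 : 1 - 1 / (2 * (Q : ℝ) ^ 2) ≤ Real.exp (-(1 / (2 * (Q : ℝ) ^ 2))) := by
    have := Real.add_one_le_exp (-(1 / (2 * (Q : ℝ) ^ 2)))
    linarith
  have hx0 : 0 ≤ 1 - 1 / (2 * (Q : ℝ) ^ 2) := by
    have h1 : 1 / (2 * (Q : ℝ) ^ 2) ≤ 1 := by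
      rw [div_le_one hQ2]
      have : (1 : ℝ) ≤ (Q : ℝ) ^ 2 := one_le_pow₀ hQ1
      linarith
    linarith
  have h1 : (1 - 1 / (2 * (Q : ℝ) ^ 2)) ^ (A - E) ≤
      Real.exp (-(((A - E : ℕ) : ℝ) / (2 * (Q : ℝ) ^ 2))) := by
    calc (1 - 1 / (2 * (Q : ℝ) ^ 2)) ^ (A - E) ≤
          Real.exp (-(1 / (2 * (Q : ℝ) ^ 2))) ^ (A - E) := pow_le_pow_left₀ hx0 hx1 _
      _ = _ := by
          rw [← Real.exp_nat_mul]
          congr 1
          ring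
  have h2 : Real.exp (-(((A - E : ℕ) : ℝ) / (2 * (Q : ℝ) ^ 2))) < Real.exp (-(17 / 4 * L)) := by
    rw [Real.exp_lt_exp, neg_lt_neg_iff, lt_div_iff₀ hQ2]
    linarith
  have h3 : ((a + u : ℕ) : ℝ) ^ 2 * (Q : ℝ) ^ 2 ≤ Real.exp (17 / 4 * L) := by
    have h7 : Real.exp (4 * L) = (a : ℝ) ^ 4 := by
      rw [hL, mul_comm, Real.exp_mul, Real.exp_log ha0]
      norm_cast
    have h8 : (4 : ℝ) ≤ Real.exp (1 / 4 * L) := by
      have h9 : Real.exp (7 / 4) ≤ Real.exp (1 / 4 * L) := Real.exp_le_exp.2 (by linarith)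
      refine le_trans ?_ h9
      have h10 : Real.exp (7 / 4) = Real.exp 1 * Real.exp (3 / 4) := by
        rw [← Real.exp_add]
        norm_num
      have h11 := Real.add_one_le_exp (3 / 4 : ℝ)
      have h12 := Real.exp_one_gt_d9
      rw [h10]
      nlinarith
    have h13 : Real.exp (17 / 4 * L) = Real.exp (4 * L) * Real.exp (1 / 4 * L) := by
      rw [← Real.exp_add]
      congr 1
      ring
    have h14 : ((a + u : ℕ) : ℝ) ≤ 2 * a := by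
      have h15 : a + u ≤ 2 * a := by omega
      exact_mod_cast h15
    rw [h13, h7]
    calc ((a + u : ℕ) : ℝ) ^ 2 * (Q : ℝ) ^ 2 ≤ (2 * (a : ℝ)) ^ 2 * (a : ℝ) ^ 2 :=
          mul_le_mul (pow_le_pow_left₀ (by positivity) h14 2)
            (pow_le_pow_left₀ (by linarith) hQa 2) (by positivity) (by positivity)
      _ = (a : ℝ) ^ 4 * 4 := by ring
      _ ≤ _ := mul_le_mul_of_nonneg_left h8 (by positivity)
  calc ((a + u : ℕ) : ℝ) ^ 2 * (Q : ℝ) ^ 2 * (1 - 1 / (2 * (Q : ℝ) ^ 2)) ^ (A - E) ≤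
        Real.exp (17 / 4 * L) * (1 - 1 / (2 * (Q : ℝ) ^ 2)) ^ (A - E) :=
          mul_le_mul_of_nonneg_right h3 (pow_nonneg hx0 _)
    _ < Real.exp (17 / 4 * L) * Real.exp (-(17 / 4 * L)) :=
          mul_lt_mul_of_pos_left (lt_of_le_of_lt h1 h2) (Real.exp_pos _)
    _ = 1 := by rw [← Real.exp_add, add_neg_cancel, Real.exp_zero]

/-- Row STAR. -/
theorem rowSTAR (hGG : RowGG) (hCLS : GP.RowCLS) : RowSTAR := by
  classical
  intro n a q s u G D X N l' hs hq hua hGq ha hX hD hNX ε E hE l h0 e sp gr hnorm hone hinj hpair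
    hhit
  by_cases hcol0 : ∀ t v w, v ≠ w → sp ⟨t, v⟩ = none → sp ⟨t, w⟩ = none →
      e ⟨t, v⟩ ≠ e ⟨t, w⟩
  · obtain ⟨k, hk⟩ : ∃ k, k = s * (18 * s ^ 5 * q ^ 2) := ⟨_, rfl⟩
    obtain ⟨Z, hZ⟩ : ∃ Z : ℝ, Z = (s : ℝ) ^ 12 * (q : ℝ) ^ 6 * Real.log a := ⟨_, rfl⟩
    have hsR : (1 : ℝ) ≤ s := by exact_mod_cast hs
    have hqR : (1 : ℝ) ≤ q := by exact_mod_cast (by omega : 1 ≤ q)
    have ha3 : 3 ≤ a := by
      have h1 : 1 ≤ s ^ 12 * q ^ 4 := Nat.mul_pos (pow_pos (by omega) 12) (pow_pos (by omega) 4)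
      have h2 : 1400 * s ^ 12 * q ^ 4 = 1400 * (s ^ 12 * q ^ 4) := by ring
      omega
    have hL1 : 1 ≤ Real.log a := by
      have haR : (3 : ℝ) ≤ a := by exact_mod_cast ha3
      rw [Real.le_log_iff_exp_le (by linarith)]
      have := Real.exp_one_lt_d9
      linarith
    have hZ1 : 1 ≤ Z := by
      rw [hZ]
      exact one_le_mul_of_one_le_of_one_le
        (one_le_mul_of_one_le_of_one_le (one_le_pow₀ hsR) (one_le_pow₀ hqR)) hL1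
    obtain ⟨A, hA⟩ : ∃ A, A = ⌈12500 * Z⌉₊ := ⟨_, rfl⟩
    have hA1 : 12500 * Z ≤ A := by
      rw [hA]
      exact Nat.le_ceil _
    have hA2 : (A : ℝ) ≤ 12501 * Z := by
      have h1 : (A : ℝ) < 12500 * Z + 1 := by
        rw [hA]
        exact Nat.ceil_lt_add_one (by linarith)
      linarith
    obtain ⟨ha2, hnum⟩ := numL s q k a u A hs (by omega) hk ha hua (by
      refine le_trans (le_of_eq ?_) hA1
      rw [hZ]
      ring)
    have hAD : A ≤ D := by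
      have h1 : (A : ℝ) ≤ D := by
        refine hA2.trans (le_trans ?_ hD)
        have h2 : 30000 * (s : ℝ) ^ 12 * (q : ℝ) ^ 6 * Real.log a = 30000 * Z := by
          rw [hZ]
          ring
        rw [h2]
        linarith
      exact_mod_cast h1
    have hAX : s * (s + 1) * A ≤ 2 * X := by
      have h1 : (s : ℝ) * (s + 1) * A ≤ 2 * X := by
        have h2 : (s : ℝ) * (s + 1) ≤ 2 * (s : ℝ) ^ 2 := by nlinarith
        have h3 : 30000 * (s : ℝ) ^ 14 * (q : ℝ) ^ 6 * Real.log a =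
            (s : ℝ) ^ 2 * (30000 * Z) := by
          rw [hZ]
          ring
        rw [h3] at hX
        have h4 : (s : ℝ) * (s + 1) * A ≤ 2 * (s : ℝ) ^ 2 * (12501 * Z) :=
          mul_le_mul h2 hA2 (Nat.cast_nonneg _) (by positivity)
        have h5 : 0 ≤ (s : ℝ) ^ 2 * Z := by positivity
        nlinarith
      exact_mod_cast h1
    have hk1 : s ≤ k := by
      rw [hk]
      exact Nat.le_mul_of_pos_right s (Nat.mul_pos (Nat.mul_pos (by norm_num)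
        (pow_pos (by omega) 5)) (pow_pos (by omega) 2))
    have hQ1 : 1 ≤ q * (2 * k + 1) := Nat.mul_pos (by omega) (by omega)
    obtain ⟨g, g', w, hag, hw, hg, hg', he⟩ := H89.sizesS k q a ha2
    have hsa : s + 1 ≤ a := by
      have h3 : (2 * k + 1) * 1 ≤ (2 * k + 1) * (2 * k + 1) := Nat.mul_le_mul_left _ (by omega)
      omega
    subst hk
    exact star_core hGG hCLS (s := s) (d := 18 * s ^ 5 * q ^ 2) (w := w) (A := A) (X := X) hs hq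
      hGq (H89.tyS _ q) (H89.gS g g') le_rfl hsa hQ1 (H89.card_tyS _ q) (by
        rw [H89.cS, H89.cS, H89.gS, H89.gS, if_pos rfl, if_pos rfl, if_neg Bool.false_ne_true,
          if_neg Bool.false_ne_true]
        exact hag) hw (fun κ => by
        rw [H89.gS]
        split_ifs
        · exact hg
        · exact hg') he hnum hAX hNX ε E hE l h0 e sp gr hnorm hone hinj hpair
      (fun k i => hAD.trans (hhit k i)) hcol0
  · push Not at hcol0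
    obtain ⟨t, v, w, hvw, h1, h2, h3⟩ := hcol0
    apply Finset.sum_eq_zero
    intro τ _
    apply VV_anti _ _ t hvw
    simp only [sprU, h1, h2, h3]

end Vale.Agent.P181.H530
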