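import Vale.Agent.P181.LK.Spec2
import Vale.Agent.P181.GP.Spec
import Vale.Agent.P181.BK.Sums
import Vale.Agent.P181.H388.LabelOne
import Vale.Agent.P181.H89.TopS

/-!
P181: the sum over all spreads of the special groups vanishes: the core of row STAR.
-/

set_option autoImplicit false

open scoped TensorProduct

namespace Vale.Agent.P181.H530

open Vale.Agent.P181 Vale.Agent.P181.H280 Vale.Agent.P181.H179 Vale.Agent.P181.BK
  Vale.Agent.P181.LK Finset

theorem star_core (hGG : RowGG) (hCLS : GP.RowCLS) {n a q s u G A X N d Q w e0 : ℕ}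
    {l' : Fin N → ℕ} (hs : 1 ≤ s) (hq : 2 ≤ q) (hGq : G < q) (ty : Fin Q → Bool) (gz : Bool → ℕ)
    (hd : 18 * s ^ 5 * q ^ 2 ≤ d) (hsa : s + 1 ≤ a) (hQ1 : 1 ≤ Q)
    (hQ : ∀ z, (univ.filter (fun κ => ty κ = z)).card = q * H89.cS (s * d) z)
    (hah : a = H89.cS (s * d) true * gz true + H89.cS (s * d) false * gz false)
    (hw : 1 ≤ w) (hg : ∀ κ, w ≤ gz (ty κ)) (he : q * a ≤ Q * w + e0)
    (hnum : ((a + u : ℕ) : ℝ) ^ 2 * (Q : ℝ) ^ 2 *
      (1 - 1 / (2 * (Q : ℝ) ^ 2)) ^ (A - 2 * e0) < 1)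
    (hX : s * (s + 1) * A ≤ 2 * X) (hNX : N + X ≤ (s + 1) * (q * a))
    (ε : Fin (q * a + u) ≃ Gp a q u) (E : Equiv.Perm (Fin a × Fin (q * a + u)))
    (hE : ∀ i j, (E (i, j)).1 = Sum.elim Prod.fst (fun _ => i) (ε j))
    (l : (Fin a → Fin (q * a + u) → (Fin n → ℂ)) →₀ ℂ)
    (h0 : arrMap a (q * a + u) E (Fin n → ℂ) (elOf l) = 0)
    (e : Box l' → Fin a) (sp : Box l' → Option (Fin u)) (gr : Fin u → Fin G)
    (hnorm : ∀ i, (univ.filter (fun p => e p = i ∧ sp p = none)).card = q * a)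
    (hone : ∀ k i, ∃ p, sp p = some k ∧ e p = i)
    (hinj : ∀ k p p', sp p = some k → sp p' = some k → e p = e p' → p = p')
    (hpair : ∀ k k' : Fin u, k ≠ k' → gr k = gr k' →
      ∃ t v w, sp ⟨t, v⟩ = some k ∧ sp ⟨t, w⟩ = some k')
    (hhit : ∀ k i, A ≤ (univ.filter (fun t : Fin N => (∃ v, sp ⟨t, v⟩ = some k) ∧
      ∃ w, sp ⟨t, w⟩ = none ∧ e ⟨t, w⟩ = i)).card)
    (hcol0 : ∀ t v w, v ≠ w → sp ⟨t, v⟩ = none → sp ⟨t, w⟩ = none → e ⟨t, v⟩ ≠ e ⟨t, w⟩) :
    ∑ τ : Fin u → Equiv.Perm (Fin a), VV (fullForm l) l' (sprU sp τ e) = 0 := by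
  classical
  -- the columns of the normal boxes of a row
  let C : Fin a → Finset (Fin N) := fun i =>
    univ.filter (fun t => ∃ w, sp ⟨t, w⟩ = none ∧ e ⟨t, w⟩ = i)
  have hCm : ∀ i t, t ∈ C i ↔ ∃ w, sp ⟨t, w⟩ = none ∧ e ⟨t, w⟩ = i := fun i t => by
    simp only [C, Finset.mem_filter, Finset.mem_univ, true_and]
  have hbij : ∀ i (R : Fin N → Prop) [DecidablePred R],
      (univ.filter (fun p : Box l' => (e p = i ∧ sp p = none) ∧ R p.1)).card =
        ((C i).filter R).card := by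
    intro i R _
    apply Finset.card_bij (fun p _ => p.1)
    · rintro ⟨t, v⟩ hp
      rw [Finset.mem_filter] at hp
      rw [Finset.mem_filter, hCm]
      exact ⟨⟨v, hp.2.1.2, hp.2.1.1⟩, hp.2.2⟩
    · intro p hp p' hp' h
      rw [Finset.mem_filter] at hp hp'
      obtain ⟨t, v⟩ := p
      obtain ⟨t', v'⟩ := p'
      simp only at h
      subst h
      by_contra hne
      have hvv : v ≠ v' := fun h => hne (by rw [h])
      exact hcol0 t v v' hvv hp.2.1.2 hp'.2.1.2 (hp.2.1.1.trans hp'.2.1.1.symm)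
    · intro t ht
      rw [Finset.mem_filter, hCm] at ht
      obtain ⟨⟨v, hv, hv'⟩, h2⟩ := ht
      exact ⟨⟨t, v⟩, Finset.mem_filter.2 ⟨Finset.mem_univ _, ⟨hv', hv⟩, h2⟩, rfl⟩
  have hC : ∀ i, (C i).card = q * a := by
    intro i
    have h1 := hbij i (fun _ => True)
    simp only [and_true, Finset.filter_true] at h1
    rw [← h1]
    exact hnorm i
  -- the columns of a special group
  let T : Fin u → Finset (Fin N) := fun k => univ.filter (fun t => ∃ v, sp ⟨t, v⟩ = some k)
  have hTm : ∀ k t, t ∈ T k ↔ ∃ v, sp ⟨t, v⟩ = some k := fun k t => by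
    simp only [T, Finset.mem_filter, Finset.mem_univ, true_and]
  have hsp : ∀ k, (univ.filter (fun p : Box l' => sp p = some k)).card = a := by
    intro k
    have h1 : (univ.filter (fun p : Box l' => sp p = some k)).card =
        (univ : Finset (Fin a)).card := by
      apply Finset.card_bij (fun p _ => e p)
      · intro p _
        exact Finset.mem_univ _
      · intro p hp p' hp' h
        exact hinj k p p' (Finset.mem_filter.1 hp).2 (Finset.mem_filter.1 hp').2 h
      · intro i _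
        obtain ⟨p, hp, hpi⟩ := hone k i
        exact ⟨p, Finset.mem_filter.2 ⟨Finset.mem_univ _, hp⟩, hpi⟩
    rw [h1, Finset.card_univ, Fintype.card_fin]
  have hTcard : ∀ k, (T k).card ≤ a := by
    intro k
    rw [← hsp k]
    have h1 : T k ⊆ (univ.filter (fun p : Box l' => sp p = some k)).image (fun p => p.1) := by
      intro t ht
      obtain ⟨v, hv⟩ := (hTm k t).1 ht
      exact Finset.mem_image.2 ⟨⟨t, v⟩, Finset.mem_filter.2 ⟨Finset.mem_univ _, hv⟩, rfl⟩
    exact (Finset.card_le_card h1).trans Finset.card_image_le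
  -- virtual rows
  have hqa : a ≤ q * a := Nat.le_mul_of_pos_left a (by omega)
  have hvirt : ∀ k : Fin u, ∃ Y : Finset (Fin N), T k ⊆ Y ∧ Y.card = q * a := by
    intro k
    obtain ⟨Y, h1, h2⟩ := Finset.exists_superset_card_eq (n := q * a)
      ((hTcard k).trans hqa) (by
        have h1 := Finset.card_le_univ (C ⟨0, by omega⟩)
        rw [hC] at h1
        exact h1)
    exact ⟨Y, h1, h2⟩
  choose Yv hYv1 hYv2 using hvirt
  let Cf : Fin (a + u) → Finset (Fin N) := Fin.addCases C Yv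
  let Sf : Fin (a + u) → Fin (a + u) → Finset (Fin N) := fun i j =>
    Fin.addCases (motive := fun _ => Finset (Fin N)) (fun i' => Fin.addCases
      (motive := fun _ => Finset (Fin N)) (fun j' => C i' ∩ C j')
      (fun k => C i' ∩ T k) j) (fun _ => ∅) i
  have hsum : ∑ κ, gz (ty κ) = q * a := by
    rw [H89.sum_szS ty gz hQ, ← hah]
  obtain ⟨lab', hl1, hl2⟩ := H388.labelOne (a := a + u) (w := w) (e := e0) (A := A) Cf
    (fun κ => gz (ty κ)) Sf (by
      intro i j
      refine Fin.addCases (fun i' => ?_) (fun k => ?_) i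
      · refine Fin.addCases (fun j' => ?_) (fun k => ?_) j
        · simp only [Sf, Cf, Fin.addCases_left]
          exact Finset.Subset.refl _
        · simp only [Sf, Cf, Fin.addCases_left, Fin.addCases_right]
          exact Finset.inter_subset_inter (Finset.Subset.refl _) (hYv1 k)
      · simp only [Sf, Fin.addCases_right]
        exact Finset.empty_subset _) hQ1 hw hg (by
      intro i
      rw [hsum]
      refine Fin.addCases (fun i' => ?_) (fun k => ?_) i
      · simp only [Cf, Fin.addCases_left]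
        exact hC i'
      · simp only [Cf, Fin.addCases_right]
        exact hYv2 k) (by rw [hsum]; exact he) hnum
  obtain ⟨lab, hlab⟩ : ∃ lab : Fin a → Fin N → Fin Q, lab = fun i => lab' (Fin.castAdd u i) :=
    ⟨_, rfl⟩
  have hsize : ∀ i κ, ((C i).filter (fun t => lab i t = κ)).card = gz (ty κ) := by
    intro i κ
    have h1 := hl1 (Fin.castAdd u i) κ
    simp only [Cf, Fin.addCases_left] at h1
    rw [hlab]
    exact h1
  have hlpair : ∀ i j, i ≠ j → A ≤ (C i ∩ C j).card → ∀ κ κ', ∃ t ∈ C i ∩ C j,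
      lab i t = κ ∧ lab j t = κ' := by
    intro i j hij hA κ κ'
    have h1 := hl2 (Fin.castAdd u i) (Fin.castAdd u j) (by
      intro h
      exact hij (Fin.castAdd_injective a u h))
    simp only [Sf, Fin.addCases_left] at h1
    rw [hlab]
    exact h1 hA κ κ'
  have hwin : ∀ i k κ, ∃ t ∈ C i ∩ T k, lab i t = κ := by
    intro i k κ
    have h1 := hl2 (Fin.castAdd u i) (Fin.natAdd a k) (by
      intro h
      have h2 := congrArg Fin.val h
      simp only [Fin.val_castAdd, Fin.val_natAdd] at h2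
      omega)
    simp only [Sf, Fin.addCases_left, Fin.addCases_right] at h1
    have h2 : A ≤ (C i ∩ T k).card := by
      refine (hhit k i).trans (Finset.card_le_card ?_)
      intro t ht
      obtain ⟨h3, h4⟩ := (Finset.mem_filter.1 ht).2
      exact Finset.mem_inter.2 ⟨(hCm i t).2 h4, (hTm k t).2 h3⟩
    obtain ⟨t, ht, h3, _⟩ := h1 h2 κ κ
    exact ⟨t, ht, by rw [hlab]; exact h3⟩
  -- the groups of the boxes
  obtain ⟨fm, hfm⟩ : ∃ fm : Box l' → (Fin a × Fin Q) ⊕ Fin u, ∀ p, fm p =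
      (sp p).elim (Sum.inl (e p, lab (e p) p.1)) Sum.inr := ⟨_, fun _ => rfl⟩
  have hfn : ∀ p, sp p = none → fm p = Sum.inl (e p, lab (e p) p.1) := by
    intro p hp
    rw [hfm, hp]
    rfl
  have hfs : ∀ p k, sp p = some k → fm p = Sum.inr k := by
    intro p k hp
    rw [hfm, hp]
    rfl
  have hfr : ∀ p k, fm p = Sum.inr k ↔ sp p = some k := by
    intro p k
    constructor
    · intro h
      rcases hp : sp p with _ | j
      · rw [hfn p hp] at h
        exact absurd h Sum.inl_ne_inr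
      · rw [hfs p j hp] at h
        rw [Sum.inr_injective h]
    · exact hfs p k
  have hfl : ∀ p i κ, fm p = Sum.inl (i, κ) ↔ (e p = i ∧ sp p = none) ∧ lab i p.1 = κ := by
    intro p i κ
    constructor
    · intro h
      rcases hp : sp p with _ | j
      · rw [hfn p hp] at h
        have h1 := Sum.inl_injective h
        have h2 := congrArg Prod.fst h1
        have h3 := congrArg Prod.snd h1
        simp only at h2 h3
        subst h2
        exact ⟨⟨rfl, rfl⟩, h3⟩
      · rw [hfs p j hp] at h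
        exact absurd h Sum.inr_ne_inl
    · rintro ⟨⟨rfl, h1⟩, rfl⟩
      exact hfn p h1
  -- the function of the pieces
  obtain ⟨Wf, hWf⟩ : ∃ Wf : (Fin a × Fin Q → Fin a) → ℂ, Wf = fun y =>
      ∑ τ : Fin u → Equiv.Perm (Fin a), VV (fullForm l) l'
        (fun p => Sum.elim y (fun j => τ j (e p)) (fm p)) := ⟨_, rfl⟩
  have hWfst : Wf Prod.fst = ∑ τ : Fin u → Equiv.Perm (Fin a), VV (fullForm l) l'
      (sprU sp τ e) := by
    rw [hWf]
    simp only
    apply Finset.sum_congr rfl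
    intro τ _
    congr 1
    funext p
    rcases hp : sp p with _ | j
    · rw [hfn p hp, sprU, hp]
      rfl
    · rw [hfs p j hp, sprU, hp]
      rfl
  rw [← hWfst]
  refine hCLS a q Q s d ty hs (by omega) hd hQ Wf ?_ ?_ ?_
  · -- symmetry
    intro τ0 y
    rw [hWf]
    simp only
    rw [← Equiv.sum_comp (Equiv.mulLeft (fun _ : Fin u => τ0))]
    apply Finset.sum_congr rfl
    intro τ _
    rw [← VV_symm (fullForm_symm l) τ0 (fun p => Sum.elim y (fun j => τ j (e p)) (fm p))]
    congr 1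
    funext p
    rcases fm p with x | j
    · rfl
    · rfl
  · -- relation
    intro ρ hρ
    rw [hWf]
    simp only
    refine hGG n a q u G N Q l' hq hGq ε E hE l h0 e fm ty (H89.cS (s * d)) gz ?_ ?_ ?_ ?_ hah
      ?_ gr ?_ ρ hρ
    · refine ⟨false, ?_⟩
      rw [H89.cS, if_neg Bool.false_ne_true]
      omega
    · intro i κ
      have h1 : (univ.filter (fun p : Box l' => fm p = Sum.inl (i, κ))) =
          univ.filter (fun p : Box l' => (e p = i ∧ sp p = none) ∧ lab i p.1 = κ) := by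
        ext p
        rw [Finset.mem_filter, Finset.mem_filter, hfl]
      rw [h1, hbij i (fun t => lab i t = κ), ← hsize i κ]
    · intro k
      refine Eq.trans ?_ (hsp k)
      congr 1
      ext p
      rw [Finset.mem_filter, Finset.mem_filter, hfr]
    · intro p p' k hp hp' h
      exact hinj k p p' ((hfr p k).1 hp) ((hfr p' k).1 hp') h
    · rintro k ⟨i, κ⟩
      obtain ⟨t, ht, h1⟩ := hwin i k κ
      rw [Finset.mem_inter] at ht
      obtain ⟨v, hv, hv'⟩ := (hCm i t).1 ht.1
      obtain ⟨v', hv1⟩ := (hTm k t).1 ht.2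
      exact ⟨t, v', v, hfs _ _ hv1, (hfl _ _ _).2 ⟨⟨hv', hv⟩, h1⟩⟩
    · intro k k' hkk hgr
      obtain ⟨t, v, v', h1, h2⟩ := hpair k k' hkk hgr
      exact ⟨t, v, v', hfs _ _ h1, hfs _ _ h2⟩
  · -- cliques
    intro y hWy m
    rw [hWf] at hWy
    simp only at hWy
    obtain ⟨τ, _, hVy⟩ := Finset.exists_ne_zero_of_sum_ne_zero hWy
    by_contra hno
    push Not at hno
    obtain ⟨S, hS1, hS2⟩ := Finset.exists_subset_card_eq (Nat.succ_le_of_lt hno)
    have h1 : 2 * X ≤ ∑ p ∈ S.offDiag, (C p.1 ∩ C p.2).card :=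
      sg_out_sum C ∅ (fun _ _ _ => Finset.notMem_empty _) hC (by
        rw [Finset.card_empty]
        omega) S hS2
    have h2 : ∃ p ∈ S.offDiag, A ≤ (C p.1 ∩ C p.2).card := by
      by_contra hno2
      push Not at hno2
      have hcard : S.offDiag.card = s * (s + 1) := by
        rw [Finset.offDiag_card, hS2]
        have h4 : s.succ * s.succ = s * (s + 1) + s.succ := by
          rw [Nat.succ_eq_add_one]
          ring
        rw [h4, Nat.add_sub_cancel]
      have hne : S.offDiag.Nonempty := by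
        rw [← Finset.card_pos, hcard]
        exact Nat.mul_pos hs (by omega)
      have h3 : ∑ p ∈ S.offDiag, (C p.1 ∩ C p.2).card < ∑ _p ∈ S.offDiag, A :=
        Finset.sum_lt_sum_of_nonempty hne hno2
      rw [Finset.sum_const, smul_eq_mul, hcard] at h3
      omega
    obtain ⟨⟨i, j⟩, hp, hA⟩ := h2
    rw [Finset.mem_offDiag] at hp
    obtain ⟨hi, hj, hij⟩ := hp
    simp only at hi hj hij hA
    obtain ⟨κ, hκ⟩ := (Finset.mem_filter.1 (hS1 hi)).2
    obtain ⟨κ', hκ'⟩ := (Finset.mem_filter.1 (hS1 hj)).2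
    obtain ⟨t, ht, hl3, hl4⟩ := hlpair i j hij hA κ κ'
    rw [Finset.mem_inter] at ht
    obtain ⟨v, hv, hv'⟩ := (hCm i t).1 ht.1
    obtain ⟨v', hv1, hv1'⟩ := (hCm j t).1 ht.2
    apply hVy
    refine VV_anti _ _ t (u := v) (v := v') ?_ ?_
    · intro h
      apply hij
      rw [← hv', ← hv1', h]
    · have h5 : fm ⟨t, v⟩ = Sum.inl (i, κ) := (hfl _ _ _).2 ⟨⟨hv', hv⟩, hl3⟩
      have h6 : fm ⟨t, v'⟩ = Sum.inl (j, κ') := (hfl _ _ _).2 ⟨⟨hv1', hv1⟩, hl4⟩
      simp only [h5, h6, Sum.elim_inl]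
      rw [hκ, hκ']

end Vale.Agent.P181.H530
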