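import Vale.Agent.P181.T3.Spec
import Mathlib.Combinatorics.Hall.Basic

/-!
P181, power map, structure theorem for regroupings with `(s+1)`-sets of large overlap
(helper179's potential argument; lexicographic minimality of the numbers of maximal low sets).
-/

set_option autoImplicit false

namespace Vale.Agent.P181.T3

open Finset

namespace SS

variable {a : ℕ}

/-- Sum of the overlaps over the ordered pairs of `S`. -/
def sg (c : Fin a → Fin a → ℕ) (S : Finset (Fin a)) : ℕ := ∑ p ∈ S.offDiag, c p.1 p.2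

/-- Low sets. -/
def LowS (θ : ℕ → ℕ) (s : ℕ) (c : Fin a → Fin a → ℕ) (S : Finset (Fin a)) : Prop :=
  2 ≤ S.card ∧ S.card ≤ s ∧ sg c S < θ S.card

open Classical in
/-- Maximal low sets. -/
noncomputable def ZZ (θ : ℕ → ℕ) (s : ℕ) (c : Fin a → Fin a → ℕ) : Finset (Finset (Fin a)) :=
  univ.filter (fun S => LowS θ s c S ∧ ∀ S', S ⊂ S' → ¬ LowS θ s c S')

/-- Number of maximal low sets of size `k`. -/
noncomputable def zn (θ : ℕ → ℕ) (s : ℕ) (c : Fin a → Fin a → ℕ) (k : ℕ) : ℕ :=
  ((ZZ θ s c).filter (fun S => S.card = k)).card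

lemma mem_ZZ {θ : ℕ → ℕ} {s : ℕ} {c : Fin a → Fin a → ℕ} {S : Finset (Fin a)} :
    S ∈ ZZ θ s c ↔ LowS θ s c S ∧ ∀ S', S ⊂ S' → ¬ LowS θ s c S' := by
  classical
  unfold ZZ
  rw [Finset.mem_filter]
  exact ⟨fun h => h.2, fun h => ⟨Finset.mem_univ _, h⟩⟩

lemma exists_max {θ : ℕ → ℕ} {s : ℕ} {c : Fin a → Fin a → ℕ} {S : Finset (Fin a)}
    (h : LowS θ s c S) : ∃ Z ∈ ZZ θ s c, S ⊆ Z := by
  classical
  obtain ⟨Z, hZ, hmax⟩ := Finset.exists_max_image
    (univ.filter (fun Z : Finset (Fin a) => S ⊆ Z ∧ LowS θ s c Z)) Finset.card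
    ⟨S, Finset.mem_filter.2 ⟨Finset.mem_univ _, Finset.Subset.refl _, h⟩⟩
  obtain ⟨_, h1, h2⟩ := Finset.mem_filter.1 hZ
  refine ⟨Z, mem_ZZ.2 ⟨h2, ?_⟩, h1⟩
  intro S' hS' hL
  have h3 := hmax S' (Finset.mem_filter.2 ⟨Finset.mem_univ _, h1.trans hS'.subset, hL⟩)
  exact absurd (Finset.card_lt_card hS') (not_lt.2 h3)

/-- Equivalence of rows. -/
def Rel (Z : Finset (Finset (Fin a))) (i j : Fin a) : Prop :=
  i = j ∨ ((∃ S ∈ Z, i ∈ S) ∧ ∀ S ∈ Z, (i ∈ S ↔ j ∈ S))

lemma Rel.symm {Z : Finset (Finset (Fin a))} {i j : Fin a} (h : Rel Z i j) : Rel Z j i := by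
  rcases h with h | ⟨⟨S, hS, hi⟩, h⟩
  · exact Or.inl h.symm
  · exact Or.inr ⟨⟨S, hS, (h S hS).1 hi⟩, fun S hS => (h S hS).symm⟩

lemma Rel.trans {Z : Finset (Finset (Fin a))} {i j k : Fin a} (h : Rel Z i j)
    (h' : Rel Z j k) : Rel Z i k := by
  rcases h with h | ⟨h1, h⟩
  · rw [h]; exact h'
  · rcases h' with h' | ⟨_, h'⟩
    · rw [← h']; exact Or.inr ⟨h1, h⟩
    · exact Or.inr ⟨h1, fun S hS => (h S hS).trans (h' S hS)⟩

open Classical in
/-- Representative of the part of a row. -/
noncomputable def part (Z : Finset (Finset (Fin a))) (i : Fin a) : Fin a :=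
  (univ.filter (fun j => Rel Z i j)).min' ⟨i, Finset.mem_filter.2 ⟨Finset.mem_univ _, Or.inl rfl⟩⟩

lemma rel_part (Z : Finset (Finset (Fin a))) (i : Fin a) : Rel Z i (part Z i) := by
  classical
  have h := Finset.min'_mem (univ.filter (fun j => Rel Z i j))
    ⟨i, Finset.mem_filter.2 ⟨Finset.mem_univ _, Or.inl rfl⟩⟩
  exact (Finset.mem_filter.1 h).2

lemma part_eq {Z : Finset (Finset (Fin a))} {i j : Fin a} (h : Rel Z i j) :
    part Z i = part Z j := by
  classical
  unfold part
  congr 1
  ext k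
  rw [Finset.mem_filter, Finset.mem_filter]
  constructor
  · rintro ⟨h1, h2⟩
    exact ⟨h1, h.symm.trans h2⟩
  · rintro ⟨h1, h2⟩
    exact ⟨h1, h.trans h2⟩

lemma rel_of_part {Z : Finset (Finset (Fin a))} {i j : Fin a} (h : part Z i = part Z j) :
    Rel Z i j := by
  have h1 := rel_part Z i
  rw [h] at h1
  exact h1.trans (rel_part Z j).symm

lemma card_part {θ : ℕ → ℕ} {s : ℕ} {c : Fin a → Fin a → ℕ} (hs : 1 ≤ s) (k : Fin a) :
    (univ.filter (fun i => part (ZZ θ s c) i = k)).card ≤ s := by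
  classical
  by_cases hne : ∃ S ∈ ZZ θ s c, k ∈ S
  · obtain ⟨S, hS, hk⟩ := hne
    have h1 : univ.filter (fun i => part (ZZ θ s c) i = k) ⊆ S := by
      intro i hi
      have h2 := (Finset.mem_filter.1 hi).2
      have h3 := rel_part (ZZ θ s c) i
      rw [h2] at h3
      rcases h3 with h3 | ⟨_, h3⟩
      · rw [h3]; exact hk
      · exact (h3 S hS).2 hk
    exact (Finset.card_le_card h1).trans (mem_ZZ.1 hS).1.2.1
  · have h1 : univ.filter (fun i => part (ZZ θ s c) i = k) ⊆ {k} := by
      intro i hi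
      have h2 := (Finset.mem_filter.1 hi).2
      have h3 := rel_part (ZZ θ s c) i
      rw [h2] at h3
      rw [Finset.mem_singleton]
      rcases h3 with h3 | ⟨⟨S, hS, h4⟩, h3⟩
      · exact h3
      · exact absurd ⟨S, hS, (h3 S hS).1 h4⟩ hne
    have h2 := Finset.card_le_card h1
    rw [Finset.card_singleton] at h2
    exact h2.trans hs

section core

variable {θ : ℕ → ℕ} {s L A : ℕ} {c c' : Fin a → Fin a → ℕ} {supp : Fin a → Finset (Fin a)}
  {τ : Equiv.Perm (Fin a)}

lemma card_im (τ : Equiv.Perm (Fin a)) (S : Finset (Fin a)) : (S.image τ).card = S.card :=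
  Finset.card_image_of_injective S τ.injective

lemma im_symm (τ : Equiv.Perm (Fin a)) (S : Finset (Fin a)) :
    (S.image τ.symm).image τ = S := by
  rw [Finset.image_image]
  have : (τ ∘ τ.symm : Fin a → Fin a) = id := by
    funext x
    exact τ.apply_symm_apply x
  rw [this, Finset.image_id]

lemma symm_im (τ : Equiv.Perm (Fin a)) (S : Finset (Fin a)) :
    (S.image τ).image τ.symm = S := by
  rw [Finset.image_image]
  have : (τ.symm ∘ τ : Fin a → Fin a) = id := by
    funext x
    exact τ.symm_apply_apply x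
  rw [this, Finset.image_id]

/-- The downward induction. -/
lemma core
    (hgr : ∀ r, 2 ≤ r → r ≤ s → A ≤ L * θ r ∧ (r + 1) * r * (L * θ r) ≤ θ (r + 1))
    (hτ : ∀ m, τ m ∈ supp m)
    (hF1 : ∀ m, ∀ i ∈ supp m, ∀ i' ∈ supp m, i ≠ i' → c i i' < A)
    (hF2 : ∀ r, 2 ≤ r → r ≤ s → ∀ m m', m ≠ m' → ∀ i ∈ supp m, ∀ i' ∈ supp m', i ≠ i' →
      L * θ r ≤ c i i' → θ r ≤ c' m m')
    (hcons : ∀ S : Finset (Fin a), S.biUnion supp = S.image τ → sg c (S.image τ) = sg c' S)
    (hgam : ∀ S : Finset (Fin a), S.card = s + 1 → θ (s + 1) ≤ sg c S)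
    (hmin : ∀ k, (∀ k', k < k' → zn θ s c k' = zn θ s c' k') → zn θ s c k ≤ zn θ s c' k) :
    ∀ (d k : ℕ), s + 1 ≤ k + d →
      (∀ S ∈ ZZ θ s c', S.card = k → S.image τ ∈ ZZ θ s c ∧ S.biUnion supp = S.image τ) ∧
      ∀ S ∈ ZZ θ s c, S.card = k → S.image τ.symm ∈ ZZ θ s c' := by
  classical
  intro d
  induction d with
  | zero =>
    intro k hk
    constructor
    · intro S hS hc
      have := (mem_ZZ.1 hS).1.2.1
      omega
    · intro S hS hc
      have := (mem_ZZ.1 hS).1.2.1
      omega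
  | succ d ih =>
    intro k hk
    have hIH : ∀ k', k < k' →
        (∀ S ∈ ZZ θ s c', S.card = k' → S.image τ ∈ ZZ θ s c ∧ S.biUnion supp = S.image τ) ∧
        ∀ S ∈ ZZ θ s c, S.card = k' → S.image τ.symm ∈ ZZ θ s c' :=
      fun k' hk' => ih k' (by omega)
    -- a low set strictly above a maximal one
    have hno : ∀ S ∈ ZZ θ s c', S.card = k → ∀ S1 : Finset (Fin a), S.image τ ⊂ S1 →
        ¬ LowS θ s c S1 := by
      intro S hS hc S1 hS1 hL
      obtain ⟨Z, hZ, hSZ⟩ := exists_max hL
      have h1 : S.image τ ⊂ Z := lt_of_lt_of_le hS1 hSZ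
      have h2 := Finset.card_lt_card h1
      rw [card_im, hc] at h2
      have h3 := (hIH _ h2).2 Z hZ rfl
      have h4 : S ⊂ Z.image τ.symm := by
        have h5 := Finset.image_subset_image (f := τ.symm) h1.subset
        rw [symm_im] at h5
        refine Finset.ssubset_iff_subset_ne.2 ⟨h5, ?_⟩
        intro h6
        have h7 := congrArg Finset.card h6
        rw [card_im τ.symm, hc] at h7
        omega
      exact (mem_ZZ.1 hS).2 _ h4 (mem_ZZ.1 h3).1
    have hfor : ∀ S ∈ ZZ θ s c', S.card = k →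
        S.image τ ∈ ZZ θ s c ∧ S.biUnion supp = S.image τ := by
      intro S hS hc
      have hlow := (mem_ZZ.1 hS).1
      have hk2 : 2 ≤ k := by rw [← hc]; exact hlow.1
      have hks : k ≤ s := by rw [← hc]; exact hlow.2.1
      have hsgk : sg c' S < θ k := by have := hlow.2.2; rw [hc] at this; exact this
      obtain ⟨hAk, hgrk⟩ := hgr k hk2 hks
      have hsub : S.image τ ⊆ S.biUnion supp := by
        intro x hx
        obtain ⟨m, hm, rfl⟩ := Finset.mem_image.1 hx
        exact Finset.mem_biUnion.2 ⟨m, hm, hτ m⟩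
      have hU : S.biUnion supp = S.image τ := by
        by_contra hne
        have h1 : ∃ u ∈ S.biUnion supp, u ∉ S.image τ := by
          by_contra hno'
          apply hne
          apply Finset.Subset.antisymm _ hsub
          intro x hx
          by_contra hx'
          exact hno' ⟨x, hx, hx'⟩
        obtain ⟨u, hu, hu'⟩ := h1
        have hcard : (insert u (S.image τ)).card = k + 1 := by
          rw [Finset.card_insert_of_notMem hu', card_im, hc]
        have hlt : sg c (insert u (S.image τ)) < θ (k + 1) := by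
          have h2 : sg c (insert u (S.image τ)) <
              ∑ p ∈ (insert u (S.image τ)).offDiag, L * θ k := by
            unfold sg
            apply Finset.sum_lt_sum_of_nonempty
            · obtain ⟨m, hm⟩ : S.Nonempty := by
                rw [← Finset.card_pos, hc]; omega
              refine ⟨(u, τ m), Finset.mem_offDiag.2 ⟨Finset.mem_insert_self _ _,
                Finset.mem_insert_of_mem (Finset.mem_image_of_mem _ hm), ?_⟩⟩
              intro h
              exact hu' (by
                have : u = τ m := h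
                rw [this]
                exact Finset.mem_image_of_mem _ hm)
            · intro p hp
              obtain ⟨hp1, hp2, hp3⟩ := Finset.mem_offDiag.1 hp
              have hin : ∀ x, x ∈ insert u (S.image τ) → ∃ m ∈ S, x ∈ supp m := by
                intro x hx
                have : x ∈ S.biUnion supp := by
                  rcases Finset.mem_insert.1 hx with hx | hx
                  · rw [hx]; exact hu
                  · exact hsub hx
                exact Finset.mem_biUnion.1 this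
              obtain ⟨m, hm, hpm⟩ := hin _ hp1
              obtain ⟨m', hm', hpm'⟩ := hin _ hp2
              by_cases hmm : m = m'
              · rw [← hmm] at hpm'
                exact lt_of_lt_of_le (hF1 m _ hpm _ hpm' hp3) hAk
              · by_contra hge
                have h3 := hF2 k hk2 hks m m' hmm _ hpm _ hpm' hp3 (not_lt.1 hge)
                have h4 : c' m m' ≤ sg c' S := by
                  unfold sg
                  have h5 : (m, m') ∈ S.offDiag := Finset.mem_offDiag.2 ⟨hm, hm', hmm⟩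
                  exact Finset.single_le_sum (f := fun p : Fin a × Fin a => c' p.1 p.2)
                    (fun _ _ => Nat.zero_le _) h5
                omega
          rw [Finset.sum_const, Finset.offDiag_card, hcard, smul_eq_mul] at h2
          have h3 : (k + 1) * (k + 1) - (k + 1) = (k + 1) * k := by
            have : (k + 1) * (k + 1) = (k + 1) * k + (k + 1) := by ring
            omega
          rw [h3] at h2
          omega
        rcases Nat.lt_or_ge k s with hlt' | hge'
        · refine hno S hS hc (insert u (S.image τ)) (Finset.ssubset_insert hu') ⟨?_, ?_, ?_⟩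
          · rw [hcard]; omega
          · rw [hcard]; omega
          · rw [hcard]; exact hlt
        · have hks' : k = s := le_antisymm hks hge'
          have h2 := hgam (insert u (S.image τ)) (by rw [hcard, hks'])
          rw [hks'] at hlt
          omega
      refine ⟨mem_ZZ.2 ⟨⟨?_, ?_, ?_⟩, hno S hS hc⟩, hU⟩
      · rw [card_im]; exact hlow.1
      · rw [card_im]; exact hlow.2.1
      · rw [hcons S hU, card_im]; exact hlow.2.2
    refine ⟨hfor, ?_⟩
    -- counting
    have hle : ∀ k', (∀ S ∈ ZZ θ s c', S.card = k' → S.image τ ∈ ZZ θ s c) →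
        zn θ s c' k' ≤ zn θ s c k' := by
      intro k' h
      unfold zn
      apply Finset.card_le_card_of_injOn (fun S => S.image τ)
      · intro S hS
        have hS' := Finset.mem_filter.1 (Finset.mem_coe.1 hS)
        refine Finset.mem_coe.2 (Finset.mem_filter.2 ⟨h S hS'.1 hS'.2, ?_⟩)
        rw [card_im]
        exact hS'.2
      · intro S _ S' _ h
        exact Finset.image_injective τ.injective h
    have hge : ∀ k', (∀ S ∈ ZZ θ s c, S.card = k' → S.image τ.symm ∈ ZZ θ s c') →
        zn θ s c k' ≤ zn θ s c' k' := by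
      intro k' h
      unfold zn
      apply Finset.card_le_card_of_injOn (fun S => S.image τ.symm)
      · intro S hS
        have hS' := Finset.mem_filter.1 (Finset.mem_coe.1 hS)
        refine Finset.mem_coe.2 (Finset.mem_filter.2 ⟨h S hS'.1 hS'.2, ?_⟩)
        rw [card_im]
        exact hS'.2
      · intro S _ S' _ h
        exact Finset.image_injective τ.symm.injective h
    have hk' := hmin k (fun k' hk' => le_antisymm (hge k' (hIH k' hk').2)
      (hle k' (fun S hS hc => ((hIH k' hk').1 S hS hc).1)))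
    -- surjectivity
    have hsurj : ((ZZ θ s c').filter (fun S => S.card = k)).image (fun S => S.image τ) =
        (ZZ θ s c).filter (fun S => S.card = k) := by
      apply Finset.eq_of_subset_of_card_le
      · intro S hS
        obtain ⟨S', hS', rfl⟩ := Finset.mem_image.1 hS
        obtain ⟨h1, h2⟩ := Finset.mem_filter.1 hS'
        refine Finset.mem_filter.2 ⟨(hfor S' h1 h2).1, ?_⟩
        rw [card_im]
        exact h2
      · rw [Finset.card_image_of_injective _ (Finset.image_injective τ.injective)]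
        exact hk'
    intro S hS hc
    have h1 : S ∈ (ZZ θ s c).filter (fun S => S.card = k) := Finset.mem_filter.2 ⟨hS, hc⟩
    rw [← hsurj] at h1
    obtain ⟨S', hS', rfl⟩ := Finset.mem_image.1 h1
    have h2 : (S'.image τ).image τ.symm = S' := symm_im τ S'
    rw [h2]
    exact (Finset.mem_filter.1 hS').1

end core

/-- The sum of the overlaps in terms of the columns. -/
lemma sg_cc {N : ℕ} {B : Type*} [Fintype B] [DecidableEq B] (t : B → Fin N) (r : B → Fin a)
    (hr : ∀ x x', t x = t x' → x ≠ x' → r x ≠ r x') (S : Finset (Fin a)) :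
    sg (cc t r) S = ∑ c : Fin N, ((univ.filter (fun x => t x = c ∧ r x ∈ S)).card *
      (univ.filter (fun x => t x = c ∧ r x ∈ S)).card -
        (univ.filter (fun x => t x = c ∧ r x ∈ S)).card) := by
  classical
  have h1 : ∀ p ∈ S.offDiag, cc t r p.1 p.2 = ∑ c : Fin N,
      if (∃ x, t x = c ∧ r x = p.1) ∧ ∃ x, t x = c ∧ r x = p.2 then 1 else 0 := by
    intro p _
    unfold cc
    rw [Finset.card_filter]
  unfold sg
  rw [Finset.sum_congr rfl h1, Finset.sum_comm]
  apply Finset.sum_congr rfl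
  intro c _
  rw [← Finset.card_filter]
  have h2 : S.offDiag.filter (fun p => (∃ x, t x = c ∧ r x = p.1) ∧
      ∃ x, t x = c ∧ r x = p.2) =
      (S.filter (fun m => ∃ x, t x = c ∧ r x = m)).offDiag := by
    ext p
    rw [Finset.mem_filter, Finset.mem_offDiag, Finset.mem_offDiag, Finset.mem_filter,
      Finset.mem_filter]
    tauto
  have h3 : (S.filter (fun m => ∃ x, t x = c ∧ r x = m)).card =
      (univ.filter (fun x => t x = c ∧ r x ∈ S)).card := by
    symm
    apply Finset.card_bij (fun x _ => r x)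
    · intro x hx
      obtain ⟨h4, h5⟩ := (Finset.mem_filter.1 hx).2
      exact Finset.mem_filter.2 ⟨h5, x, h4, rfl⟩
    · intro x hx x' hx' h
      by_contra hne
      have h4 := (Finset.mem_filter.1 hx).2.1
      have h5 := (Finset.mem_filter.1 hx').2.1
      exact hr x x' (h4.trans h5.symm) hne h
    · intro m hm
      obtain ⟨h4, x, h5, h6⟩ := Finset.mem_filter.1 hm
      refine ⟨x, Finset.mem_filter.2 ⟨Finset.mem_univ _, h5, ?_⟩, h6⟩
      rw [h6]
      exact h4
  rw [h2, Finset.offDiag_card, h3]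

/-- Weight whose minimum is the lexicographic minimum. -/
noncomputable def wt (θ : ℕ → ℕ) (s : ℕ) (c : Fin a → Fin a → ℕ) : ℕ :=
  ∑ k ∈ range (a + 1), zn θ s c k * (2 ^ a + 1) ^ k

lemma zn_le (θ : ℕ → ℕ) (s : ℕ) (c : Fin a → Fin a → ℕ) (k : ℕ) : zn θ s c k ≤ 2 ^ a := by
  unfold zn
  refine (Finset.card_le_univ _).trans ?_
  rw [Fintype.card_finset, Fintype.card_fin]

lemma zn_zero (θ : ℕ → ℕ) (s : ℕ) (c : Fin a → Fin a → ℕ) {k : ℕ} (hk : a < k) :
    zn θ s c k = 0 := by
  unfold zn
  rw [Finset.card_eq_zero]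
  apply Finset.filter_eq_empty_iff.2
  intro S _ h
  have := Finset.card_le_univ S
  rw [Fintype.card_fin] at this
  omega

lemma sum_digits (z : ℕ → ℕ) (M : ℕ) (hz : ∀ k, z k < M) (k : ℕ) :
    ∑ j ∈ range k, z j * M ^ j < M ^ k := by
  induction k with
  | zero => rw [Finset.sum_range_zero, pow_zero]; exact Nat.one_pos
  | succ k ih =>
    rw [Finset.sum_range_succ, pow_succ]
    have h1 : z k + 1 ≤ M := hz k
    have h2 : (z k + 1) * M ^ k ≤ M * M ^ k := Nat.mul_le_mul_right _ h1
    have h3 : (z k + 1) * M ^ k = z k * M ^ k + M ^ k := by ring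
    have h4 : M ^ k * M = M * M ^ k := by ring
    omega

/-- A filling of minimal weight is lexicographically minimal. -/
lemma lex_min {θ : ℕ → ℕ} {s : ℕ} {c c' : Fin a → Fin a → ℕ} (h : wt θ s c ≤ wt θ s c')
    (k : ℕ) (hk : ∀ k', k < k' → zn θ s c k' = zn θ s c' k') : zn θ s c k ≤ zn θ s c' k := by
  by_contra hlt
  have hlt := not_le.1 hlt
  have hka : k ≤ a := by
    by_contra hka
    rw [zn_zero θ s c (not_le.1 hka)] at hlt
    omega
  have hsplit : ∀ z : ℕ → ℕ, ∑ j ∈ range (a + 1), z j * (2 ^ a + 1) ^ j =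
      ∑ j ∈ range k, z j * (2 ^ a + 1) ^ j + z k * (2 ^ a + 1) ^ k +
        ∑ j ∈ Ico (k + 1) (a + 1), z j * (2 ^ a + 1) ^ j := by
    intro z
    rw [← Finset.sum_range_succ, Finset.sum_range_add_sum_Ico _ (by omega)]
  unfold wt at h
  rw [hsplit, hsplit] at h
  have h1 : ∑ j ∈ Ico (k + 1) (a + 1), zn θ s c j * (2 ^ a + 1) ^ j =
      ∑ j ∈ Ico (k + 1) (a + 1), zn θ s c' j * (2 ^ a + 1) ^ j := by
    apply Finset.sum_congr rfl
    intro j hj
    rw [hk j (Finset.mem_Ico.1 hj).1]
  have h2 := sum_digits (zn θ s c') (2 ^ a + 1)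
    (fun k => Nat.lt_succ_of_le (zn_le θ s c' k)) k
  have h3 : (zn θ s c' k + 1) * (2 ^ a + 1) ^ k ≤ zn θ s c k * (2 ^ a + 1) ^ k :=
    Nat.mul_le_mul_right _ hlt
  have h4 : (zn θ s c' k + 1) * (2 ^ a + 1) ^ k =
      zn θ s c' k * (2 ^ a + 1) ^ k + (2 ^ a + 1) ^ k := by ring
  omega

end SS

open SS

/-- **Structure theorem.** -/
theorem structS (a N Q s L A : ℕ) (θ : ℕ → ℕ) (B : Type) [Fintype B] [DecidableEq B]
    (t : B → Fin N) (pc : B → Fin a × Fin Q)
    (hprop : ∀ x x', t x = t x' → x ≠ x' → (pc x).1 ≠ (pc x').1)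
    (hQ : 1 ≤ Q) (hs : 2 ≤ s) (hA : 2 * A ≤ θ 2)
    (hgr : ∀ r, 2 ≤ r → r ≤ s → A ≤ L * θ r ∧ (r + 1) * r * (L * θ r) ≤ θ (r + 1))
    (halpha : ∀ i j, i ≠ j → A ≤ cc t (fun x => (pc x).1) i j → ∀ κ κ',
      ∃ x x', t x = t x' ∧ pc x = (i, κ) ∧ pc x' = (j, κ'))
    (hbeta : ∀ r, 2 ≤ r → r ≤ s → ∀ i j, i ≠ j → L * θ r ≤ cc t (fun x => (pc x).1) i j →
      ∀ κ κ', θ r ≤ (univ.filter (fun c => (∃ x, t x = c ∧ pc x = (i, κ)) ∧
        ∃ x, t x = c ∧ pc x = (j, κ'))).card)
    (hgam : ∀ S : Finset (Fin a), S.card = s + 1 →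
      θ (s + 1) ≤ sg (cc t (fun x => (pc x).1)) S)
    (y : Fin a × Fin Q → Fin a) (hbal : ∀ m, (univ.filter (fun p => y p = m)).card = Q)
    (hy : ∀ x x', t x = t x' → x ≠ x' → y (pc x) ≠ y (pc x'))
    (hmin : ∀ k, (∀ k', k < k' → zn θ s (cc t (fun x => (pc x).1)) k' =
      zn θ s (cc t (fun x => y (pc x))) k') →
      zn θ s (cc t (fun x => (pc x).1)) k ≤ zn θ s (cc t (fun x => y (pc x))) k) :
    ∃ τ : Equiv.Perm (Fin a), ∀ i κ,
      part (ZZ θ s (cc t (fun x => (pc x).1))) (τ (y (i, κ))) =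
        part (ZZ θ s (cc t (fun x => (pc x).1))) i := by
  classical
  obtain ⟨c, hc⟩ : ∃ c, c = cc t (fun x => (pc x).1) := ⟨_, rfl⟩
  obtain ⟨c', hc'⟩ : ∃ c', c' = cc t (fun x => y (pc x)) := ⟨_, rfl⟩
  rw [← hc, ← hc'] at hmin
  rw [← hc] at hgam ⊢
  obtain ⟨supp, hsupp⟩ : ∃ supp : Fin a → Finset (Fin a),
      ∀ m, supp m = univ.filter (fun i => ∃ κ, y (i, κ) = m) := ⟨_, fun _ => rfl⟩
  have hmem : ∀ i m, i ∈ supp m ↔ ∃ κ, y (i, κ) = m := by
    intro i m
    rw [hsupp, Finset.mem_filter]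
    exact ⟨fun h => h.2, fun h => ⟨Finset.mem_univ _, h⟩⟩
  -- counting pieces
  have hcnt1 : ∀ S : Finset (Fin a), (univ.filter (fun p => y p ∈ S)).card = S.card * Q := by
    intro S
    rw [Finset.card_eq_sum_card_fiberwise (f := y) (t := S)]
    · have h1 : ∀ m ∈ S, ((univ.filter (fun p => y p ∈ S)).filter
          (fun p => y p = m)).card = Q := by
        intro m hm
        refine Eq.trans ?_ (hbal m)
        congr 1
        ext p
        rw [Finset.mem_filter, Finset.mem_filter, Finset.mem_filter]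
        constructor
        · rintro ⟨_, h⟩
          exact ⟨Finset.mem_univ _, h⟩
        · rintro ⟨_, h⟩
          refine ⟨⟨Finset.mem_univ _, ?_⟩, h⟩
          rw [h]
          exact hm
      rw [Finset.sum_congr rfl h1, Finset.sum_const, smul_eq_mul]
    · intro p hp
      exact Finset.mem_coe.2 (Finset.mem_filter.1 hp).2
  have hcnt2 : ∀ S : Finset (Fin a),
      (univ.filter (fun p : Fin a × Fin Q => p.1 ∈ S)).card = S.card * Q := by
    intro S
    have h8 : univ.filter (fun x : Fin a × Fin Q => x.1 ∈ S) =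
        S ×ˢ (univ : Finset (Fin Q)) := by
      ext x
      rw [Finset.mem_filter, Finset.mem_product]
      simp only [Finset.mem_univ, true_and, and_true]
    rw [h8, Finset.card_product, Finset.card_univ, Fintype.card_fin]
  have hsubU : ∀ S : Finset (Fin a), univ.filter (fun p => y p ∈ S) ⊆
      univ.filter (fun p : Fin a × Fin Q => p.1 ∈ S.biUnion supp) := by
    intro S p hp
    refine Finset.mem_filter.2 ⟨Finset.mem_univ _, Finset.mem_biUnion.2
      ⟨y p, (Finset.mem_filter.1 hp).2, (hmem _ _).2 ⟨p.2, rfl⟩⟩⟩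
  -- Hall
  obtain ⟨f, hfinj, hf⟩ : ∃ f : Fin a → Fin a, Function.Injective f ∧ ∀ m, f m ∈ supp m := by
    apply (Finset.all_card_le_biUnion_card_iff_exists_injective supp).1
    intro S
    have h1 := Finset.card_le_card (hsubU S)
    rw [hcnt1, hcnt2] at h1
    exact Nat.le_of_mul_le_mul_right h1 hQ
  obtain ⟨τ, hτf⟩ : ∃ τ : Equiv.Perm (Fin a), ∀ m, τ m = f m :=
    ⟨Equiv.ofBijective f (Finite.injective_iff_bijective.1 hfinj), fun _ => rfl⟩
  have hτ : ∀ m, τ m ∈ supp m := fun m => by rw [hτf]; exact hf m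
  have hexact : ∀ S : Finset (Fin a), S.biUnion supp = S.image τ →
      univ.filter (fun p => y p ∈ S) =
        univ.filter (fun p : Fin a × Fin Q => p.1 ∈ S.image τ) := by
    intro S hS
    apply Finset.eq_of_subset_of_card_le
    · have := hsubU S
      rw [hS] at this
      exact this
    · rw [hcnt1, hcnt2, card_im]
  have hF1 : ∀ m, ∀ i ∈ supp m, ∀ i' ∈ supp m, i ≠ i' → c i i' < A := by
    intro m i hi i' hi' hne
    by_contra hge
    obtain ⟨κ, hκ⟩ := (hmem i m).1 hi
    obtain ⟨κ', hκ'⟩ := (hmem i' m).1 hi'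
    obtain ⟨x, x', h1, h2, h3⟩ := halpha i i' hne (by rw [← hc]; exact not_lt.1 hge) κ κ'
    have hxx : x ≠ x' := by
      intro h
      rw [h, h3] at h2
      exact hne (congrArg Prod.fst h2).symm
    apply hy x x' h1 hxx
    rw [h2, h3, hκ, hκ']
  have hF2 : ∀ r, 2 ≤ r → r ≤ s → ∀ m m', m ≠ m' → ∀ i ∈ supp m, ∀ i' ∈ supp m', i ≠ i' →
      L * θ r ≤ c i i' → θ r ≤ c' m m' := by
    intro r hr2 hrs m m' _ i hi i' hi' hne hge
    obtain ⟨κ, hκ⟩ := (hmem i m).1 hi
    obtain ⟨κ', hκ'⟩ := (hmem i' m').1 hi'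
    refine (hbeta r hr2 hrs i i' hne (by rw [← hc]; exact hge) κ κ').trans ?_
    rw [hc']
    unfold cc
    apply Finset.card_le_card
    intro col hcol
    obtain ⟨⟨x, h1, h2⟩, x', h3, h4⟩ := (Finset.mem_filter.1 hcol).2
    refine Finset.mem_filter.2 ⟨Finset.mem_univ _, ⟨x, h1, ?_⟩, x', h3, ?_⟩
    · change y (pc x) = m
      rw [h2, hκ]
    · change y (pc x') = m'
      rw [h4, hκ']
  have hcons : ∀ S : Finset (Fin a), S.biUnion supp = S.image τ →
      sg c (S.image τ) = sg c' S := by
    intro S hS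
    rw [hc, hc', sg_cc t _ hprop, sg_cc t _ hy]
    apply Finset.sum_congr rfl
    intro col _
    have h1 : univ.filter (fun x => t x = col ∧ (pc x).1 ∈ S.image τ) =
        univ.filter (fun x => t x = col ∧ y (pc x) ∈ S) := by
      apply Finset.filter_congr
      intro x _
      have h2 := Finset.ext_iff.1 (hexact S hS) (pc x)
      rw [Finset.mem_filter, Finset.mem_filter] at h2
      constructor
      · rintro ⟨h3, h4⟩
        exact ⟨h3, (h2.2 ⟨Finset.mem_univ _, h4⟩).2⟩
      · rintro ⟨h3, h4⟩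
        exact ⟨h3, (h2.1 ⟨Finset.mem_univ _, h4⟩).2⟩
    rw [h1]
  have hcore := core hgr hτ hF1 hF2 hcons hgam hmin
  refine ⟨τ, ?_⟩
  intro i κ
  obtain ⟨m, hm⟩ : ∃ m, m = y (i, κ) := ⟨_, rfl⟩
  rw [← hm]
  have him : i ∈ supp m := (hmem i m).2 ⟨κ, hm.symm⟩
  apply part_eq
  by_cases hi : τ m = i
  · exact Or.inl hi
  · right
    constructor
    · have hlow : LowS θ s c {τ m, i} := by
        have hcard : ({τ m, i} : Finset (Fin a)).card = 2 := Finset.card_pair hi
        refine ⟨by rw [hcard], by rw [hcard]; exact hs, ?_⟩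
        rw [hcard]
        have h1 : sg c {τ m, i} = c (τ m) i + c i (τ m) := by
          unfold sg
          have h2 : ({τ m, i} : Finset (Fin a)).offDiag = {(τ m, i), (i, τ m)} := by
            ext p
            rw [Finset.mem_offDiag, Finset.mem_insert, Finset.mem_singleton, Finset.mem_insert,
              Finset.mem_singleton, Finset.mem_insert, Finset.mem_singleton, Prod.ext_iff,
              Prod.ext_iff]
            constructor
            · rintro ⟨h3 | h3, h4 | h4, h5⟩
              · exact absurd (h3.trans h4.symm) h5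
              · exact Or.inl ⟨h3, h4⟩
              · exact Or.inr ⟨h3, h4⟩
              · exact absurd (h3.trans h4.symm) h5
            · rintro (⟨h3, h4⟩ | ⟨h3, h4⟩)
              · refine ⟨Or.inl h3, Or.inr h4, ?_⟩
                rw [h3, h4]
                exact hi
              · refine ⟨Or.inr h3, Or.inl h4, ?_⟩
                rw [h3, h4]
                exact fun h => hi h.symm
          rw [h2, Finset.sum_pair]
          intro h3
          exact hi (congrArg Prod.fst h3)
        have h2 := hF1 m (τ m) (hτ m) i him hi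
        have h3 := hF1 m i him (τ m) (hτ m) (fun h => hi h.symm)
        omega
      obtain ⟨Z, hZ, hsub⟩ := exists_max hlow
      exact ⟨Z, hZ, hsub (Finset.mem_insert_self _ _)⟩
    · intro S hS
      obtain ⟨h1, h2⟩ := hcore (s + 1) S.card (by omega)
      have h3 := h2 S hS rfl
      have h4 := (h1 (S.image τ.symm) h3 (card_im τ.symm S)).2
      have h5 := hexact (S.image τ.symm) h4
      rw [im_symm] at h4 h5
      have h6 := Finset.ext_iff.1 h5 (i, κ)
      rw [Finset.mem_filter, Finset.mem_filter, ← hm] at h6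
      have h7 : m ∈ S.image τ.symm ↔ τ m ∈ S := by
        rw [Finset.mem_image]
        constructor
        · rintro ⟨x, hx, rfl⟩
          rw [τ.apply_symm_apply]
          exact hx
        · intro h
          exact ⟨τ m, h, τ.symm_apply_apply m⟩
      constructor
      · intro h
        exact (h6.1 ⟨Finset.mem_univ _, h7.2 h⟩).2
      · intro h
        exact h7.1 (h6.2 ⟨Finset.mem_univ _, h⟩).2

end Vale.Agent.P181.T3
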